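import Crest.Agent.R11.Defs
/-!
# R11: lattice points in simplices
-/

set_option autoImplicit false

open MvPolynomial

noncomputable section

namespace Crest.Agent.R11

variable {m : ℕ} {lam : Fin m → ℝ}

theorem mem_smp (hl : ∀ k, 1 ≤ lam k) {x : ℝ} {a : Fin m → ℕ} :
    a ∈ smp lam x ↔ ∑ k, (a k : ℝ) * lam k ≤ x := by
  rw [smp, Finset.mem_filter, and_iff_right_iff_imp]
  intro h
  rw [Fintype.mem_piFinset]
  intro k
  rw [Finset.mem_range, Nat.lt_succ_iff]
  refine Nat.le_floor (le_trans ?_ h)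
  refine le_trans (le_mul_of_one_le_right (Nat.cast_nonneg _) (hl k)) ?_
  exact Finset.single_le_sum (f := fun k => (a k : ℝ) * lam k)
    (fun k _ => mul_nonneg (Nat.cast_nonneg _) (zero_le_one.trans (hl k))) (Finset.mem_univ k)

theorem smp_mono (hl : ∀ k, 1 ≤ lam k) {x y : ℝ} (h : x ≤ y) : smp lam x ⊆ smp lam y := by
  intro a ha
  rw [mem_smp hl] at ha ⊢
  exact ha.trans h

theorem card_smp_le (lam : Fin m → ℝ) {x : ℝ} (hx : 0 ≤ x) :
    ((smp lam x).card : ℝ) ≤ (x + 1) ^ m := by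
  have h1 : (smp lam x).card ≤ (⌊x⌋₊ + 1) ^ m := by
    refine (Finset.card_filter_le _ _).trans ?_
    simp
  calc ((smp lam x).card : ℝ) ≤ ((⌊x⌋₊ : ℝ) + 1) ^ m := by exact_mod_cast h1
    _ ≤ (x + 1) ^ m := by gcongr; exact Nat.floor_le hx

theorem one_le_card_smp (lam : Fin m → ℝ) {x : ℝ} (hx : 0 ≤ x) : 1 ≤ (smp lam x).card := by
  refine Finset.card_pos.2 ⟨fun _ => 0, ?_⟩
  simp [smp, hx]

/-- The map `(a, r) ↦ ((u a + r) / v, (u a + r) % v)` on `smp x × [0,u)^m` is injective, with values in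
`smp (u / v * (x + Σ lam)) × [0,v)^m`. -/
theorem card_smp_scale_nat (hl : ∀ k, 1 ≤ lam k) (x : ℝ) {u v : ℕ} (hv : 0 < v) :
    (smp lam x).card * u ^ m ≤ (smp lam ((u : ℝ) / v * (x + ∑ k, lam k))).card * v ^ m := by
  have e : ∀ (s : Finset (Fin m → ℕ)) (w : ℕ), s.card * w ^ m =
      (s ×ˢ Fintype.piFinset fun _ : Fin m => Finset.range w).card := by
    intro s w; simp
  rw [e, e]
  refine Finset.card_le_card_of_injOn
    (fun p => (fun k => (u * p.1 k + p.2 k) / v, fun k => (u * p.1 k + p.2 k) % v)) ?_ ?_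
  · rintro ⟨a, r⟩ hp
    simp only [Finset.coe_product, Set.mem_prod, Finset.mem_coe, mem_smp hl, Fintype.mem_piFinset,
      Finset.mem_range] at hp ⊢
    refine ⟨?_, fun k => Nat.mod_lt _ hv⟩
    have hv' : (0 : ℝ) < v := by exact_mod_cast hv
    calc ∑ k, (((u * a k + r k) / v : ℕ) : ℝ) * lam k
        ≤ ∑ k, (u : ℝ) / v * ((a k : ℝ) * lam k + lam k) := by
          refine Finset.sum_le_sum fun k _ => ?_
          have h1 : (((u * a k + r k) / v : ℕ) : ℝ) ≤ (u : ℝ) / v * (a k + 1) := by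
            refine Nat.cast_div_le.trans ?_
            rw [div_mul_eq_mul_div]
            gcongr
            have : (r k : ℝ) ≤ u := by exact_mod_cast (hp.2 k).le
            push_cast
            linarith
          calc _ ≤ (u : ℝ) / v * (a k + 1) * lam k :=
                mul_le_mul_of_nonneg_right h1 (zero_le_one.trans (hl k))
            _ = _ := by ring
      _ = (u : ℝ) / v * (∑ k, (a k : ℝ) * lam k + ∑ k, lam k) := by
          rw [← Finset.mul_sum, Finset.sum_add_distrib]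
      _ ≤ _ := by gcongr; exact hp.1
  · rintro ⟨a, r⟩ hp ⟨a', r'⟩ hp' h
    simp only [Finset.coe_product, Set.mem_prod, Finset.mem_coe, Fintype.mem_piFinset,
      Finset.mem_range] at hp hp'
    simp only [Prod.mk.injEq, funext_iff] at h ⊢
    have h1 : ∀ k, u * a k + r k = u * a' k + r' k := fun k => by
      rw [← Nat.div_add_mod (u * a k + r k) v, h.1 k, h.2 k, Nat.div_add_mod]
    have h2 : ∀ k, r k = r' k := fun k => by
      have := congrArg (· % u) (h1 k)
      simpa [Nat.mod_eq_of_lt (hp.2 k), Nat.mod_eq_of_lt (hp'.2 k)] using this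
    refine ⟨fun k => ?_, h2⟩
    have := h1 k
    rw [h2 k] at this
    exact Nat.eq_of_mul_eq_mul_left (Nat.zero_lt_of_lt (hp.2 k)) (Nat.add_right_cancel this)

theorem card_smp_scale (hl : ∀ k, 1 ≤ lam k) {x x' θ : ℝ} (hθ : 0 < θ) (hx : 0 ≤ x)
    (h : θ * (x + ∑ k, lam k) < x') : ((smp lam x).card : ℝ) * θ ^ m ≤ (smp lam x').card := by
  have hs : 0 ≤ x + ∑ k, lam k :=
    add_nonneg hx (Finset.sum_nonneg fun k _ => zero_le_one.trans (hl k))
  obtain ⟨q, h1, h2⟩ : ∃ q : ℚ, θ < q ∧ q * (x + ∑ k, lam k) ≤ x' := by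
    rcases hs.eq_or_lt with h0 | h0
    · obtain ⟨q, hq⟩ := exists_rat_gt θ
      exact ⟨q, hq, by rw [← h0, mul_zero] at h ⊢; exact h.le⟩
    · obtain ⟨q, h1, h2⟩ := exists_rat_btwn ((lt_div_iff₀ h0).2 h)
      exact ⟨q, h1, ((lt_div_iff₀ h0).1 h2).le⟩
  have hq : 0 < q := by exact_mod_cast hθ.trans h1
  have e : (q : ℝ) = (q.num.toNat : ℝ) / q.den := by
    rw [Rat.cast_def]
    congr 1
    exact_mod_cast (Int.toNat_of_nonneg (Rat.num_pos.2 hq).le).symm
  have h3 := card_smp_scale_nat hl x (u := q.num.toNat) q.den_pos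
  rw [← e] at h3
  have h4 : ((smp lam x).card : ℝ) * (q.num.toNat : ℝ) ^ m ≤ (smp lam x').card * (q.den : ℝ) ^ m := by
    exact_mod_cast h3.trans (Nat.mul_le_mul_right _ (Finset.card_le_card (smp_mono hl h2)))
  have hd : (0 : ℝ) < (q.den : ℝ) ^ m := by have := q.den_pos; positivity
  calc ((smp lam x).card : ℝ) * θ ^ m ≤ (smp lam x).card * (q : ℝ) ^ m := by gcongr
    _ ≤ _ := by rw [e, div_pow, ← mul_div_assoc, div_le_iff₀ hd]; exact h4

theorem mem_Un {b x : ℝ} {f : Rm m} :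
    f ∈ Un lam b x ↔ ∀ β ∈ f.support, (β 0 : ℝ) ≤ b ∧ ∑ k : Fin m, (β k.succ : ℝ) * lam k ≤ x := by
  exact Iff.rfl

theorem Un_mono {b b' x x' : ℝ} (hb : b ≤ b') (hx : x ≤ x') : Un lam b x ≤ Un lam b' x' := by
  intro f hf
  rw [mem_Un] at hf ⊢
  exact fun β hβ => ⟨(hf β hβ).1.trans hb, (hf β hβ).2.trans hx⟩

theorem mul_mem_Un {b b' x x' : ℝ} {f g : Rm m} (hf : f ∈ Un lam b x) (hg : g ∈ Un lam b' x') :
    f * g ∈ Un lam (b + b') (x + x') := by
  classical
  rw [mem_Un] at hf hg ⊢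
  intro β hβ
  obtain ⟨a, ha, c, hc, rfl⟩ := Finset.mem_add.1 (support_mul f g hβ)
  simp only [Finsupp.add_apply, Nat.cast_add, add_mul, Finset.sum_add_distrib]
  exact ⟨add_le_add (hf a ha).1 (hg c hc).1, add_le_add (hf a ha).2 (hg c hc).2⟩

theorem prod_sub_pow_mem_Un (hl : ∀ k, 1 ≤ lam k) (c : Fin m → ℂ) (j : Fin m → ℕ) :
    ∏ k : Fin m, ((X k.succ : Rm m) - C (c k)) ^ j k ∈ Un lam 0 (∑ k, (j k : ℝ) * lam k) := by
  classical
  have h1 : ∀ (c : ℂ) (x : ℝ), 0 ≤ x → (C c : Rm m) ∈ Un lam 0 x := by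
    intro c x hx
    rw [mem_Un]
    intro β hβ
    have : β = 0 := by simpa using support_monomial_subset hβ
    subst this
    simpa using hx
  have h2 : ∀ k : Fin m, (X k.succ - C (c k) : Rm m) ∈ Un lam 0 (lam k) := by
    intro k
    refine Submodule.sub_mem _ ?_ (h1 _ _ (zero_le_one.trans (hl k)))
    rw [mem_Un]
    intro β hβ
    rw [support_X, Finset.mem_singleton] at hβ
    subst hβ
    refine ⟨by simp, ?_⟩
    rw [Finset.sum_eq_single k (fun k' _ hk => by simp [hk]) (by simp)]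
    simp
  have h3 : ∀ (k : Fin m) (n : ℕ), (X k.succ - C (c k) : Rm m) ^ n ∈ Un lam 0 (n * lam k) := by
    intro k n
    induction n with
    | zero => simpa using h1 1 0 le_rfl
    | succ n ih =>
      have := mul_mem_Un ih (h2 k)
      rw [add_zero] at this
      rw [pow_succ, Nat.cast_succ, add_mul, one_mul]
      exact this
  generalize (Finset.univ : Finset (Fin m)) = s
  induction s using Finset.induction_on with
  | empty => simpa using h1 1 0 le_rfl
  | insert k s hk ih =>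
    rw [Finset.prod_insert hk, Finset.sum_insert hk]
    simpa using mul_mem_Un (h3 k (j k)) ih

theorem Un_fg_inj (hl : ∀ k, 1 ≤ lam k) (b x : ℝ) :
    ∃ f : {β : Fin (m + 1) →₀ ℕ | (β 0 : ℝ) ≤ b ∧ ∑ k : Fin m, (β k.succ : ℝ) * lam k ≤ x} →
      (Finset.range (⌊b⌋₊ + 1) ×ˢ smp lam x : Finset _), Function.Injective f := by
  refine ⟨fun β => ⟨(β.1 0, fun k => β.1 k.succ), Finset.mem_product.2
    ⟨Finset.mem_range.2 (Nat.lt_succ_of_le (Nat.le_floor β.2.1)), (mem_smp hl).2 β.2.2⟩⟩, ?_⟩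
  intro β β' h
  simp only [Subtype.mk.injEq, Prod.mk.injEq, funext_iff] at h
  exact Subtype.ext (Finsupp.ext fun i => Fin.cases h.1 h.2 i)

theorem Un_fg (hl : ∀ k, 1 ≤ lam k) (b x : ℝ) : (Un lam b x).FG := by
  have : Finite {β : Fin (m + 1) →₀ ℕ | (β 0 : ℝ) ≤ b ∧ ∑ k : Fin m, (β k.succ : ℝ) * lam k ≤ x} := by
    obtain ⟨f, hf⟩ := Un_fg_inj hl b x
    exact Finite.of_injective f hf
  exact Module.Finite.iff_fg.1 (Module.Finite.of_basis (basisRestrictSupport ℂ _))

theorem rank_Un_le (hl : ∀ k, 1 ≤ lam k) (b : ℕ) (x : ℝ) :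
    Module.rank ℂ (Un lam b x) ≤ ((b + 1) * (smp lam x).card : ℕ) := by
  obtain ⟨f, hf⟩ := Un_fg_inj hl b x
  have := Cardinal.mk_le_of_injective hf
  rw [(basisRestrictSupport ℂ _).mk_eq_rank''] at this
  refine this.trans (le_of_eq ?_)
  rw [Cardinal.mk_coe_finset, Finset.card_product, Finset.card_range, Nat.floor_natCast]

theorem Un_exhaust {b x : ℝ} (hb : 0 < b) (hx : 0 < x) (f : Rm m) :
    ∃ n : ℕ, f ∈ Un lam (n * b) (n * x) := by
  have : ∀ᶠ n : ℕ in Filter.atTop, ∀ β ∈ f.support,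
      (β 0 : ℝ) ≤ n * b ∧ ∑ k : Fin m, (β k.succ : ℝ) * lam k ≤ n * x := by
    rw [Filter.eventually_all_finset]
    intro β _
    exact ((tendsto_natCast_atTop_atTop.atTop_mul_const hb).eventually_ge_atTop _).and
      ((tendsto_natCast_atTop_atTop.atTop_mul_const hx).eventually_ge_atTop _)
  exact this.exists

/-- The numerical end of the zero estimate: use `card_smp_scale` with `x = n D`, `x' = n θ' D`, and
(for a lower bound `c n^m` of the count) with `x = 0`. -/
theorem le_of_count (hl : ∀ k, 1 ≤ lam k) {D θ θ' a b C : ℝ} (hD : 0 < D) (hθ : 0 < θ)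
    (hθ' : θ < θ') (ha : 0 ≤ a)
    (h : ∀ᶠ n : ℕ in Filter.atTop, (n : ℝ) * a * (smp lam (n * (θ' * D))).card ≤
      (n * b + 1) * (smp lam (n * D)).card + C * (n : ℝ) ^ m) : a * θ ^ m ≤ b := by
  set L := ∑ k, lam k with hL
  have hL0 : 0 ≤ L := Finset.sum_nonneg fun k _ => zero_le_one.trans (hl k)
  set c := D / (L + 1) with hc
  have hc0 : 0 < c := by positivity
  have hcL : c * L < D := by
    rw [hc, div_mul_eq_mul_div, div_lt_iff₀ (by positivity)]
    nlinarith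
  have h1 : ∀ᶠ n : ℕ in Filter.atTop, θ * L < n * ((θ' - θ) * D) :=
    (tendsto_natCast_atTop_atTop.atTop_mul_const (mul_pos (sub_pos.2 hθ') hD)).eventually_gt_atTop _
  have h2 : ∀ᶠ n : ℕ in Filter.atTop, (n : ℝ) * (a * θ ^ m - b) ≤ 1 + |C| / c ^ m := by
    filter_upwards [h, h1, Filter.eventually_gt_atTop 0] with n hn h1 h0
    have h0' : (0 : ℝ) < n := by exact_mod_cast h0
    have e1 := card_smp_scale hl (x := n * D) (x' := n * (θ' * D)) hθ (by positivity)
      (by rw [← hL]; nlinarith)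
    have e2 := card_smp_scale hl (x := 0) (x' := n * D) (θ := c * n) (by positivity) le_rfl
      (by rw [← hL]; nlinarith)
    have e3 : (1 : ℝ) ≤ (smp lam 0).card := by exact_mod_cast one_le_card_smp lam le_rfl
    set N : ℝ := ((smp lam (n * D)).card : ℝ) with hN
    have e4 : (c * n) ^ m ≤ N := le_trans (le_mul_of_one_le_left (by positivity) e3) e2
    have hN0 : 0 < N := lt_of_lt_of_le (by positivity) e4
    have e5 : C * (n : ℝ) ^ m ≤ |C| / c ^ m * N := by
      calc C * (n : ℝ) ^ m ≤ |C| * (n : ℝ) ^ m := by gcongr; exact le_abs_self C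
        _ = |C| / c ^ m * (c * n) ^ m := by rw [mul_pow]; field_simp
        _ ≤ _ := by gcongr
    have e6 : (n : ℝ) * a * (N * θ ^ m) ≤ (n * b + 1) * N + |C| / c ^ m * N :=
      le_trans (by gcongr) (hn.trans (by gcongr))
    refine le_of_mul_le_mul_right ?_ hN0
    linarith
  by_contra hab
  have h3 := (tendsto_natCast_atTop_atTop (R := ℝ)).atTop_mul_const (sub_pos.2 (not_le.1 hab))
  obtain ⟨n, h4, h5⟩ := (h2.and (h3.eventually_gt_atTop (1 + |C| / c ^ m))).exists
  exact absurd h4 (not_le.2 h5)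

end Crest.Agent.R11
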