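import Crest.Agent.R11.Defs
/-!
# R11: expansion in local coordinates
-/

set_option autoImplicit false

open MvPolynomial

noncomputable section

namespace Crest.Agent.R11

variable {m : ℕ} (P : Par m)

/-- The map `MvPolynomial (Fin m) ℂ[X] → Rm m`, `X ↦ X 0 - 1`, `X k ↦ loc k.succ` (e.g. `eval₂Hom`) is a left
inverse of `Θ s` (check on the variables); expand `Θ s f` in monomials and its coefficients in powers of `X`. -/
theorem Par.mem_of_expand (s : ℕ) (N : Submodule ℂ (Rm m)) {f : Rm m}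
    (h : ∀ (j : Fin m →₀ ℕ) (t : ℕ), (coeff j (P.Θ s f)).coeff t ≠ 0 →
      P.loc s 0 ^ t * ∏ k : Fin m, P.loc s k.succ ^ j k ∈ N) : f ∈ N := by
  let ψ₀ : Polynomial ℂ →+* Rm m := (Polynomial.aeval (X 0 - 1 : Rm m)).toRingHom
  have hψ₀ : ∀ p, ψ₀ p = Polynomial.aeval (X 0 - 1 : Rm m) p := fun _ => rfl
  have key : (eval₂Hom ψ₀ fun k => P.loc s k.succ).comp (P.Θ s).toRingHom = RingHom.id _ := by
    refine MvPolynomial.ringHom_ext (fun c => ?_) fun i => ?_
    · simp [Par.Θ, hψ₀]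
    · refine Fin.cases ?_ (fun k => ?_) i
      · simp [Par.Θ, hψ₀]
      · simp [Par.Θ, hψ₀, Par.loc]
  have e : f = eval₂ ψ₀ (fun k => P.loc s k.succ) (P.Θ s f) := (RingHom.congr_fun key f).symm
  rw [e, eval₂_eq']
  refine N.sum_mem fun j _ => ?_
  rw [hψ₀, Polynomial.aeval_eq_sum_range, Finset.sum_mul]
  refine N.sum_mem fun t _ => ?_
  rw [smul_mul_assoc]
  by_cases ht : (coeff j (P.Θ s f)).coeff t = 0
  · rw [ht, zero_smul]
    exact N.zero_mem
  · exact N.smul_mem _ (h j t ht)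

/-- Binomial expansion of each factor, `Finset.prod_univ_sum`. -/
theorem coeff_prod_X_add_C {R : Type} [CommRing R] (h : Fin m → R) (a : Fin m → ℕ)
    (j : Fin m →₀ ℕ) :
    coeff j (∏ k, (X k + C (h k)) ^ a k : MvPolynomial (Fin m) R) =
      ∏ k, (((a k).choose (j k) : ℕ) : R) * h k ^ (a k - j k) := by
  classical
  have e : ∀ k, (X k + C (h k) : MvPolynomial (Fin m) R) ^ a k =
      ∑ i ∈ Finset.range (a k + 1), C ((((a k).choose i : ℕ) : R) * h k ^ (a k - i)) * X k ^ i :=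
    fun k => by
      rw [add_pow]
      refine Finset.sum_congr rfl fun i _ => ?_
      simp only [map_mul, map_pow, map_natCast]
      ring
  have e2 : ∀ x : Fin m → ℕ, (∏ k, C ((((a k).choose (x k) : ℕ) : R) * h k ^ (a k - x k)) *
      X k ^ x k : MvPolynomial (Fin m) R) = monomial (Finsupp.equivFunOnFinite.symm x)
        (∏ k, (((a k).choose (x k) : ℕ) : R) * h k ^ (a k - x k)) := fun x => by
    rw [monomial_eq, Finsupp.prod_fintype _ _ (by simp), Finset.prod_mul_distrib, map_prod]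
    simp
  simp only [e]
  rw [Finset.prod_univ_sum, coeff_sum]
  simp only [e2, coeff_monomial]
  rw [Finset.sum_eq_single (j : Fin m → ℕ)]
  · simp
  · intro x _ hx
    rw [if_neg]
    rintro rfl
    exact hx (by simp)
  · intro hj
    rw [if_pos (by simp)]
    rw [Fintype.mem_piFinset] at hj
    push Not at hj
    obtain ⟨k, hk⟩ := hj
    refine Finset.prod_eq_zero (Finset.mem_univ k) ?_
    rw [Nat.choose_eq_zero_of_lt (by simpa using hk)]
    simp

theorem Par.coeff_Θ (s t : ℕ) (j : Fin m →₀ ℕ) (a : Fin m → ℕ) (b : ℕ) :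
    (coeff j (P.Θ s (X 0 ^ b * ∏ k : Fin m, X k.succ ^ a k))).coeff t = P.entry s t j a b := by
  have e : P.Θ s (X 0 ^ b * ∏ k : Fin m, X k.succ ^ a k) =
      C ((1 + Polynomial.X) ^ b) * ∏ k, (X k + C (P.hh s k)) ^ a k := by
    simp [Par.Θ]
  rw [e, coeff_C_mul, coeff_prod_X_add_C]
  rfl

/-- The polynomial with the coefficients `c`. -/
def Par.poly (c : (Fin m → ℕ) × ℕ → ℂ) : Rm m :=
  ∑ ab ∈ P.cols, c ab • (X 0 ^ ab.2 * ∏ k : Fin m, X k.succ ^ ab.1 k)

theorem Par.coeff_Θ_poly (c : (Fin m → ℕ) × ℕ → ℂ) (s t : ℕ) (j : Fin m →₀ ℕ) :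
    (coeff j (P.Θ s (P.poly c))).coeff t = ∑ ab ∈ P.cols, c ab * P.entry s t j ab.1 ab.2 := by
  unfold Par.poly
  rw [map_sum, coeff_sum, Polynomial.finsetSum_coeff]
  refine Finset.sum_congr rfl fun ab _ => ?_
  rw [map_smul, coeff_smul, Polynomial.coeff_smul, P.coeff_Θ, smul_eq_mul]

theorem locA_mono (a : Fin m → ℕ) (b : ℕ) :
    (X 0 ^ b * ∏ k : Fin m, X k.succ ^ a k : Rm m) =
      monomial (Finsupp.equivFunOnFinite.symm (Fin.cons b a)) 1 := by
  rw [monomial_eq, Finsupp.prod_fintype _ _ (by simp), Fin.prod_univ_succ]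
  simp

/-- The products are the distinct monomials `monomial (Finsupp.cons b a) 1`. -/
theorem Par.eq_zero_of_poly {c : (Fin m → ℕ) × ℕ → ℂ} (h : P.poly c = 0) :
    ∀ ab ∈ P.cols, c ab = 0 := by
  classical
  intro ab hab
  have := congrArg (coeff (Finsupp.equivFunOnFinite.symm (Fin.cons ab.2 ab.1))) h
  unfold Par.poly at this
  simp only [locA_mono, coeff_sum, coeff_smul, coeff_monomial, coeff_zero] at this
  rw [Finset.sum_eq_single ab] at this
  · simpa using this
  · intro ab' _ hne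
    rw [if_neg, smul_zero]
    intro he
    have h1 := Finsupp.equivFunOnFinite.symm.injective he
    rw [Fin.cons_inj] at h1
    exact hne (Prod.ext h1.2 h1.1)
  · intro h'
    exact absurd hab h'

theorem Par.poly_mem_Un (c : (Fin m → ℕ) × ℕ → ℂ) : P.poly c ∈ Un P.lam P.M P.D := by
  refine Submodule.sum_mem _ fun ab hab => Submodule.smul_mem _ _ ?_
  rw [locA_mono]
  refine (monomial_mem_restrictSupport ℂ).2 (Or.inl ?_)
  obtain ⟨h1, h2⟩ := Finset.mem_product.1 hab
  refine ⟨?_, ?_⟩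
  · have := Finset.mem_range.1 h2
    simp only [Finsupp.coe_equivFunOnFinite_symm, Fin.cons_zero]
    exact_mod_cast Nat.lt_succ_iff.1 this
  · simpa using (Finset.mem_filter.1 h1).2

theorem one_add_X_mul_derivative_lg (n : ℕ) :
    (1 + Polynomial.X) * Polynomial.derivative (lg (n + 1)) = 1 - (-Polynomial.X) ^ n := by
  induction n with
  | zero => simp [lg]
  | succ n ih =>
    have e : lg (n + 1 + 1) = lg (n + 1) +
        Polynomial.C ((-1) ^ (n + 1 + 1) / ((n + 1 : ℕ) : ℂ)) * Polynomial.X ^ (n + 1) :=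
      Finset.sum_range_succ _ _
    have h0 : ((n + 1 : ℕ) : ℂ) ≠ 0 := Nat.cast_ne_zero.2 n.succ_ne_zero
    have e2 : Polynomial.derivative (Polynomial.C ((-1) ^ (n + 1 + 1) / ((n + 1 : ℕ) : ℂ)) *
        Polynomial.X ^ (n + 1)) = (-Polynomial.X) ^ n := by
      rw [Polynomial.derivative_C_mul_X_pow, div_mul_cancel₀ _ h0, Nat.add_sub_cancel,
        neg_pow (Polynomial.X : Polynomial ℂ)]
      simp [pow_succ]
    rw [e, map_add, e2, mul_add, ih]
    ring

theorem locA_eval_lg (n : ℕ) (v : ℂ) : (lg n).eval v = Complex.logTaylor n v := by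
  unfold lg Complex.logTaylor
  rw [Polynomial.eval_finsetSum]
  refine Finset.sum_congr rfl fun j _ => ?_
  rw [Polynomial.eval_mul, Polynomial.eval_C, Polynomial.eval_pow, Polynomial.eval_X]
  ring

theorem lg_coeff_zero (n : ℕ) : (lg n).coeff 0 = 0 := by
  rw [Polynomial.coeff_zero_eq_eval_zero, locA_eval_lg, Complex.logTaylor_at_zero]

theorem eval_lg (n : ℕ) (v : ℂ) : (lg n).eval v = Complex.logTaylor n v := by
  exact locA_eval_lg n v

end Crest.Agent.R11
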