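import Crest.Agent.R11.Det
import Crest.Agent.R11.Count
import Crest.Agent.R11.LocA
/-!
# R11: expansion of the entries along the curve
-/

set_option autoImplicit false

open MvPolynomial

noncomputable section

namespace Crest.Agent.R11

open Filter Topology

variable {m : ℕ} {P : Par m}

/-- The matrix of the functions `(∂^j / j!) (z^a w^b)` along the curve, expanded in powers of `ζ`. -/
def Bm (j : Fin m → ℕ) (i : ℕ) (a : Fin m → ℕ) (b : ℕ) : ℂ :=
  (∏ k, ((a k).choose (j k) : ℂ)) * ecoef (∑ k, (a k - j k)) b i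

theorem analAa_identity {lam : Fin m → ℝ} (hl : ∀ k, 1 ≤ lam k) {D : ℝ} {a : Fin m → ℕ}
    (ha : a ∈ smp lam D) (j' : Fin m → ℕ) (ζ : ℂ) (η : Fin m → ℂ) :
    ∏ k, ((a k).choose (j' k) : ℂ) * (ζ + η k) ^ (a k - j' k) =
      ∑ j ∈ smp lam D, (∏ k, ((j k).choose (j' k) : ℂ) * η k ^ (j k - j' k)) *
        (∏ k, ((a k).choose (j k) : ℂ)) * ζ ^ (∑ k, (a k - j k)) := by
  classical
  have hL : ∀ k, a k < ⌊D⌋₊ + 1 := fun k =>
    Finset.mem_range.1 (Fintype.mem_piFinset.1 (Finset.mem_filter.1 ha).1 k)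
  rw [Finset.prod_congr rfl fun k _ => choose_mul_add_pow (a k) (j' k) _ (hL k) ζ (η k),
    Finset.prod_univ_sum]
  symm
  have hsub : smp lam D ⊆ Fintype.piFinset fun _ : Fin m => Finset.range (⌊D⌋₊ + 1) :=
    Finset.filter_subset _ _
  rw [← Finset.sum_subset hsub]
  · refine Finset.sum_congr rfl fun j _ => ?_
    rw [← Finset.prod_pow_eq_pow_sum, mul_assoc, ← Finset.prod_mul_distrib,
      ← Finset.prod_mul_distrib]
  · intro j _ hj
    have : ∃ k, a k < j k := by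
      by_contra hc
      push Not at hc
      apply hj
      rw [mem_smp hl] at ha ⊢
      refine le_trans (Finset.sum_le_sum fun k _ => ?_) ha
      exact mul_le_mul_of_nonneg_right (by exact_mod_cast hc k) (zero_le_one.trans (hl k))
    obtain ⟨k, hk⟩ := this
    refine Finset.prod_eq_zero (Finset.mem_univ k) ?_
    rw [Nat.choose_eq_zero_of_lt hk]
    simp

/-- Pointwise identity: `choose_mul_add_pow` in each variable, `Finset.prod_univ_sum`, the terms with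
`j ∉ smp lam D` vanish (`j ≤ a` otherwise), `hasSum_ecoef`. -/
theorem tendsto_expand {lam : Fin m → ℝ} (hl : ∀ k, 1 ≤ lam k) {D : ℝ} {a : Fin m → ℕ}
    (ha : a ∈ smp lam D) (b : ℕ) (j' : Fin m → ℕ) (ζ : ℂ) (η : Fin m → ℂ) :
    Tendsto (fun I : ℕ => ∑ j ∈ smp lam D, ∑ i ∈ Finset.range I,
        ((∏ k, ((j k).choose (j' k) : ℂ) * η k ^ (j k - j' k)) * ζ ^ i) * Bm j i a b) atTop
      (𝓝 (Complex.exp (b * ζ) * ∏ k, ((a k).choose (j' k) : ℂ) * (ζ + η k) ^ (a k - j' k))) := by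
  rw [analAa_identity hl ha j' ζ η, Finset.mul_sum]
  refine tendsto_finsetSum _ fun j _ => ?_
  have h1 := ((hasSum_ecoef (∑ k, (a k - j k)) b ζ).mul_left
    ((∏ k, ((j k).choose (j' k) : ℂ) * η k ^ (j k - j' k)) *
      (∏ k, ((a k).choose (j k) : ℂ)))).tendsto_sum_nat
  convert h1 using 1
  · ext I
    refine Finset.sum_congr rfl fun i _ => ?_
    rw [Bm]
    ring
  · congr 1
    ring

theorem AnalAb_term {S : ℝ} (hS : 1 ≤ S) {L : ℝ} {η : ℂ} (hη : ‖η‖ ≤ 4 * S * Real.exp (-L))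
    (j j' : ℕ) :
    ‖(j.choose j' : ℂ) * η ^ (j - j')‖ ≤
      Real.exp (j' * L) * ((8 * S) ^ j * Real.exp (-(j * L))) := by
  rcases lt_or_ge j j' with hlt | hle
  · rw [Nat.choose_eq_zero_of_lt hlt]
    simp only [Nat.cast_zero, zero_mul, norm_zero]
    positivity
  · obtain ⟨d, rfl⟩ := Nat.exists_eq_add_of_le hle
    rw [Nat.add_sub_cancel_left, norm_mul, norm_pow, Complex.norm_natCast]
    have h1 : (((j' + d).choose j' : ℕ) : ℝ) ≤ 2 ^ (j' + d) := by
      exact_mod_cast Nat.choose_le_two_pow _ _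
    have h2 : ‖η‖ ^ d ≤ (4 * S * Real.exp (-L)) ^ d := pow_le_pow_left₀ (norm_nonneg _) hη d
    have h3 : (4 * S) ^ d ≤ (4 * S) ^ (j' + d) :=
      pow_le_pow_right₀ (by linarith) (Nat.le_add_left _ _)
    have h4 : Real.exp (-L) ^ d = Real.exp (j' * L) * Real.exp (-(((j' + d : ℕ) : ℝ) * L)) := by
      rw [← Real.exp_nat_mul, ← Real.exp_add]
      congr 1
      push_cast
      ring
    have h5 : (8 * S) ^ (j' + d) = 2 ^ (j' + d) * (4 * S) ^ (j' + d) := by
      rw [← mul_pow]; congr 1; ring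
    rw [mul_pow, h4] at h2
    rw [h5]
    calc (((j' + d).choose j' : ℕ) : ℝ) * ‖η‖ ^ d
        ≤ 2 ^ (j' + d) * ((4 * S) ^ d *
          (Real.exp (j' * L) * Real.exp (-(((j' + d : ℕ) : ℝ) * L)))) :=
          mul_le_mul h1 h2 (by positivity) (by positivity)
      _ ≤ 2 ^ (j' + d) * ((4 * S) ^ (j' + d) *
          (Real.exp (j' * L) * Real.exp (-(((j' + d : ℕ) : ℝ) * L)))) := by gcongr
      _ = _ := by ring

theorem AnalAb_log {v : ℂ} (hv : ‖v‖ ≤ 1 / 2) {n : ℕ} (hn : 1 ≤ n) :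
    ‖Complex.logTaylor n v - Complex.log (1 + v)‖ ≤ 2 * ‖v‖ ^ n := by
  obtain ⟨n, rfl⟩ := Nat.exists_eq_add_of_le' hn
  rw [norm_sub_rev]
  refine (Complex.norm_log_sub_logTaylor_le n (by linarith)).trans ?_
  have h1 : (1 - ‖v‖)⁻¹ ≤ 2 := by
    rw [inv_le_comm₀ (by linarith) (by norm_num)]; linarith
  have h2 : (1 : ℝ) ≤ n + 1 := by linarith [(Nat.cast_nonneg n : (0 : ℝ) ≤ n)]
  have h3 : 0 ≤ (1 - ‖v‖)⁻¹ := inv_nonneg.2 (by linarith)
  refine (div_le_self (by positivity) h2).trans ?_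
  rw [mul_comm 2]
  gcongr

/-- One row. With `r = exp (-ν D / (K T)) ≤ 1/2`, `exists_coeff_formula` (`Q` larger than `t` and all degrees),
`ζ u = 2 π i s + log (1 + v u)`, `η u k = s ρ k + logTaylor (n k) (v u) - ζ u`; `‖ζ u‖ ≤ 8 S`,
`‖η u k‖ ≤ 4 S exp (-ν lam k)` (`Complex.norm_log_sub_logTaylor_le`, `norm_log_one_add_half_le_self`),
`(1 + v u)^b = exp (b ζ u)`; `A j i = Σ_u c u * (∏ choose * η^(j - j')) * ζ^i`. -/
theorem Par.exists_row {ν K : ℝ} (hν : 1 ≤ ν) (hl : ∀ k, 1 ≤ P.lam k) (hK : 0 < K) (hT : 0 < P.T)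
    (hKT : K * P.T ≤ P.D) (hn : ∀ k, K * P.T * P.lam k ≤ P.n k * P.D)
    (hρ : ∀ k, ‖P.ρ k - 2 * Real.pi * Complex.I‖ ≤ 2 * Real.exp (-ν * P.lam k))
    {s t : ℕ} (hs : s < P.S) (ht : t < P.T) (j' : Fin m → ℕ) :
    ∃ A : (Fin m → ℕ) → ℕ → ℂ,
      (∀ j i, ‖A j i‖ ≤ Real.exp (ν * P.D / K + ν * ∑ k, (j' k : ℝ) * P.lam k) *
        (8 * P.S) ^ (∑ k, j k) * Real.exp (-ν * ∑ k, (j k : ℝ) * P.lam k) * (8 * P.S) ^ i) ∧
      ∀ ab ∈ P.cols, Tendsto (fun I : ℕ => ∑ j ∈ smp P.lam P.D, ∑ i ∈ Finset.range I,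
        A j i * Bm j i ab.1 ab.2) atTop (𝓝 (P.entry s t j' ab.1 ab.2)) := by
  classical
  have hT' : (0 : ℝ) < P.T := by exact_mod_cast hT
  have hKT0 : 0 < K * P.T := mul_pos hK hT'
  have hD : 0 < P.D := hKT0.trans_le hKT
  have hS : (s : ℝ) + 1 ≤ P.S := by exact_mod_cast hs
  have hs0 : (0 : ℝ) ≤ s := Nat.cast_nonneg _
  have hS1 : (1 : ℝ) ≤ P.S := by linarith
  set E : ℝ := ν * (P.D / (K * P.T)) with hE
  have hq : 1 ≤ P.D / (K * P.T) := by rw [le_div_iff₀ hKT0]; linarith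
  have hE1 : 1 ≤ E := by rw [hE]; nlinarith
  have hr2 : Real.exp (-E) ≤ 1 / 2 := by
    rw [Real.exp_neg, inv_le_comm₀ (Real.exp_pos _) (by norm_num)]
    have := Real.add_one_le_exp E
    norm_num
    linarith
  set F : (Fin m → ℕ) × ℕ → Polynomial ℂ := fun ab => (1 + Polynomial.X) ^ ab.2 *
    ∏ k, (((ab.1 k).choose (j' k) : ℕ) : Polynomial ℂ) * P.hh s k ^ (ab.1 k - j' k) with hF
  obtain ⟨v, c, hv, hc, hcoef⟩ := exists_coeff_formula
    (t + 1 + P.cols.sup fun ab => (F ab).natDegree) t (by omega) (Real.exp_pos (-E))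
  set ζ : Fin (t + 1 + P.cols.sup fun ab => (F ab).natDegree) → ℂ :=
    fun u => s * (2 * Real.pi * Complex.I) + Complex.log (1 + v u) with hζ
  set η : Fin (t + 1 + P.cols.sup fun ab => (F ab).natDegree) → Fin m → ℂ :=
    fun u k => s * P.ρ k + Complex.logTaylor (P.n k) (v u) - ζ u with hη
  have hv2 : ∀ u, ‖v u‖ ≤ 1 / 2 := fun u => (hv u).trans_le hr2
  have hζb : ∀ u, ‖ζ u‖ ≤ 8 * P.S := by
    intro u
    have h1 := Complex.norm_log_one_add_half_le_self (hv2 u)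
    have h2 : ‖(s : ℂ) * (2 * Real.pi * Complex.I)‖ = s * (2 * Real.pi) := by
      simp [abs_of_pos Real.pi_pos]
    have h3 := norm_add_le ((s : ℂ) * (2 * Real.pi * Complex.I)) (Complex.log (1 + v u))
    have h4 := Real.pi_le_four
    have h5 := hv2 u
    have h6 : (s : ℝ) * (2 * Real.pi) ≤ s * 8 := mul_le_mul_of_nonneg_left (by linarith) hs0
    change ‖(s : ℂ) * (2 * Real.pi * Complex.I) + Complex.log (1 + v u)‖ ≤ _
    linarith
  have hηb : ∀ u k, ‖η u k‖ ≤ 4 * P.S * Real.exp (-(ν * P.lam k)) := by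
    intro u k
    have hlam := hl k
    have hn1 : 1 ≤ P.n k := by
      rcases Nat.eq_zero_or_pos (P.n k) with h0 | h0
      · have := hn k
        rw [h0, Nat.cast_zero, zero_mul] at this
        nlinarith
      · exact h0
    have h1 := AnalAb_log (hv2 u) hn1
    have h2 : ‖v u‖ ^ P.n k ≤ Real.exp (-(ν * P.lam k)) := by
      rw [hv u, ← Real.exp_nat_mul, Real.exp_le_exp]
      have h3 : P.lam k ≤ P.n k * (P.D / (K * P.T)) := by
        rw [← mul_div_assoc, le_div_iff₀ hKT0]; linarith [hn k]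
      have h4 : ν * P.lam k ≤ ν * (P.n k * (P.D / (K * P.T))) :=
        mul_le_mul_of_nonneg_left h3 (by linarith)
      rw [hE]; linarith
    have h3 : η u k = s * (P.ρ k - 2 * Real.pi * Complex.I) +
        (Complex.logTaylor (P.n k) (v u) - Complex.log (1 + v u)) := by
      simp only [hη, hζ]; ring
    have h4 : ‖(s : ℂ) * (P.ρ k - 2 * Real.pi * Complex.I)‖ ≤
        s * (2 * Real.exp (-(ν * P.lam k))) := by
      rw [norm_mul, Complex.norm_natCast]
      refine mul_le_mul_of_nonneg_left ?_ hs0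
      simpa using hρ k
    rw [h3]
    refine (norm_add_le _ _).trans ?_
    have h5 := Real.exp_pos (-(ν * P.lam k))
    nlinarith
  refine ⟨fun j i => ∑ u, c u *
    ((∏ k, ((j k).choose (j' k) : ℂ) * η u k ^ (j k - j' k)) * ζ u ^ i), fun j i => ?_,
    fun ab hab => ?_⟩
  · have hterm : ∀ u, ‖(∏ k, ((j k).choose (j' k) : ℂ) * η u k ^ (j k - j' k)) * ζ u ^ i‖ ≤
        Real.exp (ν * ∑ k, (j' k : ℝ) * P.lam k) * (8 * P.S) ^ (∑ k, j k) *
          Real.exp (-ν * ∑ k, (j k : ℝ) * P.lam k) * (8 * P.S) ^ i := by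
      intro u
      rw [norm_mul, norm_pow, norm_prod]
      refine mul_le_mul ?_ (pow_le_pow_left₀ (norm_nonneg _) (hζb u) i) (by positivity)
        (by positivity)
      refine (Finset.prod_le_prod (fun k _ => norm_nonneg _)
        fun k _ => AnalAb_term hS1 (hηb u k) (j k) (j' k)).trans (le_of_eq ?_)
      rw [Finset.prod_mul_distrib, Finset.prod_mul_distrib, Finset.prod_pow_eq_pow_sum,
        ← Real.exp_sum, ← Real.exp_sum, mul_assoc, Finset.mul_sum, Finset.mul_sum]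
      congr 2
      · exact Finset.sum_congr rfl fun k _ => by ring
      · congr 1
        exact Finset.sum_congr rfl fun k _ => by ring
    have hct : ∑ u, ‖c u‖ ≤ Real.exp (ν * P.D / K) := by
      refine hc.trans ?_
      rw [← Real.exp_nat_mul, ← Real.exp_neg, Real.exp_le_exp]
      have h1 : (t : ℝ) ≤ P.T := by exact_mod_cast ht.le
      have h2 : ν * P.D / K = P.T * E := by rw [hE]; field_simp
      rw [h2]
      nlinarith
    refine (norm_sum_le _ _).trans ?_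
    calc ∑ u, ‖c u * ((∏ k, ((j k).choose (j' k) : ℂ) * η u k ^ (j k - j' k)) * ζ u ^ i)‖
        ≤ ∑ u, ‖c u‖ * (Real.exp (ν * ∑ k, (j' k : ℝ) * P.lam k) * (8 * P.S) ^ (∑ k, j k) *
          Real.exp (-ν * ∑ k, (j k : ℝ) * P.lam k) * (8 * P.S) ^ i) :=
          Finset.sum_le_sum fun u _ => by
            rw [norm_mul]
            exact mul_le_mul_of_nonneg_left (hterm u) (norm_nonneg _)
      _ ≤ Real.exp (ν * P.D / K) * (Real.exp (ν * ∑ k, (j' k : ℝ) * P.lam k) *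
          (8 * P.S) ^ (∑ k, j k) * Real.exp (-ν * ∑ k, (j k : ℝ) * P.lam k) * (8 * P.S) ^ i) := by
          rw [← Finset.sum_mul]
          exact mul_le_mul_of_nonneg_right hct (by positivity)
      _ = _ := by rw [Real.exp_add]; ring
  · have ha : ab.1 ∈ smp P.lam P.D := (Finset.mem_product.1 hab).1
    have hdeg : (F ab).natDegree < t + 1 + P.cols.sup fun ab => (F ab).natDegree := by
      have := Finset.le_sup (f := fun ab => (F ab).natDegree) hab
      omega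
    have hval : P.entry s t j' ab.1 ab.2 = ∑ u, c u * (Complex.exp (ab.2 * ζ u) *
        ∏ k, ((ab.1 k).choose (j' k) : ℂ) * (ζ u + η u k) ^ (ab.1 k - j' k)) := by
      refine (hcoef (F ab) hdeg).trans (Finset.sum_congr rfl fun u _ => ?_)
      have h1 : 1 + v u ≠ 0 := by
        intro h0
        have h2 : v u = -1 := by linear_combination h0
        have h3 := hv2 u
        rw [h2] at h3
        norm_num at h3
      have h2 : Complex.exp (ab.2 * ζ u) = (1 + v u) ^ ab.2 := by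
        rw [Complex.exp_nat_mul]
        congr 1
        simp only [hζ]
        rw [Complex.exp_add, Complex.exp_log h1, Complex.exp_nat_mul_two_pi_mul_I, one_mul]
      rw [h2]
      simp only [hF, Polynomial.eval_mul, Polynomial.eval_pow, Polynomial.eval_prod,
        Polynomial.eval_add, Polynomial.eval_one, Polynomial.eval_X, Polynomial.eval_natCast,
        Par.hh, Polynomial.eval_C, eval_lg, hη, add_sub_cancel]
    rw [hval]
    refine (tendsto_finsetSum Finset.univ fun u _ =>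
      (tendsto_expand hl ha ab.2 j' (ζ u) (η u)).const_mul (c u)).congr fun I => ?_
    simp only [Finset.mul_sum, Finset.sum_mul]
    rw [Finset.sum_comm]
    refine Finset.sum_congr rfl fun j _ => ?_
    rw [Finset.sum_comm]
    refine Finset.sum_congr rfl fun i _ => Finset.sum_congr rfl fun u _ => ?_
    ring

/-- `Bm = 0` unless `j ≤ a`; `choose ≤ 2 ^ a`, `norm_ecoef_le` with `R = 32 S`, `Σ a k ≤ D / l₀`. -/
theorem Par.norm_Bm_le {l₀ : ℝ} (hl₀ : 1 ≤ l₀) (hl₀' : ∀ k, l₀ ≤ P.lam k) (hS : 1 ≤ P.S)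
    {ab : (Fin m → ℕ) × ℕ} (hab : ab ∈ P.cols) (j : Fin m → ℕ) (i : ℕ) :
    (8 * P.S : ℝ) ^ (∑ k, j k) * (8 * P.S) ^ i * ‖Bm j i ab.1 ab.2‖ ≤
      Real.exp (P.D / l₀ * Real.log (512 * P.S ^ 2) + 32 * P.M * P.S) * (1 / 4) ^ i := by
  obtain ⟨a, b⟩ := ab
  obtain ⟨ha, hb⟩ := Finset.mem_product.1 hab
  simp only at ha hb ⊢
  by_cases hj : ∃ k, a k < j k
  · obtain ⟨k, hk⟩ := hj
    have : Bm j i a b = 0 := by
      rw [Bm, Finset.prod_eq_zero (Finset.mem_univ k), zero_mul]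
      rw [Nat.choose_eq_zero_of_lt hk, Nat.cast_zero]
    rw [this, norm_zero, mul_zero]
    positivity
  push Not at hj
  have hS' : (1 : ℝ) ≤ P.S := by exact_mod_cast hS
  have hb' : (b : ℝ) ≤ P.M := by exact_mod_cast Nat.lt_succ_iff.1 (Finset.mem_range.1 hb)
  have hsum : ∑ k, j k + ∑ k, (a k - j k) = ∑ k, a k := by
    rw [← Finset.sum_add_distrib]
    exact Finset.sum_congr rfl fun k _ => Nat.add_sub_cancel' (hj k)
  have hn : ((∑ k, a k : ℕ) : ℝ) ≤ P.D / l₀ := by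
    rw [le_div_iff₀ (by linarith), Nat.cast_sum, Finset.sum_mul]
    refine le_trans (Finset.sum_le_sum fun k _ => ?_) (Finset.mem_filter.1 ha).2
    exact mul_le_mul_of_nonneg_left (hl₀' k) (Nat.cast_nonneg _)
  have hch : ‖∏ k, ((a k).choose (j k) : ℂ)‖ ≤ 2 ^ (∑ k, a k) := by
    rw [norm_prod, ← Finset.prod_pow_eq_pow_sum]
    refine Finset.prod_le_prod (fun k _ => norm_nonneg _) fun k _ => ?_
    rw [Complex.norm_natCast]
    exact_mod_cast Nat.choose_le_two_pow (a k) (j k)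
  have he := norm_ecoef_le (∑ k, (a k - j k)) b i (R := 32 * P.S) (by positivity)
  have hlog : 0 ≤ Real.log (512 * (P.S : ℝ) ^ 2) := Real.log_nonneg (by nlinarith)
  have h8 : (8 * P.S : ℝ) ^ i = (32 * P.S) ^ i * (1 / 4) ^ i := by
    rw [← mul_pow]; congr 1; ring
  have h1 : (8 * P.S : ℝ) ^ (∑ k, j k) ≤ (32 * P.S) ^ (∑ k, j k) :=
    pow_le_pow_left₀ (by positivity) (by linarith) _
  have h2 : (2 : ℝ) ^ (∑ k, a k) * (32 * P.S) ^ (∑ k, a k) ≤
      Real.exp (P.D / l₀ * Real.log (512 * P.S ^ 2)) := by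
    rw [← mul_pow]
    calc (2 * (32 * P.S) : ℝ) ^ (∑ k, a k) ≤ (512 * (P.S : ℝ) ^ 2) ^ (∑ k, a k) :=
          pow_le_pow_left₀ (by positivity) (by nlinarith) _
      _ = Real.exp ((∑ k, a k : ℕ) * Real.log (512 * P.S ^ 2)) := by
          rw [Real.exp_nat_mul, Real.exp_log (by positivity)]
      _ ≤ _ := Real.exp_le_exp.2 (mul_le_mul_of_nonneg_right hn hlog)
  have h3 : Real.exp (b * (32 * P.S)) ≤ Real.exp (32 * P.M * P.S) :=
    Real.exp_le_exp.2 (by nlinarith)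
  rw [h8, Bm, norm_mul, Real.exp_add]
  calc (8 * P.S : ℝ) ^ (∑ k, j k) * ((32 * P.S) ^ i * (1 / 4) ^ i) *
        (‖∏ k, ((a k).choose (j k) : ℂ)‖ * ‖ecoef (∑ k, (a k - j k)) b i‖)
      = (8 * P.S : ℝ) ^ (∑ k, j k) * ‖∏ k, ((a k).choose (j k) : ℂ)‖ *
          (‖ecoef (∑ k, (a k - j k)) b i‖ * (32 * P.S) ^ i) * (1 / 4) ^ i := by ring
    _ ≤ (32 * P.S : ℝ) ^ (∑ k, j k) * 2 ^ (∑ k, a k) *
          (Real.exp (b * (32 * P.S)) * (32 * P.S) ^ (∑ k, (a k - j k))) * (1 / 4) ^ i := by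
        gcongr
    _ = (2 : ℝ) ^ (∑ k, a k) * (32 * P.S) ^ (∑ k, a k) * Real.exp (b * (32 * P.S)) *
          (1 / 4) ^ i := by
        rw [← hsum, pow_add (32 * P.S : ℝ)]; ring
    _ ≤ _ := by gcongr

end Crest.Agent.R11
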