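import Crest.Agent.R11.AnalA
/-!
# R11: the analytic upper bound
-/

set_option autoImplicit false

open MvPolynomial

noncomputable section

namespace Crest.Agent.R11

variable {m : ℕ} {P : Par m}

theorem analB_half_pow {ν D x : ℝ} (hν : 0 ≤ ν) (hD : 0 ≤ D) (hx1 : x ≤ 1) {i : ℕ}
    (hi : ⌈2 * ν * D⌉₊ ≤ i) : (1 / 2 : ℝ) ^ i ≤ Real.exp (-(ν * x * D)) := by
  have h1 : 2 * ν * D ≤ i := Nat.ceil_le.1 hi
  have h2 : (1 / 2 : ℝ) ≤ Real.exp (-(1 / 2)) := by
    have h := Real.add_one_le_exp (-(1 / 2 : ℝ))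
    linarith
  calc (1 / 2 : ℝ) ^ i ≤ Real.exp (-(1 / 2)) ^ i := pow_le_pow_left₀ (by norm_num) h2 i
    _ = Real.exp (i * -(1 / 2)) := (Real.exp_nat_mul _ _).symm
    _ ≤ _ := by
      rw [Real.exp_le_exp]
      have : ν * D * x ≤ ν * D * 1 := mul_le_mul_of_nonneg_left hx1 (mul_nonneg hν hD)
      linarith

theorem analB_fact {N A : ℕ} (hN : 1 ≤ N) (hA : A ≤ N) :
    (N.factorial : ℝ) * (2 * A : ℝ) ^ N ≤ Real.exp (N * (2 * Real.log (2 * N))) := by
  have hN' : (1 : ℝ) ≤ N := by exact_mod_cast hN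
  have hA' : (A : ℝ) ≤ N := by exact_mod_cast hA
  have h1 : (N.factorial : ℝ) ≤ (2 * N : ℝ) ^ N := by
    have : (N.factorial : ℝ) ≤ (N : ℝ) ^ N := by exact_mod_cast Nat.factorial_le_pow N
    exact this.trans (pow_le_pow_left₀ (by linarith) (by linarith) N)
  have h2 : (2 * A : ℝ) ^ N ≤ (2 * N : ℝ) ^ N :=
    pow_le_pow_left₀ (by positivity) (by linarith) N
  have h3 : Real.exp (N * (2 * Real.log (2 * N))) = (2 * N : ℝ) ^ N * (2 * N : ℝ) ^ N := by
    rw [Real.exp_nat_mul, two_mul (Real.log _), Real.exp_add, Real.exp_log (by linarith), mul_pow]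
  rw [h3]
  exact mul_le_mul h1 h2 (by positivity) (by positivity)

/-- The bound for the truncated expansions. -/
theorem analB_trunc {ι : Type} [Fintype ι] [DecidableEq ι] {lam : Fin m → ℝ} (hl : ∀ k, 1 ≤ lam k)
    {ν D x : ℝ} (hν : 0 ≤ ν) (hD : 0 ≤ D) (hx : 0 ≤ x) (hx1 : x ≤ 1)
    (A : ι → (Fin m → ℕ) → ℕ → ℂ) (B : (Fin m → ℕ) → ℕ → ι → ℂ) (g : ι → ℝ)
    (hN : 1 ≤ Fintype.card ι) (hA : (smp lam D).card ≤ Fintype.card ι)
    (h : ∀ r j i c, ‖A r j i‖ * ‖B j i c‖ ≤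
      Real.exp (g r) * Real.exp (-ν * ∑ k, (j k : ℝ) * lam k) * (1 / 4) ^ i) (I : ℕ) :
    ‖(Matrix.of fun r c => ∑ j ∈ smp lam D, ∑ i ∈ Finset.range I, A r j i * B j i c).det‖ ≤
      Real.exp (∑ r, g r + Fintype.card ι * (2 * Real.log (2 * Fintype.card ι)) -
        ν * x * D * (Fintype.card ι - (smp lam (x * D)).card * (2 * ν * D + 1))) := by
  classical
  set K₀ : Finset (↥(smp lam D) × Fin I) :=
    Finset.univ.filter fun k => k.1.1 ∈ smp lam (x * D) ∧ (k.2 : ℕ) < ⌈2 * ν * D⌉₊ with hK₀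
  have hsum : ∀ j : Fin m → ℕ, 0 ≤ ∑ k, (j k : ℝ) * lam k := fun j =>
    Finset.sum_nonneg fun k _ => mul_nonneg (Nat.cast_nonneg _) (by linarith [hl k])
  have hexp : ∀ j : Fin m → ℕ, Real.exp (-ν * ∑ k, (j k : ℝ) * lam k) ≤ 1 := fun j => by
    rw [Real.exp_le_one_iff]
    have := mul_nonneg hν (hsum j)
    linarith
  have hθ0 : 0 ≤ ν * x * D := by positivity
  have key := norm_det_le (ι := ι) (κ := ↥(smp lam D) × Fin I)
    (fun r k => A r k.1.1 k.2) (fun k c => B k.1.1 k.2 c) (fun r => Real.exp (g r))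
    (fun k => Real.exp (-ν * ∑ k', (k.1.1 k' : ℝ) * lam k') * (1 / 2) ^ (k.2 : ℕ))
    (fun k => (1 / 2) ^ (k.2 : ℕ)) K₀ (θ := Real.exp (-(ν * x * D)))
    (Z := 2 * ((smp lam D).card : ℝ)) (fun r => (Real.exp_pos _).le) (fun k => by positivity)
    (fun k => by positivity) (Real.exp_pos _).le (by rw [Real.exp_le_one_iff]; linarith)
    (fun k => mul_le_one₀ (hexp _) (by positivity) (pow_le_one₀ (by norm_num) (by norm_num)))
    (fun k hk => by
      simp only [hK₀, Finset.mem_filter, Finset.mem_univ, true_and, not_and_or, not_lt] at hk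
      rcases hk with hk | hk
      · rw [mem_smp hl, not_le] at hk
        calc _ ≤ Real.exp (-ν * ∑ k', (k.1.1 k' : ℝ) * lam k') * 1 :=
              mul_le_mul_of_nonneg_left (pow_le_one₀ (by norm_num) (by norm_num))
                (Real.exp_pos _).le
          _ ≤ _ := by
            rw [mul_one, Real.exp_le_exp]
            have := mul_le_mul_of_nonneg_left hk.le hν
            linarith
      · calc _ ≤ 1 * (1 / 2 : ℝ) ^ (k.2 : ℕ) :=
              mul_le_mul_of_nonneg_right (hexp _) (by positivity)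
          _ ≤ _ := by rw [one_mul]; exact analB_half_pow hν hD hx1 hk)
    (by
      rw [Fintype.sum_prod_type]
      simp only [Finset.sum_const, Finset.card_univ, Fintype.card_coe, nsmul_eq_mul]
      rw [Fin.sum_univ_eq_sum_range (fun i => (1 / 2 : ℝ) ^ i) I, mul_comm]
      exact mul_le_mul_of_nonneg_right (sum_geometric_two_le I) (Nat.cast_nonneg _))
    (fun r k c => by
      refine (h r k.1.1 k.2 c).trans (le_of_eq ?_)
      rw [show (1 / 4 : ℝ) = 1 / 2 * (1 / 2) by norm_num, mul_pow]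
      ring)
  have hmat : (Matrix.of fun r c => ∑ j ∈ smp lam D, ∑ i ∈ Finset.range I, A r j i * B j i c) =
      Matrix.of fun r c => ∑ k : ↥(smp lam D) × Fin I, A r k.1.1 k.2 * B k.1.1 k.2 c := by
    ext r c
    simp only [Matrix.of_apply]
    rw [Fintype.sum_prod_type, ← Finset.sum_coe_sort]
    refine Finset.sum_congr rfl fun j _ => ?_
    exact (Fin.sum_univ_eq_sum_range (fun i => A r j.1 i * B j.1 i c) I).symm
  rw [hmat]
  refine key.trans ?_
  have hcard : (K₀.card : ℝ) ≤ (smp lam (x * D)).card * (2 * ν * D + 1) := by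
    have h1 : K₀.card ≤ ((smp lam (x * D)) ×ˢ Finset.range ⌈2 * ν * D⌉₊).card := by
      refine Finset.card_le_card_of_injOn (fun k => (k.1.1, (k.2 : ℕ))) ?_ ?_
      · intro k hk
        simp only [hK₀, Finset.coe_filter, Finset.mem_univ, true_and, Set.mem_ofPred_eq] at hk
        simpa using hk
      · intro k _ k' _ hkk
        simp only [Prod.mk.injEq] at hkk
        exact Prod.ext (Subtype.ext hkk.1) (Fin.ext hkk.2)
    rw [Finset.card_product, Finset.card_range] at h1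
    have h2 : (⌈2 * ν * D⌉₊ : ℝ) ≤ 2 * ν * D + 1 := (Nat.ceil_lt_add_one (by positivity)).le
    calc (K₀.card : ℝ) ≤ (smp lam (x * D)).card * (⌈2 * ν * D⌉₊ : ℝ) := by exact_mod_cast h1
      _ ≤ _ := mul_le_mul_of_nonneg_left h2 (Nat.cast_nonneg _)
  have hθ : Real.exp (-(ν * x * D)) ^ (Fintype.card ι - K₀.card) ≤
      Real.exp (-(ν * x * D * (Fintype.card ι - (smp lam (x * D)).card * (2 * ν * D + 1)))) := by
    rw [← Real.exp_nat_mul, Real.exp_le_exp]
    have h1 : (Fintype.card ι : ℝ) - K₀.card ≤ ((Fintype.card ι - K₀.card : ℕ) : ℝ) := by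
      rw [sub_le_iff_le_add]
      exact_mod_cast le_tsub_add
    have h2 := mul_le_mul_of_nonneg_left
      (show (Fintype.card ι : ℝ) - (smp lam (x * D)).card * (2 * ν * D + 1) ≤
        ((Fintype.card ι - K₀.card : ℕ) : ℝ) by linarith) hθ0
    linarith
  have hf := analB_fact hN hA
  rw [← Real.exp_sum, sub_eq_add_neg, Real.exp_add, Real.exp_add]
  calc _ = Real.exp (∑ r, g r) * ((Fintype.card ι).factorial *
        (2 * ((smp lam D).card : ℝ)) ^ Fintype.card ι) *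
        Real.exp (-(ν * x * D)) ^ (Fintype.card ι - K₀.card) := by ring
    _ ≤ _ := mul_le_mul (mul_le_mul_of_nonneg_left hf (Real.exp_pos _).le) hθ (by positivity)
        (by positivity)

/-- `norm_det_le` with `κ = smp lam D × Fin I`, `ω (j,i) = exp (-ν Σ j lam) 2⁻ⁱ`, `ω' = 2⁻ⁱ`,
`Z = 2 #smp`, `θ = exp (-ν x D)`, `K₀ = {(j,i) | j ∈ smp (x D), i < ⌈2 ν D⌉₊}`, then `I → ∞`
(`le_of_tendsto'`, continuity of `det`). `N! ≤ N^N`, `#smp ≤ N`, `#K₀ ≤ #smp (x D) (2 ν D + 1)`. -/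
theorem Par.upper {ν K l₀ x : ℝ} (hν : 1 ≤ ν) (hl₀ : 1 ≤ l₀) (hl₀' : ∀ k, l₀ ≤ P.lam k)
    (hK : 0 < K) (hT : 0 < P.T) (hKT : K * P.T ≤ P.D)
    (hn : ∀ k, K * P.T * P.lam k ≤ P.n k * P.D)
    (hρ : ∀ k, ‖P.ρ k - 2 * Real.pi * Complex.I‖ ≤ 2 * Real.exp (-ν * P.lam k))
    (hx : 0 ≤ x) (hx1 : x ≤ 1) (s t : P.cols → ℕ) (j : P.cols → Fin m → ℕ) (hs : ∀ r, s r < P.S)
    (ht : ∀ r, t r < P.T) :
    ‖(Matrix.of fun r c : P.cols => P.entry (s r) (t r) (j r) c.1.1 c.1.2).det‖ ≤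
      Real.exp (ν * ∑ r, ∑ k, (j r k : ℝ) * P.lam k +
        P.cols.card * (2 * Real.log (2 * P.cols.card) + ν * P.D / K +
          P.D / l₀ * Real.log (512 * P.S ^ 2) + 32 * P.M * P.S) -
        ν * x * P.D * (P.cols.card - (smp P.lam (x * P.D)).card * (2 * ν * P.D + 1))) := by
  have hl : ∀ k, 1 ≤ P.lam k := fun k => hl₀.trans (hl₀' k)
  have hD : 0 ≤ P.D := le_trans (by positivity) hKT
  choose A hA hlim using fun r => Par.exists_row hν hl hK hT hKT hn hρ (hs r) (ht r) (j r)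
  have hcard : (smp P.lam P.D).card ≤ Fintype.card P.cols := by
    rw [Fintype.card_coe, Par.cols, Finset.card_product, Finset.card_range]
    exact Nat.le_mul_of_pos_right _ (Nat.succ_pos _)
  have hN : 1 ≤ Fintype.card P.cols := (one_le_card_smp P.lam hD).trans hcard
  have key := analB_trunc hl (ν := ν) (by linarith) hD hx hx1 A
    (fun j' i (c : P.cols) => Bm j' i c.1.1 c.1.2)
    (fun r => (ν * P.D / K + ν * ∑ k, (j r k : ℝ) * P.lam k) +
      (P.D / l₀ * Real.log (512 * P.S ^ 2) + 32 * P.M * P.S)) hN hcard (by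
      intro r j' i c
      have hS : 1 ≤ P.S := Nat.succ_le_of_lt (lt_of_le_of_lt (Nat.zero_le _) (hs r))
      have h1 := hA r j' i
      have h2 := Par.norm_Bm_le hl₀ hl₀' hS c.2 j' i
      calc _ ≤ Real.exp (ν * P.D / K + ν * ∑ k, (j r k : ℝ) * P.lam k) *
            (8 * P.S) ^ (∑ k, j' k) * Real.exp (-ν * ∑ k, (j' k : ℝ) * P.lam k) * (8 * P.S) ^ i *
            ‖Bm j' i c.1.1 c.1.2‖ := mul_le_mul_of_nonneg_right h1 (norm_nonneg _)
        _ = Real.exp (ν * P.D / K + ν * ∑ k, (j r k : ℝ) * P.lam k) *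
            Real.exp (-ν * ∑ k, (j' k : ℝ) * P.lam k) *
            ((8 * P.S : ℝ) ^ (∑ k, j' k) * (8 * P.S) ^ i * ‖Bm j' i c.1.1 c.1.2‖) := by ring
        _ ≤ Real.exp (ν * P.D / K + ν * ∑ k, (j r k : ℝ) * P.lam k) *
            Real.exp (-ν * ∑ k, (j' k : ℝ) * P.lam k) *
            (Real.exp (P.D / l₀ * Real.log (512 * P.S ^ 2) + 32 * P.M * P.S) * (1 / 4) ^ i) :=
          mul_le_mul_of_nonneg_left h2 (by positivity)
        _ = _ := by
          rw [Real.exp_add (ν * P.D / K + ν * ∑ k, (j r k : ℝ) * P.lam k)]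
          ring)
  have hT' : Filter.Tendsto (fun I : ℕ => (Matrix.of fun r c : P.cols =>
      ∑ j' ∈ smp P.lam P.D, ∑ i ∈ Finset.range I, A r j' i * Bm j' i c.1.1 c.1.2)) Filter.atTop
      (nhds (Matrix.of fun r c : P.cols => P.entry (s r) (t r) (j r) c.1.1 c.1.2)) :=
    tendsto_pi_nhds.2 fun r => tendsto_pi_nhds.2 fun c => hlim r c.1 c.2
  have hT'' := ((continuous_id.matrix_det.norm.tendsto _).comp hT')
  refine (le_of_tendsto' hT'' key).trans (le_of_eq ?_)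
  congr 1
  simp only [Finset.sum_add_distrib, Finset.sum_const, Finset.card_univ, Fintype.card_coe,
    nsmul_eq_mul, ← Finset.mul_sum]
  ring

end Crest.Agent.R11
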