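import Crest.Agent.R11.Det
import Crest.Agent.R11.Count
/-!
# R11: the arithmetic lower bound
-/

set_option autoImplicit false

open MvPolynomial

noncomputable section

namespace Crest.Agent.R11

variable {m : ℕ} {P : Par m}

theorem arith_hh_mem {p : Fin m → ℤ} {q : Fin m → ℕ} (hq : ∀ k, 0 < q k)
    (hρ : ∀ k, P.ρ k = 2 * Complex.I * p k / q k) (s : ℕ) (k : Fin m) :
    Polynomial.C ((q k : ℂ) * Nat.lcmUpto (P.n k)) * P.hh s k ∈
      Polynomial.liftsRing GaussianInt.toComplex := by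
  have hC : ∀ z : ℂ, z ∈ GaussianInt.toComplex.range →
      Polynomial.C z ∈ Polynomial.liftsRing GaussianInt.toComplex := by
    rintro _ ⟨z, rfl⟩
    exact ⟨Polynomial.C z, by simp⟩
  have hX : Polynomial.X ∈ Polynomial.liftsRing GaussianInt.toComplex :=
    ⟨Polynomial.X, by simp⟩
  have hI : Complex.I ∈ GaussianInt.toComplex.range := ⟨⟨0, 1⟩, by simp [GaussianInt.toComplex_def]⟩
  have hq' : (q k : ℂ) ≠ 0 := by exact_mod_cast (hq k).ne'
  rw [Par.hh, mul_add, lg, Finset.mul_sum]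
  refine Subring.add_mem _ ?_ (Subring.sum_mem _ fun j hj => ?_)
  · rw [← Polynomial.C_mul]
    apply hC
    have : (q k : ℂ) * Nat.lcmUpto (P.n k) * (s * P.ρ k) =
        ((Nat.lcmUpto (P.n k) * s * 2 * p k : ℤ) : ℂ) * Complex.I := by
      rw [hρ]; push_cast; field_simp
    rw [this]
    exact Subring.mul_mem _ (intCast_mem _ _) hI
  · rw [← mul_assoc, ← Polynomial.C_mul]
    refine Subring.mul_mem _ (hC _ ?_) (Subring.pow_mem _ hX _)
    rcases Nat.eq_zero_or_pos j with rfl | hj0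
    · simp
    · have hd : j ∣ Nat.lcmUpto (P.n k) :=
        Finset.dvd_lcm (f := id) (Finset.mem_Icc.2 ⟨hj0, (Finset.mem_range.1 hj).le⟩)
      obtain ⟨d, hd⟩ := hd
      have hj' : (j : ℂ) ≠ 0 := by exact_mod_cast hj0.ne'
      have : (q k : ℂ) * Nat.lcmUpto (P.n k) * ((-1) ^ (j + 1) / (j : ℂ)) =
          ((q k * d * (-1) ^ (j + 1) : ℤ) : ℂ) := by
        rw [hd]; push_cast; field_simp
      rw [this]
      exact intCast_mem _ _

/-- `q d * hh` has Gaussian integer coefficients, `d = lcm (1..n)`; polynomials with coefficients in a subring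
are the image of `Polynomial.mapRingHom` (`Polynomial.lifts`, `Polynomial.liftsRing`), closed under products. If
`a k < j k` for some `k` the entry is zero. -/
theorem Par.entry_mem {p : Fin m → ℤ} {q : Fin m → ℕ} (hq : ∀ k, 0 < q k)
    (hρ : ∀ k, P.ρ k = 2 * Complex.I * p k / q k) (s t : ℕ) (j a : Fin m → ℕ) (b : ℕ) :
    ((∏ k, ((q k : ℝ) * Nat.lcmUpto (P.n k)) ^ a k) /
      (∏ k, ((q k : ℝ) * Nat.lcmUpto (P.n k)) ^ j k) : ℝ) * P.entry s t j a b ∈
      GaussianInt.toComplex.range := by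
  by_cases h : ∃ k, a k < j k
  · obtain ⟨k, hk⟩ := h
    rw [Par.entry, Finset.prod_eq_zero (f := fun k => (((a k).choose (j k) : ℕ) : Polynomial ℂ) *
      P.hh s k ^ (a k - j k)) (Finset.mem_univ k) (by simp [Nat.choose_eq_zero_of_lt hk])]
    simp
  push Not at h
  have hc : ∀ k, ((q k : ℝ) * Nat.lcmUpto (P.n k)) ≠ 0 := fun k =>
    mul_ne_zero (by exact_mod_cast (hq k).ne') (by exact_mod_cast Nat.lcmUpto_ne_zero _)
  have e1 : ((∏ k, ((q k : ℝ) * Nat.lcmUpto (P.n k)) ^ a k) /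
      (∏ k, ((q k : ℝ) * Nat.lcmUpto (P.n k)) ^ j k) : ℝ) =
      ∏ k, ((q k : ℝ) * Nat.lcmUpto (P.n k)) ^ (a k - j k) := by
    rw [← Finset.prod_div_distrib]
    exact Finset.prod_congr rfl fun k _ => (pow_sub₀ _ (hc k) (h k)).symm
  have hmem : (1 + Polynomial.X) ^ b * ∏ k, (((a k).choose (j k) : ℕ) : Polynomial ℂ) *
      (Polynomial.C ((q k : ℂ) * Nat.lcmUpto (P.n k)) * P.hh s k) ^ (a k - j k) ∈
      Polynomial.liftsRing GaussianInt.toComplex := by
    have hX : Polynomial.X ∈ Polynomial.liftsRing GaussianInt.toComplex :=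
      ⟨Polynomial.X, by simp⟩
    refine Subring.mul_mem _ (Subring.pow_mem _ (Subring.add_mem _ (Subring.one_mem _)
      hX) _) (Subring.prod_mem _ fun k _ => ?_)
    exact Subring.mul_mem _ (natCast_mem _ _) (Subring.pow_mem _ (arith_hh_mem hq hρ s k) _)
  have e2 : (1 + Polynomial.X) ^ b * ∏ k, (((a k).choose (j k) : ℕ) : Polynomial ℂ) *
      (Polynomial.C ((q k : ℂ) * Nat.lcmUpto (P.n k)) * P.hh s k) ^ (a k - j k) =
      Polynomial.C (∏ k, ((q k : ℂ) * Nat.lcmUpto (P.n k)) ^ (a k - j k)) *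
        ((1 + Polynomial.X) ^ b * ∏ k, (((a k).choose (j k) : ℕ) : Polynomial ℂ) *
          P.hh s k ^ (a k - j k)) := by
    rw [mul_left_comm, map_prod, ← Finset.prod_mul_distrib]
    congr 1
    refine Finset.prod_congr rfl fun k _ => ?_
    rw [mul_pow, map_pow]; ring
  obtain ⟨f, hf⟩ := hmem
  refine ⟨f.coeff t, ?_⟩
  rw [e1, Par.entry, ← Polynomial.coeff_map]
  rw [Polynomial.coe_mapRingHom, e2] at hf
  rw [hf, Polynomial.coeff_C_mul]
  push_cast
  rfl

/-- `le_norm_det`, `lcmUpto n ≤ exp (6 n)` (`Chebyshev.psi_eq_log_lcmUpto`, `Chebyshev.psi_le_const_mul_self`),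
`Σ a k * n k ≤ K T + 2 D / l₀`. -/
theorem Par.lower {p : Fin m → ℤ} {q : Fin m → ℕ} (hq : ∀ k, 0 < q k)
    (hρ : ∀ k, P.ρ k = 2 * Complex.I * p k / q k) (hl : ∀ k, P.lam k = Real.log (q k))
    {l₀ K : ℝ} (hl₀ : 1 ≤ l₀) (hl₀' : ∀ k, l₀ ≤ P.lam k) (hD : 0 < P.D) (hK : 0 ≤ K)
    (hn : ∀ k, (P.n k : ℝ) ≤ K * P.T * P.lam k / P.D + 2) (s t : P.cols → ℕ)
    (j : P.cols → Fin m → ℕ)
    (h0 : (Matrix.of fun r c : P.cols => P.entry (s r) (t r) (j r) c.1.1 c.1.2).det ≠ 0) :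
    Real.exp (∑ r, ∑ k, (j r k : ℝ) * P.lam k -
        P.cols.card * (P.D + 6 * K * P.T + 12 * P.D / l₀)) ≤
      ‖(Matrix.of fun r c : P.cols => P.entry (s r) (t r) (j r) c.1.1 c.1.2).det‖ := by
  have hq' : ∀ k, (0 : ℝ) < q k := fun k => by exact_mod_cast hq k
  have hL : ∀ k, (1 : ℝ) ≤ Nat.lcmUpto (P.n k) := fun k => by exact_mod_cast Nat.lcmUpto_pos _
  have hc : ∀ k, 0 < ((q k : ℝ) * Nat.lcmUpto (P.n k)) := fun k =>
    mul_pos (hq' k) (lt_of_lt_of_le one_pos (hL k))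
  have hlow : ∀ k, Real.exp (P.lam k) ≤ (q k : ℝ) * Nat.lcmUpto (P.n k) := fun k => by
    rw [hl, Real.exp_log (hq' k)]
    exact le_mul_of_one_le_right (hq' k).le (hL k)
  have hup : ∀ k, (q k : ℝ) * Nat.lcmUpto (P.n k) ≤ Real.exp (P.lam k + 6 * P.n k) := fun k => by
    rw [Real.exp_add, hl, Real.exp_log (hq' k)]
    refine mul_le_mul_of_nonneg_left ?_ (hq' k).le
    rw [← Real.log_le_iff_le_exp (lt_of_lt_of_le one_pos (hL k)),
      ← Chebyshev.psi_eq_log_lcmUpto]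
    refine (Chebyshev.psi_le_const_mul_self (Nat.cast_nonneg _)).trans ?_
    refine mul_le_mul_of_nonneg_right ?_ (Nat.cast_nonneg _)
    have h4 : Real.log 4 = 2 * Real.log 2 := by
      rw [show (4 : ℝ) = 2 ^ 2 by norm_num, Real.log_pow]; norm_num
    have := Real.log_two_lt_d9
    linarith
  refine le_trans ?_ (le_norm_det _ (fun r => ∏ k, ((q k : ℝ) * Nat.lcmUpto (P.n k)) ^ j r k)
    (fun c => ∏ k, ((q k : ℝ) * Nat.lcmUpto (P.n k)) ^ c.1.1 k)
    (fun r => Finset.prod_pos fun k _ => pow_pos (hc k) _)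
    (fun r => Finset.prod_pos fun k _ => pow_pos (hc k) _)
    (fun r c => Par.entry_mem hq hρ _ _ _ _ _) h0)
  rw [Real.exp_sub]
  refine div_le_div₀ (Finset.prod_nonneg fun r _ => Finset.prod_nonneg fun k _ =>
    pow_nonneg (hc k).le _) ?_ (Finset.prod_pos fun r _ => Finset.prod_pos fun k _ =>
    pow_pos (hc k) _) ?_
  · rw [Real.exp_sum]
    refine Finset.prod_le_prod (fun r _ => (Real.exp_pos _).le) fun r _ => ?_
    rw [Real.exp_sum]
    refine Finset.prod_le_prod (fun r _ => (Real.exp_pos _).le) fun k _ => ?_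
    rw [Real.exp_nat_mul]
    exact pow_le_pow_left₀ (Real.exp_pos _).le (hlow k) _
  · rw [Real.exp_nat_mul, ← Fintype.card_coe, ← Finset.card_univ, ← Finset.prod_const]
    refine Finset.prod_le_prod (fun r _ => Finset.prod_nonneg fun k _ =>
      pow_nonneg (hc k).le _) fun c _ => ?_
    have hc1 : ∑ k, (c.1.1 k : ℝ) * P.lam k ≤ P.D :=
      (mem_smp fun k => hl₀.trans (hl₀' k)).1 (Finset.mem_product.1 c.2).1
    have h1 : ∏ k, ((q k : ℝ) * Nat.lcmUpto (P.n k)) ^ c.1.1 k ≤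
        Real.exp (∑ k, (c.1.1 k : ℝ) * (P.lam k + 6 * P.n k)) := by
      rw [Real.exp_sum]
      refine Finset.prod_le_prod (fun k _ => pow_nonneg (hc k).le _) fun k _ => ?_
      rw [Real.exp_nat_mul]
      exact pow_le_pow_left₀ (hc k).le (hup k) _
    refine h1.trans (Real.exp_le_exp.2 ?_)
    have hl0 : 0 < l₀ := lt_of_lt_of_le one_pos hl₀
    have hco : 0 ≤ 1 + 6 * K * P.T / P.D + 12 / l₀ := by positivity
    calc ∑ k, (c.1.1 k : ℝ) * (P.lam k + 6 * P.n k)
        ≤ ∑ k, (c.1.1 k : ℝ) * P.lam k * (1 + 6 * K * P.T / P.D + 12 / l₀) := by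
          refine Finset.sum_le_sum fun k _ => ?_
          rw [mul_assoc]
          refine mul_le_mul_of_nonneg_left ?_ (Nat.cast_nonneg _)
          have h2 : 1 ≤ P.lam k / l₀ := (one_le_div hl0).2 (hl₀' k)
          have h3 := hn k
          have e : P.lam k * (1 + 6 * K * P.T / P.D + 12 / l₀) =
              P.lam k + 6 * (K * P.T * P.lam k / P.D) + 12 * (P.lam k / l₀) := by ring
          rw [e]
          linarith
      _ ≤ P.D * (1 + 6 * K * P.T / P.D + 12 / l₀) := by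
          rw [← Finset.sum_mul]
          exact mul_le_mul_of_nonneg_right hc1 hco
      _ = P.D + 6 * K * P.T + 12 * P.D / l₀ := by field_simp

end Crest.Agent.R11
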