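import Crest.Agent.R11.Defs
/-!
# R11: greedy transcendence bases and minimal relations
-/

set_option autoImplicit false

open MvPolynomial

noncomputable section

namespace Crest.Agent.R11

variable {m : ℕ}

theorem greedy_mem_supported {s : Set (Fin (m + 1))} {g : Rm m} :
    g ∈ supported ℂ s ↔ ∀ β ∈ g.support, ∀ i, β i ≠ 0 → i ∈ s := by
  rw [mem_supported]
  constructor
  · intro h β hβ i hi
    exact h (Finset.mem_coe.2 ((mem_vars_iff_mem_support i).2 ⟨β, hβ, Finsupp.mem_support_iff.2 hi⟩))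
  · intro h i hi
    obtain ⟨β, hβ, hi⟩ := (mem_vars_iff_mem_support i).1 (Finset.mem_coe.1 hi)
    exact h β hβ i (Finsupp.mem_support_iff.1 hi)

theorem greedy_supported_of_le {s : Set (Fin (m + 1))} {g h : Rm m} (hg : g ∈ supported ℂ s)
    (H : ∀ β ∈ h.support, ∃ β' ∈ g.support, β ≤ β') : h ∈ supported ℂ s := by
  rw [greedy_mem_supported] at hg ⊢
  intro β hβ i hi
  obtain ⟨β', h1, h2⟩ := H β hβ
  exact hg β' h1 i fun h0 => hi (Nat.le_zero.1 (h0 ▸ h2 i))

theorem greedy_pderiv_support {g : Rm m} {k : Fin (m + 1)} {β : Fin (m + 1) →₀ ℕ}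
    (h : β ∈ (pderiv k g).support) : β + Finsupp.single k 1 ∈ g.support := by
  rw [mem_support_iff] at h ⊢
  rw [coeff_pderiv] at h
  exact left_ne_zero_of_mul h

theorem greedy_coeff_der (f : Rm m) (β : Fin (m + 1) →₀ ℕ) :
    coeff β (der m 0 f) = (β 0 : ℂ) * coeff β f +
      ∑ k : Fin m, coeff (β + Finsupp.single k.succ 1) f * ((β k.succ : ℂ) + 1) := by
  classical
  rw [der_zero, coeff_add, coeff_sum]
  simp only [coeff_pderiv]
  congr 1
  rw [coeff_X_mul']
  split_ifs with h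
  · have h0 : β 0 ≠ 0 := Finsupp.mem_support_iff.1 h
    rw [coeff_pderiv, tsub_add_cancel_of_le (Finsupp.single_le_iff.2 (by omega)), mul_comm]
    congr 1
    rw [Finsupp.tsub_apply, Finsupp.single_eq_same, Nat.cast_sub (by omega)]
    simp
  · rw [Finsupp.notMem_support_iff.1 h]; simp

theorem greedy_der_support {f : Rm m} {i : Fin (m + 1)} {β : Fin (m + 1) →₀ ℕ}
    (h : β ∈ (der m i f).support) : ∃ β' ∈ f.support, β ≤ β' := by
  refine Fin.cases (motive := fun i => β ∈ (der m i f).support → _) (fun h => ?_) (fun k h => ?_)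
    i h
  · by_contra hc
    push Not at hc
    rw [mem_support_iff, greedy_coeff_der] at h
    apply h
    rw [notMem_support_iff.1 (fun h => hc β h le_rfl), mul_zero, zero_add]
    refine Finset.sum_eq_zero fun k _ => ?_
    rw [notMem_support_iff.1 (fun h => hc _ h le_self_add), zero_mul]
  · exact ⟨_, greedy_pderiv_support h, le_self_add⟩

/-- Induction on `n` for the statement restricted to the indices `< n`. -/
theorem exists_greedy {q : Ideal (Rm m)} (hq : q ≠ ⊤) :
    ∃ B : Finset (Fin (m + 1)), (∀ f ∈ q, f ∈ supported ℂ (B : Set (Fin (m + 1))) → f = 0) ∧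
      ∀ i, i ∉ B → ∃ g ∈ q, g ≠ 0 ∧ g ∈ supported ℂ {k | k = i ∨ (k ∈ B ∧ k < i)} := by
  classical
  have key : ∀ n : ℕ, ∃ B : Finset (Fin (m + 1)), (∀ k ∈ B, k.val < n) ∧
      (∀ f ∈ q, f ∈ supported ℂ (B : Set (Fin (m + 1))) → f = 0) ∧
      ∀ i : Fin (m + 1), i.val < n → i ∉ B →
        ∃ g ∈ q, g ≠ 0 ∧ g ∈ supported ℂ {k | k = i ∨ (k ∈ B ∧ k < i)} := by
    intro n
    induction n with
    | zero =>
      refine ⟨∅, by simp, fun f hf hs => ?_, fun i hi => absurd hi (by omega)⟩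
      rw [Finset.coe_empty, supported_empty, Algebra.mem_bot] at hs
      obtain ⟨c, rfl⟩ := hs
      by_contra h0
      have hc : c ≠ 0 := by rintro rfl; exact h0 (map_zero _)
      exact hq (q.eq_top_of_isUnit_mem hf ((IsUnit.mk0 c hc).map _))
    | succ n ih =>
      obtain ⟨B, h1, h2, h3⟩ := ih
      by_cases hn : n < m + 1
      · let i0 : Fin (m + 1) := ⟨n, hn⟩
        by_cases hi : ∀ f ∈ q, f ∈ supported ℂ ((insert i0 B : Finset _) : Set (Fin (m + 1))) →
            f = 0
        · refine ⟨insert i0 B, fun k hk => ?_, hi, fun i hi' hiB => ?_⟩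
          · rcases Finset.mem_insert.1 hk with rfl | hk
            · exact Nat.lt_succ_self _
            · exact (h1 k hk).trans (Nat.lt_succ_self _)
          · rw [Finset.mem_insert, not_or] at hiB
            have : i.val ≠ n := fun h => hiB.1 (Fin.ext h)
            obtain ⟨g, hg, hg0, hs⟩ := h3 i (by omega) hiB.2
            refine ⟨g, hg, hg0, supported_mono ?_ hs⟩
            rintro k (hk | hk)
            · exact Or.inl hk
            · exact Or.inr ⟨Finset.mem_insert_of_mem hk.1, hk.2⟩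
        · refine ⟨B, fun k hk => (h1 k hk).trans (Nat.lt_succ_self _), h2, fun i hi' hiB => ?_⟩
          by_cases hin : i.val < n
          · exact h3 i hin hiB
          obtain rfl : i = i0 := Fin.ext (by simp only [i0]; omega)
          push Not at hi
          obtain ⟨g, hg, hs, hg0⟩ := hi
          refine ⟨g, hg, hg0, supported_mono ?_ hs⟩
          intro k hk
          rcases Finset.mem_insert.1 (Finset.mem_coe.1 hk) with hk | hk
          · exact Or.inl hk
          · exact Or.inr ⟨hk, h1 k hk⟩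
      · exact ⟨B, fun k hk => (h1 k hk).trans (Nat.lt_succ_self _), h2,
          fun i _ hiB => h3 i (by omega) hiB⟩
  obtain ⟨B, -, h2, h3⟩ := key (m + 1)
  exact ⟨B, h2, fun i hi => h3 i i.2 hi⟩

theorem pderiv_mem_supported {s : Set (Fin (m + 1))} {g : Rm m} (hg : g ∈ supported ℂ s)
    (k : Fin (m + 1)) : pderiv k g ∈ supported ℂ s := by
  exact greedy_supported_of_le hg fun β hβ => ⟨_, greedy_pderiv_support hβ, le_self_add⟩

theorem pderiv_eq_zero_of_supported {s : Set (Fin (m + 1))} {g : Rm m} (hg : g ∈ supported ℂ s)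
    {k : Fin (m + 1)} (hk : k ∉ s) : pderiv k g = 0 := by
  by_contra h
  obtain ⟨β, hβ⟩ := support_nonempty.2 h
  exact hk (greedy_mem_supported.1 hg _ (greedy_pderiv_support hβ) k (by simp))

/-- Characteristic zero. -/
theorem mem_supported_of_pderiv {s t : Set (Fin (m + 1))} {g : Rm m} (hg : g ∈ supported ℂ s)
    (h : ∀ k ∈ s, k ∉ t → pderiv k g = 0) : g ∈ supported ℂ t := by
  rw [greedy_mem_supported] at hg ⊢
  intro β hβ i hi
  by_contra hit
  have h1 := congrArg (coeff (β - Finsupp.single i 1)) (h i (hg β hβ i hi) hit)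
  rw [coeff_pderiv, tsub_add_cancel_of_le (Finsupp.single_le_iff.2 (by omega)), coeff_zero,
    mul_eq_zero] at h1
  rcases h1 with h1 | h1
  · exact mem_support_iff.1 hβ h1
  · exact Nat.cast_add_one_ne_zero _ h1

/-- Take `g` with minimal `MonomialOrder.degree` (any monomial order, e.g. `MonomialOrder.degLex` or `lex`);
`pderiv k g` and `der m 0 g - C (degree g 0) * g` have all their monomials strictly below `degree g`. -/
theorem exists_minimal {q : Ideal (Rm m)} {s : Set (Fin (m + 1))}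
    (h : ∃ g ∈ q, g ≠ 0 ∧ g ∈ supported ℂ s) :
    ∃ g ∈ q, g ≠ 0 ∧ g ∈ supported ℂ s ∧ (∀ k, pderiv k g ∈ q → pderiv k g = 0) ∧
      (der m 0 g ∈ q → ∃ c : ℂ, der m 0 g = C c * g) := by
  let M : MonomialOrder (Fin (m + 1)) := MonomialOrder.lex
  obtain ⟨g, ⟨hq, h0, hs⟩, hmin⟩ :=
    (wellFounded_lt.onFun (f := fun g : Rm m => M.toSyn (M.degree g))).has_min
      {g | g ∈ q ∧ g ≠ 0 ∧ g ∈ supported ℂ s} (by obtain ⟨g, h⟩ := h; exact ⟨g, h⟩)
  have key : ∀ h ∈ q, (∀ β ∈ h.support, ∃ β' ∈ g.support, β ≤ β') →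
      (∀ β ∈ h.support, M.toSyn β < M.toSyn (M.degree g)) → h = 0 := by
    intro h hh h1 h2
    by_contra hne
    exact hmin h ⟨hh, hne, greedy_supported_of_le hs h1⟩ (h2 _ (M.degree_mem_support hne))
  have hlt : ∀ (β : Fin (m + 1) →₀ ℕ) (k : Fin (m + 1)), β + Finsupp.single k 1 ∈ g.support →
      M.toSyn β < M.toSyn (M.degree g) := fun β k h =>
    lt_of_lt_of_le (M.toSyn_strictMono (lt_add_of_pos_right _
      (pos_iff_ne_zero.2 (by simp)))) (M.le_degree h)
  refine ⟨g, hq, h0, hs, fun k hk => key _ hk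
    (fun β hβ => ⟨_, greedy_pderiv_support hβ, le_self_add⟩)
    (fun β hβ => hlt β k (greedy_pderiv_support hβ)), fun hd => ⟨(M.degree g 0 : ℂ), ?_⟩⟩
  have hcase : ∀ β ∈ (der m 0 g - C (M.degree g 0 : ℂ) * g).support,
      (β ∈ g.support ∧ β ≠ M.degree g) ∨ ∃ k, β + Finsupp.single k 1 ∈ g.support := by
    intro β hβ
    by_contra hc
    push Not at hc
    rw [mem_support_iff, coeff_sub, greedy_coeff_der, coeff_C_mul] at hβ
    apply hβ
    rw [Finset.sum_eq_zero fun k _ => by rw [notMem_support_iff.1 (hc.2 _), zero_mul], add_zero]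
    by_cases h : β ∈ g.support
    · rw [hc.1 h, sub_self]
    · rw [notMem_support_iff.1 h, mul_zero, mul_zero, sub_self]
  rw [← sub_eq_zero]
  refine key _ (q.sub_mem hd (q.mul_mem_left _ hq)) (fun β hβ => ?_) (fun β hβ => ?_)
  · rcases hcase β hβ with h | ⟨k, h⟩
    · exact ⟨β, h.1, le_rfl⟩
    · exact ⟨_, h, le_self_add⟩
  · rcases hcase β hβ with h | ⟨k, h⟩
    · exact lt_of_le_of_ne (M.le_degree h.1) fun e => h.2 (M.toSyn.injective e)
    · exact hlt β k h

/-- Coefficient at `β`: `(β i + 1) g_{β + e_i} + (β 0 - c) g_β = 0`. Take `β` in the support with `β i`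
maximal (`≥ 1`), get `β 0 = c`, then look at `β - e_i`. -/
theorem not_eigen {g : Rm m} {i : Fin m} (hi : pderiv i.succ g ≠ 0)
    (ho : ∀ k : Fin m, k ≠ i → pderiv k.succ g = 0) (c : ℂ) : der m 0 g ≠ C c * g := by
  intro he
  have hco : ∀ β : Fin (m + 1) →₀ ℕ, (β 0 : ℂ) * coeff β g +
      coeff (β + Finsupp.single i.succ 1) g * ((β i.succ : ℂ) + 1) = c * coeff β g := by
    intro β
    rw [← coeff_C_mul (a := c), ← he, greedy_coeff_der, Finset.sum_eq_single i _ (by simp)]
    intro k _ hk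
    rw [← coeff_pderiv, ho k hk, coeff_zero]
  obtain ⟨γ, hγ⟩ := support_nonempty.2 hi
  have hγ' := greedy_pderiv_support hγ
  obtain ⟨β, hβ, hmax⟩ := g.support.exists_max_image (fun β => β i.succ) ⟨_, hγ'⟩
  have h1 : 1 ≤ β i.succ := le_trans (by simp) (hmax _ hγ')
  have h2 : coeff (β + Finsupp.single i.succ 1) g = 0 := by
    by_contra h
    have := hmax _ (mem_support_iff.2 h)
    simp at this
  have h3 := hco β
  rw [h2, zero_mul, add_zero] at h3
  have h4 : (β 0 : ℂ) = c := mul_right_cancel₀ (mem_support_iff.1 hβ) h3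
  have h5 := hco (β - Finsupp.single i.succ 1)
  rw [tsub_add_cancel_of_le (Finsupp.single_le_iff.2 h1), Finsupp.tsub_apply,
    Finsupp.single_eq_of_ne (Fin.succ_ne_zero i).symm, tsub_zero, h4, add_eq_left,
    mul_eq_zero] at h5
  rcases h5 with h5 | h5
  · exact mem_support_iff.1 hβ h5
  · exact Nat.cast_add_one_ne_zero _ h5

/-- A polynomial in one variable splits into linear factors. -/
theorem linear_mem {q : Ideal (Rm m)} (hq : q.IsPrime) {g : Rm m} (hg : g ∈ q) (h0 : g ≠ 0)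
    {i : Fin (m + 1)} (hs : g ∈ supported ℂ {i}) : ∃ c : ℂ, X i - C c ∈ q := by
  rw [supported_eq_adjoin_X, Set.image_singleton, Algebra.adjoin_singleton_eq_range_aeval] at hs
  obtain ⟨p, rfl⟩ := hs
  have hp : p ≠ 0 := by rintro rfl; exact h0 (map_zero _)
  change Polynomial.aeval (X i : Rm m) p ∈ q at hg
  rw [(IsAlgClosed.splits p).eq_prod_roots, map_mul, Polynomial.aeval_C, map_multiset_prod] at hg
  have hu : IsUnit (algebraMap ℂ (Rm m) p.leadingCoeff) :=
    (IsUnit.mk0 _ (Polynomial.leadingCoeff_ne_zero.2 hp)).map _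
  rw [Ideal.unit_mul_mem_iff_mem _ hu, hq.multiset_prod_mem_iff_exists_mem] at hg
  obtain ⟨x, hx, hxq⟩ := hg
  simp only [Multiset.map_map, Multiset.mem_map] at hx
  obtain ⟨c, -, rfl⟩ := hx
  exact ⟨c, by simpa using hxq⟩

theorem Bdd.der {deg : Fin (m + 1) → ℝ} {f : Rm m} (hf : Bdd deg f) (i : Fin (m + 1)) :
    Bdd deg (der m i f) := by
  intro β hβ j
  obtain ⟨β', h1, h2⟩ := greedy_der_support hβ
  exact le_trans (Nat.cast_le.2 (h2 j)) (hf β' h1 j)

theorem Bdd.app {deg : Fin (m + 1) → ℝ} {f : Rm m} (hf : Bdd deg f) (l : List (Fin (m + 1))) :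
    Bdd deg (app (R11.der m) l f) := by
  induction l generalizing f with
  | nil => exact hf
  | cons i l ih => exact ih (hf.der i)

theorem der_mem_Un {lam : Fin m → ℝ} (hl : ∀ k, 0 ≤ lam k) {b x : ℝ} {f : Rm m}
    (hf : f ∈ Un lam b x) (i : Fin (m + 1)) : der m i f ∈ Un lam b x := by
  rw [Un, mem_restrictSupport_iff] at hf ⊢
  intro β hβ
  obtain ⟨β', h1, h2⟩ := greedy_der_support hβ
  obtain ⟨h3, h4⟩ := hf h1
  exact ⟨le_trans (Nat.cast_le.2 (h2 0)) h3, le_trans (Finset.sum_le_sum fun k _ =>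
    mul_le_mul_of_nonneg_right (Nat.cast_le.2 (h2 _)) (hl k)) h4⟩

theorem app_mem_Un {lam : Fin m → ℝ} (hl : ∀ k, 0 ≤ lam k) {b x : ℝ} {f : Rm m}
    (hf : f ∈ Un lam b x) (l : List (Fin (m + 1))) : app (der m) l f ∈ Un lam b x := by
  induction l generalizing f with
  | nil => exact hf
  | cons i l ih => exact ih (der_mem_Un hl hf i)

end Crest.Agent.R11
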