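import Crest.Agent.R11.ProdB
import Crest.Agent.R11.Greedy
/-!
# R11: the base locus of the derivatives of small weight
-/

set_option autoImplicit false

open MvPolynomial

noncomputable section

namespace Crest.Agent.R11

variable {m : ℕ} {ε : ℝ} {W deg : Fin (m + 1) → ℝ}

/-- `I i` = ideal generated by the derivatives of weight `≤ i δ`, `0 ≤ i ≤ m + 1`; choose primes
`q (m+1) ≤ p`, `q i ≤ q (i+1)` minimal over `I i` (`Ideal.exists_minimalPrimes_le`). As `q 0 ≠ ⊥` and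
`ringKrullDim (Rm m) = m + 1` (`MvPolynomial.ringKrullDim_of_isNoetherianRing`), some `q i = q (i+1)`. -/
theorem exists_chain {ι : Type} (u : ι → Derivation ℂ (Rm m) (Rm m)) (wt : ι → ℝ) {δ : ℝ}
    (hδ : 0 ≤ δ) {P : Rm m} (hP : P ≠ 0) {p : Ideal (Rm m)} (hp : p.IsPrime)
    (h : ∀ l, wsum wt l ≤ (m + 1) * δ → app u l P ∈ p) :
    ∃ (q : Ideal (Rm m)) (σ : ℝ), q.IsPrime ∧ q ≤ p ∧ q ≠ ⊥ ∧
      (∀ l, wsum wt l ≤ σ + δ → app u l P ∈ q) ∧
      ∀ p' : Ideal (Rm m), p'.IsPrime → p' ≤ q → p' ≠ q → ∃ l, wsum wt l ≤ σ ∧ app u l P ∉ p' := by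
  by_contra hne
  push Not at hne
  have key : ∀ i : ℕ, i ≤ m + 1 → ∀ q : Ideal (Rm m), q.IsPrime → q ≤ p →
      (∀ l, wsum wt l ≤ i * δ → app u l P ∈ q) → ((i + 1 : ℕ) : ℕ∞) ≤ q.height := by
    have nb : ∀ (q : Ideal (Rm m)) (x : ℝ), 0 ≤ x → (∀ l, wsum wt l ≤ x → app u l P ∈ q) →
        q ≠ ⊥ := fun q x hx hq h0 => hP (by
      have := hq [] (by simpa [wsum] using hx)
      rwa [h0, Ideal.mem_bot] at this)
    intro i
    induction i with
    | zero =>
      intro _ q hq _ hl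
      have := Ideal.height_add_one_le_of_lt_of_isPrime
        (bot_lt_iff_ne_bot.2 (nb q _ (by simp) hl))
      simpa using this
    | succ i ih =>
      intro hi q hq hqp hl
      obtain ⟨p', hp', hle, hne', hl'⟩ := hne q (i * δ) hq hqp (nb q _ (by positivity) hl)
        fun l hl' => hl l (by push_cast; linarith)
      have h1 := ih (by omega) p' hp' (hle.trans hqp) hl'
      have h2 := Ideal.height_add_one_le_of_lt_of_isPrime (lt_of_le_of_ne hle hne')
      refine le_trans ?_ h2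
      rw [Nat.cast_succ]
      exact add_le_add_left h1 1
  have h1 := key (m + 1) le_rfl p hp le_rfl (by exact_mod_cast h)
  have h2 : (p.height : WithBot ℕ∞) ≤ ringKrullDim (Rm m) :=
    Ideal.height_le_ringKrullDim_of_isPrime
  rw [MvPolynomial.ringKrullDim_of_isNoetherianRing, ringKrullDim_eq_zero_of_field, zero_add,
    Nat.card_eq_fintype_card, Fintype.card_fin] at h2
  have h3 := (WithBot.coe_le_coe.2 h1).trans h2
  have h4 : m + 1 + 1 ≤ m + 1 := by exact_mod_cast h3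
  omega

/-- `prod_ineq` for the derivations `der (τ i)`, after cancellation: if `τ i = i` except possibly at
`i = 0` (where `τ 0 = 0`, `deg 0 ≤ W 0`) and at `i₀`, where `τ i₀ < i₀`, we get a contradiction with
`Sparse.sp`, since `(ε / (m+1)^2) ^ (m+1) ≤ (ε / ((m+1) c)) ^ c`. -/
theorem Sparse.not_prod_le (hS : Sparse m ε W deg) {B : Finset (Fin (m + 1))}
    {τ : {i // i ∉ B} → Fin (m + 1)} {i₀ : {i // i ∉ B}} (h₀ : τ i₀ < i₀.1)
    (hτ : ∀ i, i ≠ i₀ → τ i = i.1) :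
    ¬ ∏ i, (ε / (m + 1) * W (τ i) / Fintype.card {i // i ∉ B}) ≤ ∏ i : {i // i ∉ B}, deg i := by
  intro h
  set c := Fintype.card {i // i ∉ B} with hc
  have hε := hS.pos
  have hε1 := hS.le_one
  have hc0 : 0 < c := Fintype.card_pos_iff.2 ⟨i₀⟩
  have hc1 : c ≤ m + 1 := (Fintype.card_subtype_le _).trans (Fintype.card_fin _).le
  have hc0' : (0 : ℝ) < c := by exact_mod_cast hc0
  have hc1' : (c : ℝ) ≤ m + 1 := by exact_mod_cast hc1
  have hm : (1 : ℝ) ≤ m + 1 := by linarith [Nat.cast_nonneg (α := ℝ) m]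
  have hdeg : ∀ i, 0 ≤ deg i ∧ deg i ≤ W i := fun i => by
    refine Fin.cases ⟨hS.deg_pos.le, ?_⟩ (fun k => ?_) i
    · nlinarith [hS.deg_lt, hS.deg_pos, hS.W_pos 0]
    · rw [hS.succ]
      exact ⟨(hS.W_pos _).le, le_rfl⟩
  have h1 : ∏ i : {i // i ∉ B}, deg i ≤ ∏ i : {i // i ∉ B}, W i :=
    Finset.prod_le_prod (fun i _ => (hdeg i).1) fun i _ => (hdeg i).2
  have h2 : ∏ i, (ε / (m + 1) * W (τ i) / c) =
      (ε / (m + 1) / c) ^ c * W (τ i₀) * ∏ i ∈ Finset.univ.erase i₀, W i.1 := by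
    rw [show (fun i => ε / (m + 1) * W (τ i) / c) = fun i => ε / (m + 1) / c * W (τ i) from
      funext fun i => by ring, Finset.prod_mul_distrib, Finset.prod_const, Finset.card_univ,
      ← Finset.mul_prod_erase _ _ (Finset.mem_univ i₀), mul_assoc]
    congr 2
    exact Finset.prod_congr rfl fun i hi => by rw [hτ i (Finset.ne_of_mem_erase hi)]
  have h3 := h.trans h1
  rw [h2, ← Finset.mul_prod_erase _ _ (Finset.mem_univ i₀)] at h3
  have h4 := le_of_mul_le_mul_right h3 (Finset.prod_pos fun i _ => hS.W_pos _)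
  have h5 := hS.sp _ _ h₀
  have h6 : (ε / (m + 1) ^ 2) ^ (m + 1) ≤ (ε / (m + 1) / c) ^ c := by
    refine (pow_le_pow_of_le_one (by positivity) ?_ hc1).trans
      (pow_le_pow_left₀ (by positivity) ?_ _)
    · rw [div_le_one (by positivity)]
      nlinarith
    · rw [div_div, sq]
      gcongr
  have h7 : (ε / (m + 1) ^ 2) ^ (m + 1) * ((m + 1) ^ 2 / ε) ^ (m + 1) = 1 := by
    rw [← mul_pow, div_mul_div_cancel₀ (by positivity), div_self hε.ne', one_pow]
  have h8 := mul_lt_mul_of_pos_left h5 (show 0 < (ε / (m + 1) ^ 2) ^ (m + 1) by positivity)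
  rw [← mul_assoc, h7, one_mul] at h8
  have h9 := mul_le_mul_of_nonneg_right h6 (hS.W_pos (τ i₀)).le
  linarith

theorem baseB_der_ne_zero {j : Fin (m + 1)} (hj : j ≠ 0) : der m j = pderiv j := by
  obtain ⟨k, rfl⟩ := Fin.exists_succ_eq.2 hj
  rfl

theorem baseB_ineq (hS : Sparse m ε W deg) {q : Ideal (Rm m)} (hq : q.IsPrime)
    (hmin : ∀ p : Ideal (Rm m), p.IsPrime → p ≤ q → p ≠ q →
      ∃ f, f ∉ p ∧ Bdd deg f ∧ f ∈ Filt (der m) (fun i => (W i)⁻¹) q (ε / (m + 1)))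
    {B : Finset (Fin (m + 1))}
    (hB : ∀ f ∈ q, f ∈ supported ℂ (B : Set (Fin (m + 1))) → f = 0)
    (hrel : ∀ i, i ∉ B → ∃ g ∈ q, g ≠ 0 ∧ g ∈ supported ℂ {k | k = i ∨ (k ∈ B ∧ k < i)})
    (hne : ∃ i, i ∉ B) {G : {i // i ∉ B} → Rm m} (hG : ∀ i, G i ∈ q)
    {τ : {i // i ∉ B} → Fin (m + 1)} (tri : ∀ i j, i < j → der m (τ j) (G i) ∈ q)
    (diag : ∀ i, der m (τ i) (G i) ∉ q) :
    ∏ i, (ε / (m + 1) * W (τ i) / Fintype.card {i // i ∉ B}) ≤ ∏ i : {i // i ∉ B}, deg i := by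
  refine prod_ineq hq hB (fun i hi => ?_) hne (fun i => ?_) (u := fun k => der m (τ k))
    (W := fun k => W (τ k)) (fun i => hS.W_pos _) hG tri diag
    (div_pos hS.pos (by positivity)) fun p hp h1 h2 => ?_
  · obtain ⟨g, h1, h2, h3⟩ := hrel i hi
    refine ⟨g, h1, h2, supported_mono ?_ h3⟩
    rintro k (rfl | hk)
    · exact Set.mem_insert _ _
    · exact Set.mem_insert_of_mem _ hk.1
  · refine Fin.cases hS.deg_pos (fun k => ?_) i
    rw [hS.succ]
    exact hS.W_pos _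
  · obtain ⟨f, h3, h4, h5⟩ := hmin p hp h1 h2
    exact ⟨f, h3, h4, Filt_comp (fun i => (inv_pos.2 (hS.W_pos i)).le) τ _ h5⟩

theorem baseB_tri {B : Finset (Fin (m + 1))} {G : {i // i ∉ B} → Rm m}
    (hGs : ∀ i, G i ∈ supported ℂ {k | k = i.1 ∨ (k ∈ B ∧ k < i.1)}) {i j : {i // i ∉ B}}
    (h : i < j) : der m j.1 (G i) = 0 := by
  have h' : i.1 < j.1 := h
  rw [baseB_der_ne_zero (Fin.pos_iff_ne_zero.1 ((Fin.zero_le _).trans_lt h'))]
  refine pderiv_eq_zero_of_supported (hGs i) ?_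
  rintro (e | e)
  · exact h'.ne' e
  · exact j.2 e.1

theorem baseB_key (hS : Sparse m ε W deg) {q : Ideal (Rm m)} (hq : q.IsPrime)
    (hmin : ∀ p : Ideal (Rm m), p.IsPrime → p ≤ q → p ≠ q →
      ∃ f, f ∉ p ∧ Bdd deg f ∧ f ∈ Filt (der m) (fun i => (W i)⁻¹) q (ε / (m + 1)))
    {B : Finset (Fin (m + 1))}
    (hB : ∀ f ∈ q, f ∈ supported ℂ (B : Set (Fin (m + 1))) → f = 0)
    (hrel : ∀ i, i ∉ B → ∃ g ∈ q, g ≠ 0 ∧ g ∈ supported ℂ {k | k = i ∨ (k ∈ B ∧ k < i)})
    {G : {i // i ∉ B} → Rm m} (hG : ∀ i, G i ∈ q)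
    (hGs : ∀ i, G i ∈ supported ℂ {k | k = i.1 ∨ (k ∈ B ∧ k < i.1)})
    (diag : ∀ i, der m i.1 (G i) ∉ q) (i₀ : {i // i ∉ B}) {k : Fin (m + 1)} (hk : k < i₀.1)
    (hlow : ∀ i, i < i₀ → der m k (G i) ∈ q) : der m k (G i₀) ∈ q := by
  classical
  by_contra hcon
  refine hS.not_prod_le (τ := fun i => if i = i₀ then k else i.1) (i₀ := i₀) (by simpa using hk)
    (fun i hi => if_neg hi) (baseB_ineq hS hq hmin hB hrel ⟨i₀.1, i₀.2⟩ hG (fun i j hij => ?_)
      fun i => ?_)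
  · by_cases hj : j = i₀
    · subst hj
      simpa using hlow i hij
    · rw [if_neg hj, baseB_tri hGs hij]
      exact q.zero_mem
  · by_cases hi : i = i₀
    · subst hi
      simpa using hcon
    · rw [if_neg hi]
      exact diag i

/-- The product theorem. Take `B` from `exists_greedy`, minimal relations `g i` (`exists_minimal`;
`pderiv i (g i) ∉ q` because `B` is independent). If `0 ∈ B`, let `i₀` be the first index outside `B`: by
`prod_ineq`/`not_prod_le` with `τ i₀ = k < i₀`, `der k (g i₀) ∈ q` for all `k < i₀` (including `k = 0`),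
contradicting `not_eigen`. So `0 ∉ B`, `X 0 - C c ∈ q` and we replace `g 0` by it (`der 0` of it is `X 0 ∉ q`).
If `0` is the only index outside `B`, `prod_ineq` with `τ = id` contradicts `deg_lt`. Otherwise let `i₀` be the
second index outside `B`; as before `pderiv k (g i₀) = 0` for `0 < k < i₀`, so `g i₀` is a polynomial in
`X i₀`. Triangularity: `g i` only involves variables `≤ i` and no variable outside `B` except `i`. -/
theorem struct_prime (hS : Sparse m ε W deg) {q : Ideal (Rm m)} (hq : q.IsPrime) (hq0 : q ≠ ⊥)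
    (hX : X 0 ∉ q)
    (hmin : ∀ p : Ideal (Rm m), p.IsPrime → p ≤ q → p ≠ q →
      ∃ f, f ∉ p ∧ Bdd deg f ∧ f ∈ Filt (der m) (fun i => (W i)⁻¹) q (ε / (m + 1))) :
    (∃ c : ℂ, X 0 - C c ∈ q) ∧ ∃ (k : Fin m) (c : ℂ), X k.succ - C c ∈ q := by
  classical
  obtain ⟨B, hB, hrel⟩ := exists_greedy hq.ne_top
  have hne : ∃ i, i ∉ B := by
    by_contra hcon
    push Not at hcon
    refine hq0 (eq_bot_iff.2 fun f hf => hB f hf ?_)
    have : (B : Set (Fin (m + 1))) = Set.univ := Set.eq_univ_of_forall hcon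
    rw [this, supported_univ]
    trivial
  choose g hg hg0 hgs hgp hgd using fun i : {i // i ∉ B} => exists_minimal (hrel i.1 i.2)
  have hne0 : ∀ i, pderiv i.1 (g i) ≠ 0 := fun i h => by
    refine hg0 i (hB _ (hg i) (mem_supported_of_pderiv (hgs i) ?_))
    rintro k (rfl | hk) hk'
    · exact h
    · exact absurd hk.1 hk'
  have hdiag : ∀ i, pderiv i.1 (g i) ∉ q := fun i h => hne0 i (hgp i _ h)
  by_cases h0 : (0 : Fin (m + 1)) ∈ B
  · exfalso
    have hi0 : ∀ i : {i // i ∉ B}, i.1 ≠ 0 := fun i h => i.2 (h ▸ h0)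
    obtain ⟨i₁, hi₁⟩ := hne
    obtain ⟨i₀, -, hmin₀⟩ := Finset.exists_min_image Finset.univ (fun i : {i // i ∉ B} => i)
      ⟨⟨i₁, hi₁⟩, Finset.mem_univ _⟩
    have key : ∀ k, k < i₀.1 → der m k (g i₀) ∈ q := fun k hk =>
      baseB_key hS hq hmin hB hrel hg hgs
        (fun i => by rw [baseB_der_ne_zero (hi0 i)]; exact hdiag i) i₀ hk
        fun i hi => absurd (hmin₀ i (Finset.mem_univ _)) (not_le.2 hi)
    obtain ⟨c, hc⟩ := hgd i₀ (key 0 (Fin.pos_iff_ne_zero.2 (hi0 i₀)))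
    obtain ⟨j, hj⟩ := Fin.exists_succ_eq.2 (hi0 i₀)
    refine not_eigen (i := j) (by rw [hj]; exact hne0 i₀) (fun k hk => ?_) c hc
    have hk' : k.succ ≠ i₀.1 := fun h => hk (Fin.succ_injective _ (h.trans hj.symm))
    rcases lt_or_gt_of_ne hk' with h | h
    · exact hgp i₀ _ (key _ h)
    · refine pderiv_eq_zero_of_supported (hgs i₀) ?_
      rintro (e | e)
      · exact hk' e
      · exact absurd e.2 (not_lt.2 h.le)
  · let z : {i // i ∉ B} := ⟨0, h0⟩
    obtain ⟨c, hc⟩ := linear_mem hq (hg z) (hg0 z) (i := 0) (supported_mono (by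
      rintro k (rfl | hk)
      · rfl
      · exact absurd hk.2 (not_lt.2 (Fin.zero_le _))) (hgs z))
    refine ⟨⟨c, hc⟩, ?_⟩
    let G : {i // i ∉ B} → Rm m := fun i => if i = z then X 0 - C c else g i
    have hGz : G z = X 0 - C c := if_pos rfl
    have hGn : ∀ i, i ≠ z → G i = g i := fun i hi => if_neg hi
    have hi0 : ∀ i : {i // i ∉ B}, i ≠ z → i.1 ≠ 0 := fun i hi h => hi (Subtype.ext h)
    have hG : ∀ i, G i ∈ q := fun i => by
      by_cases hi : i = z
      · rw [hi, hGz]; exact hc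
      · rw [hGn i hi]; exact hg i
    have hGs : ∀ i, G i ∈ supported ℂ {k | k = i.1 ∨ (k ∈ B ∧ k < i.1)} := fun i => by
      by_cases hi : i = z
      · rw [hi, hGz]
        exact sub_mem (X_mem_supported.2 (Or.inl rfl)) (Subalgebra.algebraMap_mem _ c)
      · rw [hGn i hi]; exact hgs i
    have hGd : ∀ i, der m i.1 (G i) ∉ q := fun i => by
      by_cases hi : i = z
      · rw [hi, hGz]
        change der m 0 _ ∉ q
        rw [der_zero]
        simpa [pderiv_X, Pi.single_apply, (Fin.succ_ne_zero _).symm] using hX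
      · rw [hGn i hi, baseB_der_ne_zero (hi0 i hi)]; exact hdiag i
    by_cases hall : ∀ i, i = z
    · exfalso
      have h := baseB_ineq hS hq hmin hB hrel hne hG (τ := fun i => i.1)
        (fun i j hij => absurd ((hall i).trans (hall j).symm) hij.ne) hGd
      have hu : (Finset.univ : Finset {i // i ∉ B}) = {z} :=
        Finset.eq_singleton_iff_unique_mem.2 ⟨Finset.mem_univ _, fun i _ => hall i⟩
      rw [← Finset.card_univ, hu, Finset.prod_singleton, Finset.prod_singleton,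
        Finset.card_singleton, Nat.cast_one, div_one, div_mul_eq_mul_div,
        div_le_iff₀ (by positivity)] at h
      exact absurd hS.deg_lt (not_lt.2 h)
    · push Not at hall
      obtain ⟨i₁, hi₁⟩ := hall
      obtain ⟨i₀, hz, hmin₀⟩ := Finset.exists_min_image (Finset.univ.erase z)
        (fun i : {i // i ∉ B} => i) ⟨i₁, Finset.mem_erase.2 ⟨hi₁, Finset.mem_univ _⟩⟩
      have hz' := (Finset.mem_erase.1 hz).1
      have key : ∀ k, k ≠ 0 → k < i₀.1 → pderiv k (g i₀) = 0 := fun k hk0 hk => by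
        refine hgp i₀ k ?_
        rw [← baseB_der_ne_zero hk0, ← hGn i₀ hz']
        refine baseB_key hS hq hmin hB hrel hG hGs hGd i₀ hk fun i hi => ?_
        have hi' : i = z := by
          by_contra h
          exact absurd (hmin₀ i (Finset.mem_erase.2 ⟨h, Finset.mem_univ _⟩)) (not_le.2 hi)
        rw [hi', hGz, baseB_der_ne_zero hk0]
        simp [pderiv_X, hk0.symm]
      obtain ⟨j, hj⟩ := Fin.exists_succ_eq.2 (hi0 i₀ hz')
      obtain ⟨c', hc'⟩ := linear_mem hq (hg i₀) (hg0 i₀) (i := i₀.1)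
        (mem_supported_of_pderiv (hgs i₀) (by
          rintro k (rfl | hk) hk'
          · exact absurd rfl hk'
          · exact key k (fun h => h0 (h ▸ hk.1)) hk.2))
      exact ⟨j, c', hj ▸ hc'⟩

theorem base_locus (hS : Sparse m ε W deg) {P : Rm m} (hP : P ≠ 0) (hb : Bdd deg P)
    {p : Ideal (Rm m)} (hp : p.IsPrime)
    (h : ∀ l, wsum (fun i => (W i)⁻¹) l ≤ ε → app (der m) l P ∈ p) {x : Fin (m + 1) → ℂ}
    (hx : x 0 = 1) (hpx : ∀ f ∈ p, eval x f = 0) :
    X 0 - 1 ∈ p ∧ ∃ k : Fin m, X k.succ - C (x k.succ) ∈ p := by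
  have hε := hS.pos
  have hw : ∀ i, 0 ≤ (W i)⁻¹ := fun i => (inv_pos.2 (hS.W_pos i)).le
  obtain ⟨q, σ, hq, hqp, hq0, hl, hmin⟩ := exists_chain (der m) (fun i => (W i)⁻¹)
    (δ := ε / (m + 1)) (by positivity) hP hp fun l hl =>
      h l (by rwa [mul_div_cancel₀ _ (by positivity)] at hl)
  obtain ⟨⟨c, hc⟩, k, c', hc'⟩ := struct_prime hS hq hq0
    (fun h0 => by simpa [hx] using hpx _ (hqp h0)) fun p' hp' hle hne => by
      obtain ⟨l, hl1, hl2⟩ := hmin p' hp' hle hne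
      refine ⟨_, hl2, hb.app l, (mem_Filt hw).2 fun l' hl' => ?_⟩
      rw [← app_append]
      exact hl _ (by rw [wsum_append]; linarith)
  have e1 : c = 1 := by
    have := hpx _ (hqp hc)
    simp only [map_sub, eval_X, eval_C, hx] at this
    exact (sub_eq_zero.1 this).symm
  have e2 : c' = x k.succ := by
    have := hpx _ (hqp hc')
    simp only [map_sub, eval_X, eval_C] at this
    exact (sub_eq_zero.1 this).symm
  rw [e1, map_one] at hc
  exact ⟨hqp hc, k, e2 ▸ hqp hc'⟩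

end Crest.Agent.R11
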