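import Crest.Agent.R11.ZeroB
import Crest.Agent.R11.Arith
import Crest.Agent.R11.AnalB
/-!
# R11: comparison of the bounds
-/

set_option autoImplicit false

open MvPolynomial

noncomputable section

namespace Crest.Agent.R11

variable {m : ℕ} {P : Par m}

/-- The numerical end of the comparison. -/
theorem core_num {ν K l₀ x y ξ γ D T M S L J N A B : ℝ} (hν : 1 ≤ ν) (hK : 0 < K) (hD : 1 ≤ D)
    (hx1 : x ≤ 1) (hξ : 0 < ξ) (hM0 : 0 ≤ M) (hNA : N = A * (M + 1)) (hA1 : 1 ≤ A)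
    (hAle : A ≤ (D + 1) ^ m) (hJle : J ≤ N * (y * D)) (hBA : B ≤ ξ ^ m * A) (hB0 : 0 ≤ B)
    (h1 : 6 * K * T ≤ γ * D) (h2 : (12 + L) / l₀ ≤ γ)
    (h3 : 2 * Real.log (2 * ((D + 1) ^ m * (M + 1))) ≤ γ * D) (h4 : ν / K ≤ γ)
    (h5 : 32 * M * S ≤ γ * D) (h6 : 3 * ν ^ 2 * D * ξ ^ m ≤ γ * M)
    (hγ : 6 * γ < ν * x - 1 - (ν - 1) * y)
    (hcmp : J - N * (D + 6 * K * T + 12 * D / l₀) ≤
      ν * J + N * (2 * Real.log (2 * N) + ν * D / K + D / l₀ * L + 32 * M * S) -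
        ν * x * D * (N - B * (2 * ν * D + 1))) : False := by
  have hD0 : 0 < D := by linarith
  have hN1 : 1 ≤ N := by rw [hNA]; nlinarith
  have hγ0 : 0 ≤ γ := le_trans (div_nonneg (by linarith) hK.le) h4
  have hlog : 2 * Real.log (2 * N) ≤ γ * D := by
    refine le_trans ?_ h3
    have : Real.log (2 * N) ≤ Real.log (2 * ((D + 1) ^ m * (M + 1))) := by
      apply Real.log_le_log (by linarith)
      rw [hNA]
      have := mul_le_mul_of_nonneg_right hAle (show (0 : ℝ) ≤ M + 1 by linarith)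
      linarith
    linarith
  have h2' : 12 * D / l₀ + D / l₀ * L ≤ γ * D := by
    have := mul_le_mul_of_nonneg_right h2 hD0.le
    calc _ = (12 + L) / l₀ * D := by ring
      _ ≤ _ := this
  have h4' : ν * D / K ≤ γ * D := by
    have := mul_le_mul_of_nonneg_right h4 hD0.le
    calc _ = ν / K * D := by ring
      _ ≤ _ := this
  have hA0 : 0 < A := by linarith
  have hν0 : 0 < ν := by linarith
  have h6' : ν * x * D * (B * (2 * ν * D + 1)) ≤ N * (γ * D) := by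
    have hνD : 1 ≤ ν * D := by nlinarith
    have e1 : 2 * ν * D + 1 ≤ 3 * ν * D := by linarith
    have e2 : B * (2 * ν * D + 1) ≤ (ξ ^ m * A) * (3 * ν * D) :=
      mul_le_mul hBA e1 (by linarith) (by positivity)
    have e3 : ν * x * D ≤ ν * D := by
      have : ν * D * x ≤ ν * D * 1 := mul_le_mul_of_nonneg_left hx1 (by linarith)
      linarith
    have e4 : ν * x * D * (B * (2 * ν * D + 1)) ≤ (ν * D) * ((ξ ^ m * A) * (3 * ν * D)) :=
      mul_le_mul e3 e2 (mul_nonneg hB0 (by linarith)) (by linarith)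
    have e5 : (ν * D) * ((ξ ^ m * A) * (3 * ν * D)) =
        (3 * ν ^ 2 * D * ξ ^ m) * (A * D) := by ring
    have e6 : (3 * ν ^ 2 * D * ξ ^ m) * (A * D) ≤ (γ * M) * (A * D) :=
      mul_le_mul_of_nonneg_right h6 (by positivity)
    have e7 : (γ * M) * (A * D) ≤ N * (γ * D) := by
      rw [hNA]
      have : 0 ≤ γ * (A * D) := by positivity
      linarith
    linarith
  have hN0 : 0 ≤ N := by linarith
  have a1 := mul_le_mul_of_nonneg_left h1 hN0
  have a2 := mul_le_mul_of_nonneg_left h2' hN0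
  have a3 := mul_le_mul_of_nonneg_left hlog hN0
  have a4 := mul_le_mul_of_nonneg_left h4' hN0
  have a5 := mul_le_mul_of_nonneg_left h5 hN0
  have a6 := mul_le_mul_of_nonneg_left hJle (show 0 ≤ ν - 1 by linarith)
  have a7 := mul_lt_mul_of_pos_left hγ (show 0 < N * D by positivity)
  linarith

/-- `exists_minor` + `zero_est` give a non-zero determinant; compare `lower` and `upper`, using
`Σ_k j r k * lam k ≤ y D`, `N = #smp D * (M+1) ≤ (D+1)^m (M+1)` and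
`#smp (x D) ≤ ξ^m #smp D` (`card_smp_scale` with `θ = ξ⁻¹`). -/
theorem Par.Good.false {ε ν K l₀ x y η θ ξ γ : ℝ} (h : P.Good ε) {p : Fin m → ℤ} {q : Fin m → ℕ}
    (hq : ∀ k, 0 < q k) (hρ : ∀ k, P.ρ k = 2 * Complex.I * p k / q k)
    (hl : ∀ k, P.lam k = Real.log (q k))
    (happ : ∀ k, |Real.pi - (p k : ℝ) / q k| ≤ Real.exp (-ν * P.lam k))
    (hν : 1 ≤ ν) (hl₀ : 1 ≤ l₀) (hl₀' : ∀ k, l₀ ≤ P.lam k) (hK : 0 < K) (hKT : K * P.T ≤ P.D)
    (hD : 1 ≤ P.D) (hn : ∀ k, K * P.T * P.lam k ≤ P.n k * P.D)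
    (hn' : ∀ k, (P.n k : ℝ) ≤ K * P.T * P.lam k / P.D + 2) (hx : 0 ≤ x) (hx1 : x ≤ 1)
    (hy : y ≤ 1) (hη : 0 < η) (hθ : 0 < θ) (hθy : θ < y - ε - η)
    (hM : (P.M : ℝ) < P.S * (η * P.T) * θ ^ m) (hξ : 0 < ξ)
    (hxξ : x * P.D + ∑ k, P.lam k < ξ * P.D)
    (h1 : 6 * K * P.T ≤ γ * P.D) (h2 : (12 + Real.log (512 * P.S ^ 2)) / l₀ ≤ γ)
    (h3 : 2 * Real.log (2 * ((P.D + 1) ^ m * (P.M + 1))) ≤ γ * P.D) (h4 : ν / K ≤ γ)
    (h5 : 32 * P.M * P.S ≤ γ * P.D) (h6 : 3 * ν ^ 2 * P.D * ξ ^ m ≤ γ * P.M)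
    (hγ : 6 * γ < ν * x - 1 - (ν - 1) * y) : False := by
  have hl1 := h.lam_ge
  have hD0 : 0 < P.D := h.D_pos
  have hT : 0 < P.T := by
    have := h.sparse.W_pos 0
    simpa [Par.W] using this
  have hρ' : ∀ k, ‖P.ρ k - 2 * Real.pi * Complex.I‖ ≤ 2 * Real.exp (-ν * P.lam k) := by
    intro k
    have e : P.ρ k - 2 * Real.pi * Complex.I =
        (2 * Complex.I) * ((-(Real.pi - (p k : ℝ) / q k) : ℝ) : ℂ) := by
      rw [hρ k]; push_cast; ring
    rw [e, norm_mul, norm_mul, Complex.norm_I, Complex.norm_real, Real.norm_eq_abs, abs_neg]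
    have := happ k
    simp only [Complex.norm_ofNat, mul_one]
    linarith
  -- a non-zero minor
  obtain ⟨f, hf⟩ := exists_minor (ι := P.cols)
    (ρ := {r : ℕ × ℕ × (Fin m → ℕ) // r.1 < P.S ∧ r.2.1 < P.T ∧ r.2.2 ∈ smp P.lam (y * P.D)})
    (fun r c => P.entry r.1.1 r.1.2.1 r.1.2.2 c.1.1 c.1.2) (by
      intro c hc i
      classical
      have key := h.zero_est hy hη hθ hθy hM
        (fun ab => if hab : ab ∈ P.cols then c ⟨ab, hab⟩ else 0) (by
          intro s hs t ht j hj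
          have := hc ⟨(s, t, j), hs, ht, hj⟩
          rw [← this, ← Finset.sum_coe_sort]
          refine Finset.sum_congr rfl fun ab _ => ?_
          simp [ab.2]) i.1 i.2
      simpa [i.2] using key)
  have hlow := Par.lower hq hρ hl hl₀ hl₀' hD0 hK.le hn' (fun r => (f r).1.1)
    (fun r => (f r).1.2.1) (fun r => (f r).1.2.2) hf
  have hup := Par.upper hν hl₀ hl₀' hK hT hKT hn hρ' hx hx1 (fun r => (f r).1.1)
    (fun r => (f r).1.2.1) (fun r => (f r).1.2.2) (fun r => (f r).2.1) (fun r => (f r).2.2.1)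
  have hcmp := Real.exp_le_exp.1 (hlow.trans hup)
  clear hlow hup
  set J : ℝ := ∑ r, ∑ k, ((f r).1.2.2 k : ℝ) * P.lam k with hJ
  set N : ℝ := (P.cols.card : ℝ) with hN
  set A : ℝ := ((smp P.lam P.D).card : ℝ) with hA
  set B : ℝ := ((smp P.lam (x * P.D)).card : ℝ) with hB
  have hNA : N = A * (P.M + 1) := by
    rw [hN, hA, Par.cols, Finset.card_product, Finset.card_range]; push_cast; ring
  have hA1 : 1 ≤ A := by
    rw [hA]; exact_mod_cast one_le_card_smp P.lam hD0.le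
  have hM0 : (0 : ℝ) ≤ P.M := Nat.cast_nonneg _
  have hAle : A ≤ (P.D + 1) ^ m := card_smp_le P.lam hD0.le
  have hJle : J ≤ N * (y * P.D) := by
    calc J ≤ ∑ _r : P.cols, y * P.D :=
          Finset.sum_le_sum fun r _ => (mem_smp hl1).1 (f r).2.2.2
      _ = N * (y * P.D) := by simp [hN]
  have hBA : B ≤ ξ ^ m * A := by
    have h0 : ξ⁻¹ * (x * P.D + ∑ k, P.lam k) < P.D := by
      rw [inv_mul_lt_iff₀ hξ]; exact hxξ
    have := card_smp_scale hl1 (inv_pos.2 hξ) (mul_nonneg hx hD0.le) h0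
    rw [inv_pow, ← div_eq_mul_inv, div_le_iff₀ (pow_pos hξ m)] at this
    linarith
  have hB0 : 0 ≤ B := Nat.cast_nonneg _
  clear_value J N A B
  exact core_num hν hK hD hx1 hξ hM0 hNA hA1 hAle hJle hBA hB0 h1 h2 h3 h4 h5 h6 hγ hcmp

end Crest.Agent.R11
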