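import Mathlib
/-!
# Row 11 (S0012): the irrationality exponent of `π` is `2` — definitions

Interpolation determinant on `𝔾ₐ^m × 𝔾ₘ` (variables `z₁ … z_m = X k.succ`, `w = X 0`) at the points
`(s ρ₁, …, s ρ_m, 1)`, `ρ_k = 2 i p_k / q_k`, close to the curve `(ζ, …, ζ, exp ζ)` at `ζ = 2 π i s`.
The determinant is non-zero by a sharp zero estimate (`Zero*.lean`), proved from a Hilbert function
form of Kleiman's theorem (`K*.lean`) and a product theorem (`Prod`, `Greedy`, `Base`).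
-/

set_option autoImplicit false

open MvPolynomial

noncomputable section

namespace Crest.Agent.R11

section Filt

variable {R : Type} [CommRing R] [Algebra ℂ R] {ι : Type}

/-- Apply a word of derivations (first letter first). -/
def app (u : ι → Derivation ℂ R R) : List ι → R → R
  | [], f => f
  | i :: l, f => app u l (u i f)

@[simp] theorem app_nil (u : ι → Derivation ℂ R R) (f : R) : app u [] f = f := rfl

@[simp] theorem app_cons (u : ι → Derivation ℂ R R) (i : ι) (l : List ι) (f : R) :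
    app u (i :: l) f = app u l (u i f) := rfl

theorem app_add (u : ι → Derivation ℂ R R) (l : List ι) (f g : R) :
    app u l (f + g) = app u l f + app u l g := by
  induction l generalizing f g with
  | nil => rfl
  | cons i l ih => simp [ih]

theorem app_zero (u : ι → Derivation ℂ R R) (l : List ι) : app u l 0 = 0 := by
  induction l with
  | nil => rfl
  | cons i l ih => simp [ih]

/-- The weight of a word. -/
def wsum (wt : ι → ℝ) (l : List ι) : ℝ := (l.map wt).sum

/-- The elements of index at least `x` along `q`: all derivatives of weight `< x` lie in `q`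
(see `mem_Filt`; the factor `r` only serves to make this an ideal without hypotheses). -/
def Filt (u : ι → Derivation ℂ R R) (wt : ι → ℝ) (q : Ideal R) (x : ℝ) : Ideal R where
  carrier := {f | ∀ (r : R) (l : List ι), wsum wt l < x → app u l (r * f) ∈ q}
  add_mem' := fun ha hb r l h => by
    rw [mul_add, app_add]
    exact q.add_mem (ha r l h) (hb r l h)
  zero_mem' := fun r l _ => by
    rw [mul_zero, app_zero]
    exact q.zero_mem
  smul_mem' := fun c f hf r l h => by
    rw [smul_eq_mul, ← mul_assoc]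
    exact hf _ l h

end Filt

section K

variable {A R : Type} [CommRing A] [CommRing R] [Algebra A R]

/-- The rank of the image of `V` in `R / J`. -/
def rk (V : Submodule A R) (J : Ideal R) : Cardinal :=
  Module.rank A (V.map (J.restrictScalars A).mkQ)

/-- A degree filtration `U` and a multiplicity filtration `F`. -/
structure KData (A R : Type) [CommRing A] [CommRing R] [Algebra A R] where
  U : ℕ → Submodule A R
  F : ℕ → Ideal R
  fg : ∀ n, (U n).FG
  mono : Monotone U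
  mul_mem : ∀ a b, ∀ x ∈ U a, ∀ y ∈ U b, x * y ∈ U (a + b)
  exhaust : ∀ x, ∃ n, x ∈ U n
  F_zero : F 0 = ⊤
  F_anti : Antitone F
  F_mul : ∀ n, ∀ x ∈ F 1, ∀ y ∈ F n, x * y ∈ F (n + 1)
  prime : ∀ p : Ideal R, p.IsPrime → (∃ f ∈ U 1, f ∈ F 1 ∧ f ∉ p) ∨
    ∃ n₀, ∀ n, n₀ ≤ n → ∀ x : R, ∃ a : A, a ≠ 0 ∧ ∃ u ∈ U n, a • x - u ∈ p ⊔ F n

/-- Hilbert function of `R / J`. -/
def KData.H (D : KData A R) (J : Ideal R) (n : ℕ) : ℕ := Cardinal.toNat (rk (D.U n) J)

/-- Colength function of `R / J`. -/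
def KData.l (D : KData A R) (J : Ideal R) (n : ℕ) : Cardinal := rk (⊤ : Submodule A R) (J ⊔ D.F n)

end K

/-- Polynomials in `w = X 0` and `z_k = X k.succ`. -/
abbrev Rm (m : ℕ) : Type := MvPolynomial (Fin (m + 1)) ℂ

/-- The invariant derivations: `der 0 = w ∂_w + Σ ∂_k` (along the curve), `der k.succ = ∂_k`. -/
def der (m : ℕ) : Fin (m + 1) → Derivation ℂ (Rm m) (Rm m) :=
  Fin.cases ((X 0 : Rm m) • pderiv 0 + ∑ k : Fin m, pderiv k.succ) fun k => pderiv k.succ

theorem der_zero (m : ℕ) (f : Rm m) :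
    der m 0 f = X 0 * pderiv 0 f + ∑ k : Fin m, pderiv k.succ f := by
  have : ∀ s : Finset (Fin m), (∑ k ∈ s, pderiv k.succ : Derivation ℂ (Rm m) (Rm m)) f =
      ∑ k ∈ s, pderiv k.succ f := fun s => by
    induction s using Finset.induction_on <;> simp [*]
  simp [der, this]

@[simp] theorem der_succ (m : ℕ) (k : Fin m) : der m k.succ = pderiv k.succ := rfl

/-- Partial degrees bounded by `deg`. -/
def Bdd {m : ℕ} (deg : Fin (m + 1) → ℝ) (f : Rm m) : Prop :=
  ∀ β ∈ f.support, ∀ i, (β i : ℝ) ≤ deg i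

/-- Rapidly decreasing weights `W 0 ≫ W 1 ≫ … ≫ W m`, degrees `deg 0 ≪ W 0`, `deg k = W k`. -/
structure Sparse (m : ℕ) (ε : ℝ) (W deg : Fin (m + 1) → ℝ) : Prop where
  pos : 0 < ε
  le_one : ε ≤ 1
  W_pos : ∀ i, 0 < W i
  deg_pos : 0 < deg 0
  succ : ∀ k : Fin m, deg k.succ = W k.succ
  deg_lt : deg 0 * (m + 1) < ε * W 0
  sp : ∀ i j, i < j → ((m + 1) ^ 2 / ε) ^ (m + 1) * W j < W i

/-- Lattice points of the simplex `Σ a k * lam k ≤ x` (for `1 ≤ lam k`). -/
def smp {m : ℕ} (lam : Fin m → ℝ) (x : ℝ) : Finset (Fin m → ℕ) :=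
  (Fintype.piFinset fun _ => Finset.range (⌊x⌋₊ + 1)).filter fun a => ∑ k, (a k : ℝ) * lam k ≤ x

/-- Polynomials of degree `≤ b` in `w` and weighted degree `≤ x` in `z`. -/
def Un {m : ℕ} (lam : Fin m → ℝ) (b x : ℝ) : Submodule ℂ (Rm m) :=
  restrictSupport ℂ {β | (β 0 : ℝ) ≤ b ∧ ∑ k : Fin m, (β k.succ : ℝ) * lam k ≤ x}

/-- The truncated logarithm `log (1 + v)`. -/
def lg (n : ℕ) : Polynomial ℂ :=
  ∑ j ∈ Finset.range n, Polynomial.C ((-1) ^ (j + 1) / (j : ℂ)) * Polynomial.X ^ j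

/-- The parameters of the construction. -/
structure Par (m : ℕ) where
  ρ : Fin m → ℂ
  n : Fin m → ℕ
  lam : Fin m → ℝ
  D : ℝ
  T : ℕ
  M : ℕ
  S : ℕ

namespace Par

variable {m : ℕ} (P : Par m)

/-- The point number `s`. -/
def pt (s : ℕ) : Fin (m + 1) → ℂ := Fin.cases 1 fun k => s * P.ρ k

/-- Its maximal ideal. -/
def mx (s : ℕ) : Ideal (Rm m) := RingHom.ker (eval (P.pt s))

def W : Fin (m + 1) → ℝ := Fin.cases (P.T : ℝ) fun k => P.D / P.lam k

def deg : Fin (m + 1) → ℝ := Fin.cases (P.M : ℝ) fun k => P.D / P.lam k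

/-- Index at least `x` at the point number `s`. -/
def Fs (s : ℕ) (x : ℝ) : Ideal (Rm m) := Filt (der m) (fun i => (P.W i)⁻¹) (P.mx s) x

def hh (s : ℕ) (k : Fin m) : Polynomial ℂ := Polynomial.C (s * P.ρ k) + lg (P.n k)

/-- Local coordinates at the point number `s`. -/
def loc (s : ℕ) : Fin (m + 1) → Rm m :=
  Fin.cases (X 0 - 1) fun k => X k.succ - Polynomial.aeval (X 0 - 1 : Rm m) (P.hh s k)

/-- Expansion in the local coordinates. -/
def Θ (s : ℕ) : Rm m →ₐ[ℂ] MvPolynomial (Fin m) (Polynomial ℂ) :=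
  aeval (Fin.cases (C (1 + Polynomial.X)) fun k => X k + C (P.hh s k))

/-- The coefficient of `v^t δ^j` in `z^a w^b` at the point number `s`. -/
def entry (s t : ℕ) (j a : Fin m → ℕ) (b : ℕ) : ℂ :=
  ((1 + Polynomial.X) ^ b * ∏ k, (((a k).choose (j k) : ℕ) : Polynomial ℂ) *
    P.hh s k ^ (a k - j k)).coeff t

/-- Columns. -/
def cols : Finset ((Fin m → ℕ) × ℕ) := smp P.lam P.D ×ˢ Finset.range (P.M + 1)

/-- Standing hypotheses of the zero estimate. -/
structure Good (ε : ℝ) : Prop where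
  m_pos : 0 < m
  ρ_ne : ∀ k, P.ρ k ≠ 0
  lam_ge : ∀ k, 1 ≤ P.lam k
  D_pos : 0 < P.D
  n_ge : ∀ k, 2 ≤ P.n k
  n_ge' : ∀ k, P.T * P.lam k ≤ P.n k * P.D
  sparse : Sparse m ε P.W P.deg

end Par

end Crest.Agent.R11
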