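import Crest.Agent.R11.Defs
/-!
# R11: general determinant lemmas
-/

set_option autoImplicit false

open MvPolynomial

noncomputable section

namespace Crest.Agent.R11

/-- The rows span `ι → ℂ`; extract a basis. -/
theorem exists_minor {ι ρ : Type} [Fintype ι] [DecidableEq ι] (A : ρ → ι → ℂ)
    (h : ∀ c : ι → ℂ, (∀ r, ∑ i, c i * A r i = 0) → ∀ i, c i = 0) :
    ∃ f : ι → ρ, (Matrix.of fun r c => A (f r) c).det ≠ 0 := by
  have hspan : Submodule.span ℂ (Set.range A) = ⊤ := by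
    by_contra hne
    obtain ⟨φ, hφ, hle⟩ := Submodule.exists_le_ker_of_lt_top _ (lt_top_iff_ne_top.2 hne)
    have h0 := h (fun i => φ fun j => if i = j then 1 else 0) (fun r => by
      have h1 : φ (A r) = 0 := hle (Submodule.subset_span ⟨r, rfl⟩)
      rw [LinearMap.pi_apply_eq_sum_univ] at h1
      exact (Finset.sum_congr rfl fun i _ => by rw [smul_eq_mul, mul_comm]).trans h1)
    apply hφ
    refine LinearMap.ext fun x => ?_
    rw [LinearMap.pi_apply_eq_sum_univ]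
    simp [h0]
  by_contra hcon
  push Not at hcon
  have hz : (Matrix.detRowAlternating : (ι → ℂ) [⋀^ι]→ₗ[ℂ] ℂ).toMultilinearMap = 0 :=
    MultilinearMap.ext_of_span_eq_top (g := fun _ : ι => A) (fun _ => hspan) fun f => hcon f
  have h1 : (1 : Matrix ι ι ℂ).det = 0 := by
    have := DFunLike.congr_fun hz (1 : Matrix ι ι ℂ)
    exact this
  simp at h1

theorem detA_prod_le {ι κ : Type} [Fintype ι] [DecidableEq ι] (ω : κ → ℝ) (K₀ : Finset κ) {θ : ℝ}
    (hω : ∀ k, 0 ≤ ω k) (hθ : 0 ≤ θ) (hθ1 : θ ≤ 1) (h1 : ∀ k, ω k ≤ 1)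
    (h2 : ∀ k, k ∉ K₀ → ω k ≤ θ) {φ : ι → κ} (hφ : Function.Injective φ) :
    ∏ r, ω (φ r) ≤ θ ^ (Fintype.card ι - K₀.card) := by
  classical
  set s : Finset ι := Finset.univ.filter fun r => φ r ∈ K₀ with hs
  have hcard : s.card ≤ K₀.card :=
    Finset.card_le_card_of_injOn φ (fun r hr => by simpa [hs] using hr) hφ.injOn
  rw [← Finset.prod_mul_prod_compl s]
  have a1 : ∏ r ∈ s, ω (φ r) ≤ 1 := Finset.prod_le_one (fun r _ => hω _) fun r _ => h1 _
  have a2 : ∏ r ∈ sᶜ, ω (φ r) ≤ θ ^ sᶜ.card := by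
    rw [← Finset.prod_const]
    exact Finset.prod_le_prod (fun r _ => hω _) fun r hr => h2 _ (by simpa [hs] using hr)
  have a3 : θ ^ sᶜ.card ≤ θ ^ (Fintype.card ι - K₀.card) := by
    apply pow_le_pow_of_le_one hθ hθ1
    rw [Finset.card_compl]
    omega
  calc _ ≤ 1 * θ ^ sᶜ.card :=
        mul_le_mul a1 a2 (Finset.prod_nonneg fun r _ => hω _) zero_le_one
    _ ≤ _ := by rw [one_mul]; exact a3

/-- Multilinearity in the rows: `det = Σ_φ det (A r (φ r) * B (φ r) c)`; non-injective `φ` give `0`; for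
injective `φ` at most `#K₀` values lie in `K₀`; each term is at most `N! ∏ G r * ω (φ r) * ω' (φ r)`,
and `Σ_φ ∏ ω' (φ r) = (Σ ω')^N`. -/
theorem norm_det_le {ι κ : Type} [Fintype ι] [DecidableEq ι] [Fintype κ] (A : ι → κ → ℂ)
    (B : κ → ι → ℂ) (G : ι → ℝ) (ω ω' : κ → ℝ) (K₀ : Finset κ) {θ Z : ℝ} (hG : ∀ r, 0 ≤ G r)
    (hω : ∀ k, 0 ≤ ω k) (hω' : ∀ k, 0 ≤ ω' k) (hθ : 0 ≤ θ) (hθ1 : θ ≤ 1) (h1 : ∀ k, ω k ≤ 1)
    (h2 : ∀ k, k ∉ K₀ → ω k ≤ θ) (hZ : ∑ k, ω' k ≤ Z)
    (h : ∀ r k c, ‖A r k‖ * ‖B k c‖ ≤ G r * ω k * ω' k) :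
    ‖(Matrix.of fun r c => ∑ k, A r k * B k c).det‖ ≤
      (Fintype.card ι).factorial * (∏ r, G r) * Z ^ Fintype.card ι *
        θ ^ (Fintype.card ι - K₀.card) := by
  classical
  have hexp : (Matrix.of fun r c => ∑ k, A r k * B k c).det =
      ∑ φ : ι → κ, (Matrix.of fun r c => A r (φ r) * B (φ r) c).det := by
    have := (Matrix.detRowAlternating : (ι → ℂ) [⋀^ι]→ₗ[ℂ] ℂ).toMultilinearMap.map_sum
      (fun (r : ι) (k : κ) => fun c => A r k * B k c)
    convert this using 1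
    · change Matrix.det _ = Matrix.det _
      congr 1
      ext r c
      simp
    · rfl
  have hterm : ∀ φ : ι → κ, ‖(Matrix.of fun r c => A r (φ r) * B (φ r) c).det‖ ≤
      (Fintype.card ι).factorial * (∏ r, G r) * θ ^ (Fintype.card ι - K₀.card) *
        ∏ r, ω' (φ r) := by
    intro φ
    have hG' : 0 ≤ ∏ r, G r := Finset.prod_nonneg fun r _ => hG r
    have hω'' : 0 ≤ ∏ r, ω' (φ r) := Finset.prod_nonneg fun r _ => hω' _
    by_cases hφ : Function.Injective φ
    · rw [← Matrix.det_transpose, Matrix.det_apply']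
      refine (norm_sum_le _ _).trans ?_
      have hb : ∀ σ : Equiv.Perm ι, ‖((Equiv.Perm.sign σ : ℤ) : ℂ) *
          ∏ i, (Matrix.of fun r c => A r (φ r) * B (φ r) c).transpose (σ i) i‖ ≤
          (∏ r, G r) * θ ^ (Fintype.card ι - K₀.card) * ∏ r, ω' (φ r) := by
        intro σ
        have hs : ‖((Equiv.Perm.sign σ : ℤ) : ℂ)‖ = 1 := by
          rcases Int.units_eq_one_or (Equiv.Perm.sign σ) with h | h <;> simp [h]
        rw [norm_mul, hs, one_mul, norm_prod]
        calc _ ≤ ∏ r, G r * ω (φ r) * ω' (φ r) :=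
              Finset.prod_le_prod (fun _ _ => norm_nonneg _) fun r _ => by
                simpa [norm_mul] using h r (φ r) (σ r)
          _ = (∏ r, G r) * (∏ r, ω (φ r)) * ∏ r, ω' (φ r) := by
              rw [Finset.prod_mul_distrib, Finset.prod_mul_distrib]
          _ ≤ _ := mul_le_mul_of_nonneg_right (mul_le_mul_of_nonneg_left
              (detA_prod_le ω K₀ hω hθ hθ1 h1 h2 hφ) hG') hω''
      refine (Finset.sum_le_sum fun σ _ => hb σ).trans (le_of_eq ?_)
      rw [Finset.sum_const, Finset.card_univ, Fintype.card_perm, nsmul_eq_mul]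
      ring
    · have h0 : (Matrix.of fun r c => A r (φ r) * B (φ r) c).det = 0 := by
        have := Matrix.det_mul_column (fun r => A r (φ r)) (Matrix.of fun r c => B (φ r) c)
        simp only [Matrix.of_apply] at this
        rw [this]
        simp only [Function.Injective, not_forall] at hφ
        obtain ⟨r, r', hrr, hne⟩ := hφ
        rw [Matrix.det_zero_of_row_eq hne (by ext c; simp [hrr]), mul_zero]
      rw [h0, norm_zero]
      positivity
  rw [hexp]
  refine (norm_sum_le _ _).trans ((Finset.sum_le_sum fun φ _ => hterm φ).trans ?_)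
  rw [← Finset.mul_sum]
  have hsum : ∑ φ : ι → κ, ∏ r, ω' (φ r) = (∑ k, ω' k) ^ Fintype.card ι := by
    rw [← Finset.card_univ, ← Finset.prod_const, Finset.prod_univ_sum, Fintype.piFinset_univ]
  have hG' : 0 ≤ ∏ r, G r := Finset.prod_nonneg fun r _ => hG r
  have hZ' : (∑ k, ω' k) ^ Fintype.card ι ≤ Z ^ Fintype.card ι :=
    pow_le_pow_left₀ (Finset.sum_nonneg fun k _ => hω' k) hZ _
  rw [hsum]
  calc _ ≤ (Fintype.card ι).factorial * (∏ r, G r) * θ ^ (Fintype.card ι - K₀.card) *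
        Z ^ Fintype.card ι := mul_le_mul_of_nonneg_left hZ' (by positivity)
    _ = _ := by ring

/-- A non-zero Gaussian integer has norm at least one. -/
theorem le_norm_det {ι : Type} [Fintype ι] [DecidableEq ι] (A : Matrix ι ι ℂ) (a b : ι → ℝ)
    (ha : ∀ r, 0 < a r) (hb : ∀ c, 0 < b c)
    (h : ∀ r c, (b c / a r : ℝ) * A r c ∈ GaussianInt.toComplex.range) (h0 : A.det ≠ 0) :
    (∏ r, a r) / ∏ c, b c ≤ ‖A.det‖ := by
  choose g hg using h
  have hpa : 0 < ∏ r, a r := Finset.prod_pos fun r _ => ha r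
  have hpb : 0 < ∏ c, b c := Finset.prod_pos fun c _ => hb c
  have e1 : GaussianInt.toComplex (Matrix.of g).det =
      (((∏ c, b c) / ∏ r, a r : ℝ) : ℂ) * A.det := by
    rw [RingHom.map_det]
    have e : GaussianInt.toComplex.mapMatrix (Matrix.of g) =
        Matrix.of fun r c => ((a r : ℂ))⁻¹ * (Matrix.of fun r c => (b c : ℂ) * A r c) r c := by
      ext r c
      simp only [RingHom.mapMatrix_apply, Matrix.map_apply, Matrix.of_apply, hg]
      push_cast
      ring
    rw [e, Matrix.det_mul_column, Matrix.det_mul_row, Finset.prod_inv_distrib]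
    push_cast
    ring
  have hne : (Matrix.of g).det ≠ 0 := by
    intro hz
    rw [hz, map_zero] at e1
    refine mul_ne_zero ?_ h0 e1.symm
    exact_mod_cast (div_pos hpb hpa).ne'
  have e2 : 1 ≤ ‖GaussianInt.toComplex (Matrix.of g).det‖ := by
    have h1 : (1 : ℤ) ≤ (Matrix.of g).det.norm := GaussianInt.norm_pos.2 hne
    have h2 : (1 : ℝ) ≤ Complex.normSq (GaussianInt.toComplex (Matrix.of g).det) := by
      rw [← GaussianInt.intCast_real_norm]
      exact_mod_cast h1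
    rw [Complex.normSq_eq_norm_sq] at h2
    nlinarith [norm_nonneg (GaussianInt.toComplex (Matrix.of g).det)]
  rw [e1, norm_mul, Complex.norm_real, Real.norm_eq_abs, abs_of_pos (div_pos hpb hpa)] at e2
  rw [div_le_iff₀ hpb]
  rw [div_mul_eq_mul_div, le_div_iff₀ hpa] at e2
  linarith

/-- Cauchy's formula for polynomials: average over the points `r ζ^u`, `ζ` a primitive `Q`-th root of `1`. -/
theorem exists_coeff_formula (Q t : ℕ) (ht : t < Q) {r : ℝ} (hr : 0 < r) :
    ∃ (v c : Fin Q → ℂ), (∀ u, ‖v u‖ = r) ∧ (∑ u, ‖c u‖ ≤ (r ^ t)⁻¹) ∧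
      ∀ f : Polynomial ℂ, f.natDegree < Q → f.coeff t = ∑ u, c u * f.eval (v u) := by
  have hQ : Q ≠ 0 := by omega
  have hz := Complex.isPrimitiveRoot_exp Q hQ
  set z : ℂ := Complex.exp (2 * Real.pi * Complex.I / Q) with hzdef
  have hn : ‖z‖ = 1 := hz.norm'_eq_one hQ
  have hz0 : z ≠ 0 := hz.ne_zero hQ
  have hr0 : (r : ℂ) ≠ 0 := by exact_mod_cast hr.ne'
  have hQ0 : (Q : ℂ) ≠ 0 := by exact_mod_cast hQ
  have hv : ∀ u : Fin Q, ‖(r : ℂ) * z ^ (u : ℕ)‖ = r := fun u => by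
    rw [norm_mul, norm_pow, hn, one_pow, mul_one, Complex.norm_real, Real.norm_of_nonneg hr.le]
  refine ⟨fun u => r * z ^ (u : ℕ), fun u => (Q : ℂ)⁻¹ * ((r * z ^ (u : ℕ)) ^ t)⁻¹, hv, ?_, ?_⟩
  · have : ∀ u : Fin Q, ‖(Q : ℂ)⁻¹ * (((r : ℂ) * z ^ (u : ℕ)) ^ t)⁻¹‖ = (Q : ℝ)⁻¹ * (r ^ t)⁻¹ :=
      fun u => by rw [norm_mul, norm_inv, norm_inv, norm_pow, hv, Complex.norm_natCast]
    simp only [this, Finset.sum_const, Finset.card_univ, Fintype.card_fin, nsmul_eq_mul]
    have hQ' : (Q : ℝ) ≠ 0 := by exact_mod_cast hQ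
    rw [← mul_assoc, mul_inv_cancel₀ hQ', one_mul]
  · intro f hf
    have h1 : ∀ i ∈ Finset.range Q, ∑ u : Fin Q,
        (Q : ℂ)⁻¹ * (((r : ℂ) * z ^ (u : ℕ)) ^ t)⁻¹ * (f.coeff i * ((r : ℂ) * z ^ (u : ℕ)) ^ i) =
        if i = t then f.coeff t else 0 := by
      intro i hi
      have h2 : ∀ u : Fin Q,
          (Q : ℂ)⁻¹ * (((r : ℂ) * z ^ (u : ℕ)) ^ t)⁻¹ * (f.coeff i * ((r : ℂ) * z ^ (u : ℕ)) ^ i) =
          ((Q : ℂ)⁻¹ * f.coeff i * (r ^ i / r ^ t)) * (z ^ i / z ^ t) ^ (u : ℕ) := fun u => by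
        rw [mul_pow, mul_pow, div_pow, ← pow_mul, ← pow_mul, ← pow_mul, ← pow_mul, mul_comm i,
          mul_comm t]
        field_simp
      simp only [h2]
      rw [← Finset.mul_sum, Fin.sum_univ_eq_sum_range (fun u => (z ^ i / z ^ t) ^ u) Q]
      split_ifs with h
      · subst h
        rw [div_self (pow_ne_zero _ hz0), div_self (pow_ne_zero _ hr0)]
        simp only [one_pow, Finset.sum_const, Finset.card_range, nsmul_eq_mul, mul_one]
        field_simp
      · have h3 : z ^ i / z ^ t ≠ 1 := fun h3 =>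
          h (hz.pow_inj (Finset.mem_range.1 hi) ht ((div_eq_one_iff_eq (pow_ne_zero _ hz0)).1 h3))
        rw [geom_sum_eq h3, div_pow, ← pow_mul, ← pow_mul, mul_comm i, mul_comm t, pow_mul, pow_mul,
          hz.pow_eq_one]
        simp
    simp only [Polynomial.eval_eq_sum_range' hf, Finset.mul_sum]
    rw [Finset.sum_comm, Finset.sum_congr rfl h1, Finset.sum_ite_eq', if_pos (Finset.mem_range.2 ht)]

/-- Coefficients of `ζ^α exp (b ζ)`. -/
def ecoef (α b i : ℕ) : ℂ := if α ≤ i then (b : ℂ) ^ (i - α) / ((i - α).factorial : ℂ) else 0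

theorem hasSum_ecoef (α b : ℕ) (ζ : ℂ) :
    HasSum (fun i => ecoef α b i * ζ ^ i) (ζ ^ α * Complex.exp (b * ζ)) := by
  rw [← hasSum_nat_add_iff' α, Finset.sum_eq_zero fun i hi => by
    rw [ecoef, if_neg (by simpa using hi), zero_mul], sub_zero]
  have h := (NormedSpace.expSeries_div_hasSum_exp (b * ζ : ℂ)).mul_left (ζ ^ α)
  rw [← Complex.exp_eq_exp_ℂ] at h
  have h2 : (fun n => ecoef α b (n + α) * ζ ^ (n + α)) =
      fun i => ζ ^ α * ((b * ζ) ^ i / (i.factorial : ℂ)) := by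
    funext n
    rw [ecoef, if_pos (by omega), Nat.add_sub_cancel, pow_add, mul_pow]
    ring
  rw [h2]
  exact h

theorem norm_ecoef_le (α b i : ℕ) {R : ℝ} (hR : 0 < R) :
    ‖ecoef α b i‖ * R ^ i ≤ Real.exp (b * R) * R ^ α := by
  unfold ecoef
  split_ifs with h
  · obtain ⟨n, rfl⟩ := Nat.exists_eq_add_of_le h
    rw [Nat.add_sub_cancel_left, norm_div, norm_pow, Complex.norm_natCast, Complex.norm_natCast,
      pow_add]
    have h1 := Real.pow_div_factorial_le_exp (b * R) (by positivity) n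
    calc (b : ℝ) ^ n / n.factorial * (R ^ α * R ^ n) = (b * R) ^ n / n.factorial * R ^ α := by
          rw [mul_pow]; ring
      _ ≤ _ := mul_le_mul_of_nonneg_right h1 (by positivity)
  · rw [norm_zero, zero_mul]
    positivity

theorem choose_mul_add_pow (a j' L : ℕ) (hL : a < L) (ζ η : ℂ) :
    (a.choose j' : ℂ) * (ζ + η) ^ (a - j') =
      ∑ j ∈ Finset.range L, (j.choose j' : ℂ) * η ^ (j - j') * ((a.choose j : ℂ) * ζ ^ (a - j)) := by
  rcases lt_or_ge a j' with h | h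
  · rw [Nat.choose_eq_zero_of_lt h, Nat.cast_zero, zero_mul, Finset.sum_eq_zero]
    intro j _
    rcases lt_or_ge j j' with h' | h'
    · rw [Nat.choose_eq_zero_of_lt h']; simp
    · rw [Nat.choose_eq_zero_of_lt (show a < j by omega)]; simp
  · obtain ⟨d, rfl⟩ := Nat.exists_eq_add_of_le h
    rw [← Finset.sum_subset (Finset.range_subset_range.2 (show j' + (d + 1) ≤ L by omega))
      fun j _ hj => by
        rw [Nat.choose_eq_zero_of_lt (show j' + d < j by simp at hj; omega)]; simp,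
      Finset.sum_range_add, Finset.sum_eq_zero fun j hj => by
        rw [Nat.choose_eq_zero_of_lt (Finset.mem_range.1 hj)]; simp, zero_add,
      Nat.add_sub_cancel_left, add_comm ζ, add_pow, Finset.mul_sum]
    refine Finset.sum_congr rfl fun i hi => ?_
    have h1 := Nat.choose_mul (n := j' + d) (k := j' + i) (s := j') (by omega)
    rw [Nat.add_sub_cancel_left, Nat.add_sub_cancel_left] at h1
    have h2 : ((j' + d).choose (j' + i) : ℂ) * ((j' + i).choose j' : ℂ) =
        ((j' + d).choose j' : ℂ) * (d.choose i : ℂ) := by exact_mod_cast h1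
    rw [Nat.add_sub_cancel_left, Nat.add_sub_add_left]
    linear_combination (-(η ^ i * ζ ^ (d - i))) * h2

end Crest.Agent.R11
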