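import Crest.Agent.R11.Defs
/-!
# R11: the filtration by the index
`mul_mem_Filt`: induction on the word with the unfolded hypotheses (`u (f g) = f u g + g u f`;
`u i f` has index `≥ x - wt i`; for the empty word `0 < x + y` gives `0 < x` or `0 < y`); prove this
unfolded version first, `mem_Filt` is its case `x = 0`.
-/

set_option autoImplicit false

open MvPolynomial

noncomputable section

namespace Crest.Agent.R11

variable {R : Type} [CommRing R] [Algebra ℂ R] {ι : Type} {u : ι → Derivation ℂ R R} {wt : ι → ℝ}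
  {q : Ideal R}

@[simp] theorem wsum_nil (wt : ι → ℝ) : wsum wt [] = 0 := by
  rfl

@[simp] theorem wsum_cons (wt : ι → ℝ) (i : ι) (l : List ι) :
    wsum wt (i :: l) = wt i + wsum wt l := by
  simp [wsum]

theorem wsum_append (wt : ι → ℝ) (l l' : List ι) : wsum wt (l ++ l') = wsum wt l + wsum wt l' := by
  simp [wsum]

theorem wsum_nonneg (hw : ∀ i, 0 ≤ wt i) (l : List ι) : 0 ≤ wsum wt l := by
  exact List.sum_nonneg fun x hx => by
    obtain ⟨i, -, rfl⟩ := List.mem_map.1 hx
    exact hw i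

theorem app_append (u : ι → Derivation ℂ R R) (l l' : List ι) (f : R) :
    app u (l ++ l') f = app u l' (app u l f) := by
  induction l generalizing f with
  | nil => rfl
  | cons i l ih => simp [ih]

theorem app_sum {κ : Type} (u : ι → Derivation ℂ R R) (l : List ι) (s : Finset κ) (f : κ → R) :
    app u l (∑ k ∈ s, f k) = ∑ k ∈ s, app u l (f k) := by
  induction l generalizing f with
  | nil => rfl
  | cons i l ih => simp [map_sum, ih]

theorem filtA_mul (l : List ι) {x y : ℝ} {f g : R} (hf : ∀ l, wsum wt l < x → app u l f ∈ q)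
    (hg : ∀ l, wsum wt l < y → app u l g ∈ q) (h : wsum wt l < x + y) : app u l (f * g) ∈ q := by
  induction l generalizing f g x y with
  | nil =>
    rcases lt_or_ge 0 x with hx | hx
    · exact q.mul_mem_right _ (hf [] hx)
    · exact q.mul_mem_left _ (hg [] (by simp at h ⊢; linarith))
  | cons i l ih =>
    rw [wsum_cons] at h
    rw [app_cons, Derivation.leibniz, app_add, smul_eq_mul, smul_eq_mul, mul_comm g]
    refine q.add_mem (ih (y := y - wt i) hf (fun l' h' => hg (i :: l') ?_) (by linarith))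
      (ih (x := x - wt i) (fun l' h' => hf (i :: l') ?_) hg (by linarith)) <;>
      rw [wsum_cons] <;> linarith

theorem mem_Filt (hw : ∀ i, 0 ≤ wt i) {x : ℝ} {f : R} :
    f ∈ Filt u wt q x ↔ ∀ l, wsum wt l < x → app u l f ∈ q := by
  refine ⟨fun h l hl => by simpa using h 1 l hl, fun h r l hl => ?_⟩
  exact filtA_mul l (x := 0) (fun l' h' => absurd h' (wsum_nonneg hw l').not_gt) h (by simpa using hl)

theorem Filt_nonpos (hw : ∀ i, 0 ≤ wt i) {x : ℝ} (hx : x ≤ 0) : Filt u wt q x = ⊤ := by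
  exact eq_top_iff.2 fun f _ => (mem_Filt hw).2 fun l hl =>
    absurd (hl.trans_le hx) (wsum_nonneg hw l).not_gt

theorem Filt_anti {x y : ℝ} (h : x ≤ y) : Filt u wt q y ≤ Filt u wt q x := by
  exact fun f hf r l hl => hf r l (hl.trans_le h)

theorem Filt_le {x : ℝ} (hx : 0 < x) : Filt u wt q x ≤ q := by
  exact fun f hf => by simpa using hf 1 [] hx

theorem mul_mem_Filt (hw : ∀ i, 0 ≤ wt i) {x y : ℝ} {f g : R} (hf : f ∈ Filt u wt q x)
    (hg : g ∈ Filt u wt q y) : f * g ∈ Filt u wt q (x + y) := by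
  exact (mem_Filt hw).2 fun l hl => filtA_mul l ((mem_Filt hw).1 hf) ((mem_Filt hw).1 hg) hl

theorem app_mem_Filt (hw : ∀ i, 0 ≤ wt i) {x : ℝ} {f : R} (hf : f ∈ Filt u wt q x) (l : List ι) :
    app u l f ∈ Filt u wt q (x - wsum wt l) := by
  refine (mem_Filt hw).2 fun l' hl => ?_
  rw [← app_append]
  exact (mem_Filt hw).1 hf _ (by rw [wsum_append]; linarith)

theorem pow_mem_Filt (hw : ∀ i, 0 ≤ wt i) {x : ℝ} {f : R} (hf : f ∈ Filt u wt q x) (n : ℕ) :
    f ^ n ∈ Filt u wt q (n * x) := by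
  induction n with
  | zero => simp [Filt_nonpos hw]
  | succ n ih =>
    rw [pow_succ, Nat.cast_succ, add_mul, one_mul]
    exact mul_mem_Filt hw ih hf

theorem prod_pow_mem_Filt (hw : ∀ i, 0 ≤ wt i) {κ : Type} (s : Finset κ) {g : κ → R} {a : κ → ℝ}
    (hg : ∀ k ∈ s, g k ∈ Filt u wt q (a k)) (β : κ → ℕ) :
    ∏ k ∈ s, g k ^ β k ∈ Filt u wt q (∑ k ∈ s, β k * a k) := by
  classical
  induction s using Finset.induction_on with
  | empty => simp [Filt_nonpos hw]
  | insert k s hk ih =>
    rw [Finset.prod_insert hk, Finset.sum_insert hk]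
    exact mul_mem_Filt hw (pow_mem_Filt hw (hg k (Finset.mem_insert_self _ _)) _)
      (ih fun k hk => hg k (Finset.mem_insert_of_mem hk))

/-- Elements of `q` have index at least the smallest weight. -/
theorem mem_Filt_of_mem (hw : ∀ i, 0 ≤ wt i) {δ : ℝ} (hδ : ∀ i, δ ≤ wt i) {f : R} (hf : f ∈ q) :
    f ∈ Filt u wt q δ := by
  refine (mem_Filt hw).2 fun l hl => ?_
  cases l with
  | nil => exact hf
  | cons i l =>
    rw [wsum_cons] at hl
    linarith [hδ i, wsum_nonneg hw l]

/-- A power of `q` lies in `Filt x` (elementwise form). -/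
theorem exists_pow_mem_Filt [Finite ι] (hw : ∀ i, 0 < wt i) (x : ℝ) :
    ∃ N : ℕ, ∀ f ∈ q, f ^ N ∈ Filt u wt q x := by
  obtain ⟨δ, h0, hδ⟩ : ∃ δ > 0, ∀ i, δ ≤ wt i := by
    rcases isEmpty_or_nonempty ι with h | h
    · exact ⟨1, one_pos, fun i => h.elim i⟩
    · obtain ⟨i, hi⟩ := Finite.exists_min wt
      exact ⟨wt i, hw i, hi⟩
  obtain ⟨N, hN⟩ := exists_nat_ge (x / δ)
  exact ⟨N, fun f hf => Filt_anti ((div_le_iff₀ h0).1 hN)
    (pow_mem_Filt (fun i => (hw i).le) (mem_Filt_of_mem (fun i => (hw i).le) hδ hf) N)⟩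

theorem Filt_comp (hw : ∀ i, 0 ≤ wt i) {κ : Type} (τ : κ → ι) (x : ℝ) :
    Filt u wt q x ≤ Filt (fun k => u (τ k)) (fun k => wt (τ k)) q x := by
  have e : ∀ (l : List κ) (f : R), app (fun k => u (τ k)) l f = app u (l.map τ) f := fun l => by
    induction l with
    | nil => exact fun _ => rfl
    | cons i l ih => exact fun f => by simp [ih]
  intro f hf r l hl
  rw [e]
  exact hf r _ (by simpa [wsum, Function.comp_def] using hl)

end Crest.Agent.R11
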