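import Crest.Agent.R11.FiltA
/-!
# R11: monomials in a dual system of parameters are independent modulo `Filt`
-/

set_option autoImplicit false

open MvPolynomial

noncomputable section

namespace Crest.Agent.R11

variable {R : Type} [CommRing R] [Algebra ℂ R] {ι : Type} {u : ι → Derivation ℂ R R} {wt : ι → ℝ}
  {q : Ideal R}

theorem filtB_der (D : Derivation ℂ R R) (k : ℕ) : ∀ f ∈ q ^ (k + 1), D f ∈ q ^ k := by
  induction k with
  | zero => simp
  | succ k ih =>
    intro f hf
    rw [pow_succ] at hf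
    refine Submodule.mul_induction_on hf (fun a ha b hb => ?_)
      fun a b ha hb => by rw [map_add]; exact add_mem ha hb
    rw [Derivation.leibniz, smul_eq_mul, smul_eq_mul]
    exact add_mem (Ideal.mul_mem_right _ _ ha)
      (by rw [pow_succ, mul_comm b]; exact Ideal.mul_mem_mul (ih a ha) hb)

theorem filtB_prod {g : ι → R} (hg : ∀ i, g i ∈ q) (s : Finset ι) (β : ι → ℕ) :
    ∏ i ∈ s, g i ^ β i ∈ q ^ ∑ i ∈ s, β i := by
  rw [← Finset.prod_pow_eq_pow_sum]
  exact Ideal.prod_mem_prod fun i _ => Ideal.pow_mem_pow (hg i) _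

theorem filtB_der_prod (D : Derivation ℂ R R) {g : ι → R} (hg : ∀ i, g i ∈ q) (s : Finset ι)
    (hD : ∀ i ∈ s, D (g i) ∈ q) (β : ι → ℕ) : D (∏ i ∈ s, g i ^ β i) ∈ q ^ ∑ i ∈ s, β i := by
  classical
  induction s using Finset.induction_on with
  | empty => simp
  | insert k s hk ih =>
    rw [Finset.prod_insert hk, Finset.sum_insert hk, Derivation.leibniz, smul_eq_mul, smul_eq_mul,
      pow_add, mul_comm (∏ i ∈ s, _)]
    refine add_mem (Ideal.mul_mem_mul (Ideal.pow_mem_pow (hg k) _)
      (ih fun i hi => hD i (Finset.mem_insert_of_mem hi))) (Ideal.mul_mem_mul ?_ (filtB_prod hg s β))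
    rw [Derivation.leibniz_pow]
    cases β k with
    | zero => simp
    | succ n =>
      rw [pow_succ]
      exact nsmul_mem (Ideal.mul_mem_mul (Ideal.pow_mem_pow (hg k) _)
        (hD k (Finset.mem_insert_self _ _))) _

theorem filtB_sum [Fintype ι] [DecidableEq ι] {S : Type} [Semiring S] (f : ι → S) (l : List ι) :
    (l.map f).sum = ∑ i, (l.count i : S) * f i := by
  induction l with
  | nil => simp
  | cons j l ih => simp [ih, List.count_cons, add_mul, Finset.sum_add_distrib, add_comm]

/-- A word of length `k` maps `q ^ (k + 1)` into `q` (a derivation maps `q ^ (k+1)` into `q ^ k`). -/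
theorem app_mem_of_pow (u : ι → Derivation ℂ R R) (l : List ι) {f : R}
    (hf : f ∈ q ^ (l.length + 1)) : app u l f ∈ q := by
  induction l generalizing f with
  | nil => simpa using hf
  | cons i l ih => exact ih (filtB_der _ _ f hf)

/-- `l (c g^β) ≡ c d^β β!` if `l` has the letters `β`, and `≡ 0` for other `l` of the same length.
Induction on `l` generalizing `c β`: modulo `q ^ |β|`, `u j (c g^β) ≡ β j * d j * c * g^(β - e j)`. -/
theorem app_monomial [Fintype ι] [DecidableEq ι] {g d : ι → R} (hg : ∀ i, g i ∈ q)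
    (hd : ∀ i j, u j (g i) - (if i = j then d i else 0) ∈ q) (l : List ι) (c : R) (β : ι → ℕ)
    (hβ : ∑ i, β i = l.length) :
    app u l (c * ∏ i, g i ^ β i) -
      (if ∀ i, β i = l.count i then c * ∏ i, (d i ^ β i * ((β i).factorial : R)) else 0) ∈ q := by
  induction l generalizing c β with
  | nil =>
    obtain rfl : β = 0 := funext fun i => Finset.sum_eq_zero_iff.1 hβ i (Finset.mem_univ i)
    simp
  | cons j l ih =>
    have hs := Finset.add_sum_erase _ β (Finset.mem_univ j)
    have hG := filtB_prod hg (Finset.univ.erase j) β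
    have hG' := filtB_der_prod (u j) hg (Finset.univ.erase j)
      (fun i hi => by simpa [Finset.ne_of_mem_erase hi] using hd i j) β
    have h0 : ∏ i, g i ^ β i ∈ q ^ (l.length + 1) := by simpa [hβ] using filtB_prod hg Finset.univ β
    have h1 : g j ^ β j * u j (∏ i ∈ Finset.univ.erase j, g i ^ β i) ∈ q ^ (l.length + 1) := by
      have := Ideal.mul_mem_mul (Ideal.pow_mem_pow (hg j) (β j)) hG'
      rwa [← pow_add, hs, hβ] at this
    rw [app_cons, Derivation.leibniz, app_add, smul_eq_mul, smul_eq_mul, add_sub_right_comm]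
    refine add_mem ?_ (app_mem_of_pow u l (Ideal.mul_mem_right _ _ h0))
    rw [← Finset.mul_prod_erase _ _ (Finset.mem_univ j), Derivation.leibniz, smul_eq_mul, smul_eq_mul,
      mul_add, app_add, add_sub_assoc]
    refine add_mem (app_mem_of_pow u l (Ideal.mul_mem_left _ _ h1)) ?_
    rcases hn : β j with _ | n
    · rw [if_neg fun h => by simpa [hn] using h j]
      simp [app_zero]
    have e1 : ∀ i ∈ Finset.univ.erase j, Function.update β j n i = β i := fun i hi =>
      Function.update_of_ne (Finset.ne_of_mem_erase hi) _ _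
    have hl : n + ∑ i ∈ Finset.univ.erase j, β i = l.length := by
      simp only [List.length_cons] at hβ
      omega
    have := ih (c * (n + 1) * d j) (Function.update β j n) (by
      rw [← Finset.add_sum_erase _ _ (Finset.mem_univ j), Finset.sum_congr rfl e1,
        Function.update_self, hl])
    have e2 : (∀ i, β i = (j :: l).count i) ↔ ∀ i, Function.update β j n i = l.count i :=
      forall_congr' fun i => by
        rcases eq_or_ne i j with rfl | h
        · simp [hn]
        · simp [h, List.count_cons_of_ne h.symm]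
    have h2 : c * (n + 1) * (g j ^ n * ∏ i ∈ Finset.univ.erase j, g i ^ β i) * (u j (g j) - d j) ∈
        q ^ (l.length + 1) := by
      rw [pow_succ, ← hl, pow_add]
      exact Ideal.mul_mem_mul (Ideal.mul_mem_left _ _ (Ideal.mul_mem_mul (Ideal.pow_mem_pow (hg j) _) hG))
        (by simpa using hd j j)
    have p1 : ∏ i, g i ^ Function.update β j n i = g j ^ n * ∏ i ∈ Finset.univ.erase j, g i ^ β i := by
      rw [← Finset.mul_prod_erase _ _ (Finset.mem_univ j), Function.update_self,
        Finset.prod_congr rfl fun i hi => congrArg (g i ^ ·) (e1 i hi)]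
    have p2 : ∏ i, d i ^ β i * ((β i).factorial : R) = (n + 1) * d j *
        ∏ i, d i ^ Function.update β j n i * ((Function.update β j n i).factorial : R) := by
      rw [← Finset.mul_prod_erase _ _ (Finset.mem_univ j),
        ← Finset.mul_prod_erase _ (fun i => _ * ((Function.update β j n i).factorial : R))
          (Finset.mem_univ j), Finset.prod_congr rfl fun i hi =>
          congrArg (fun k => d i ^ k * (k.factorial : R)) (e1 i hi), Function.update_self, hn,
        Nat.factorial_succ]
      push_cast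
      ring
    convert add_mem (app_mem_of_pow u l h2) this using 1
    rw [← add_sub_assoc, ← app_add, p1, p2, Derivation.leibniz_pow]
    simp only [e2, mul_assoc]
    congr 2
    simp only [nsmul_eq_mul, smul_eq_mul, Nat.add_sub_cancel]
    push_cast
    ring

/-- Take `β₀` with `c β₀ ≠ 0` and `Σ β₀ i` minimal, and a word with letters `β₀`; non-zero natural
numbers are units in a `ℂ`-algebra. -/
theorem indep_Filt [Fintype ι] [DecidableEq ι] (hq : q.IsPrime) (hw : ∀ i, 0 ≤ wt i) {g d : ι → R}
    (hg : ∀ i, g i ∈ q) (hd : ∀ i j, u j (g i) - (if i = j then d i else 0) ∈ q)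
    (hd' : ∀ i, d i ∉ q) {x : ℝ} (s : Finset (ι → ℕ)) (hs : ∀ β ∈ s, ∑ i, (β i : ℝ) * wt i < x)
    (c : (ι → ℕ) → R) (hc : ∀ β ∈ s, c β ∈ q → c β = 0)
    (h : ∑ β ∈ s, c β * ∏ i, g i ^ β i ∈ Filt u wt q x) : ∀ β ∈ s, c β = 0 := by
  classical
  by_contra hne
  push Not at hne
  obtain ⟨β₀, h₀, hmin⟩ := (s.filter fun β => c β ≠ 0).exists_min_image (fun β => ∑ i, β i)
    (hne.imp fun β hβ => Finset.mem_filter.2 hβ)
  rw [Finset.mem_filter] at h₀
  obtain ⟨l, hl⟩ : ∃ l : List ι, ∀ i, β₀ i = l.count i :=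
    ⟨(∑ i, Multiset.replicate (β₀ i) i).toList, fun i => by
      rw [← Multiset.coe_count, Multiset.coe_toList]
      simp [Multiset.count_sum', Multiset.count_replicate]⟩
  have hlen : ∑ i, β₀ i = l.length := by simpa [← hl] using (filtB_sum (fun _ => (1 : ℕ)) l).symm
  have h1 := (mem_Filt hw).1 h l (by simpa [wsum, filtB_sum, ← hl] using hs β₀ h₀.1)
  rw [app_sum, ← Finset.add_sum_erase _ _ h₀.1] at h1
  have h2 : ∑ β ∈ s.erase β₀, app u l (c β * ∏ i, g i ^ β i) ∈ q := sum_mem fun β hβ => by
    rcases eq_or_ne (c β) 0 with h0 | h0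
    · simp [h0, app_zero]
    rcases (hmin β (Finset.mem_filter.2 ⟨Finset.mem_of_mem_erase hβ, h0⟩)).eq_or_lt with e | e
    · have := app_monomial hg hd l (c β) β (e.symm.trans hlen)
      rwa [if_neg fun h' => Finset.ne_of_mem_erase hβ (funext fun i => (h' i).trans (hl i).symm),
        sub_zero] at this
    · exact app_mem_of_pow u l (Ideal.mul_mem_left _ _
        (Ideal.pow_le_pow_right (by omega) (filtB_prod hg Finset.univ β)))
  have h3 := app_monomial hg hd l (c β₀) β₀ hlen
  rw [if_pos hl] at h3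
  have h4 := sub_mem ((Ideal.add_mem_iff_left _ h2).1 h1) h3
  rw [sub_sub_cancel] at h4
  refine h₀.2 (hc _ h₀.1 ((hq.mem_or_mem h4).resolve_right fun h5 => ?_))
  obtain ⟨i, -, hi⟩ := Ideal.IsPrime.prod_mem_iff.1 h5
  refine (hq.mem_or_mem hi).elim (fun h6 => hd' i (hq.mem_of_pow_mem _ h6)) fun h6 => hq.ne_top ?_
  refine Ideal.eq_top_of_isUnit_mem _ h6 ?_
  rw [← map_natCast (algebraMap ℂ R)]
  exact (IsUnit.mk0 _ (Nat.cast_ne_zero.2 (Nat.factorial_ne_zero _))).map _

/-- Diagonalisation of a triangular system: multiply by the adjugate of the matrix `u j (g i)`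
(its determinant is the product of the diagonal modulo `q`). -/
theorem exists_diag [Fintype ι] [LinearOrder ι] (hq : q.IsPrime) {g : ι → R} (hg : ∀ i, g i ∈ q)
    (tri : ∀ i j, i < j → u j (g i) ∈ q) (diag : ∀ i, u i (g i) ∉ q) :
    ∃ g' d : ι → R, (∀ i, g' i ∈ q) ∧ (∀ i j, u j (g' i) - (if i = j then d i else 0) ∈ q) ∧
      ∀ i, d i ∉ q := by
  let M : Matrix ι ι R := Matrix.of fun i j => u j (g i)
  refine ⟨fun k => ∑ i, M.adjugate k i * g i, fun _ => M.det,
    fun k => sum_mem fun i _ => q.mul_mem_left _ (hg i), fun k j => ?_, fun _ h => ?_⟩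
  · have := congrFun (congrFun M.adjugate_mul k) j
    simp only [Matrix.mul_apply, Matrix.smul_apply, Matrix.one_apply, smul_eq_mul, mul_ite, mul_one,
      mul_zero] at this
    simp only [← this, map_sum, Derivation.leibniz, smul_eq_mul, Finset.sum_add_distrib]
    have e : ∑ i, M.adjugate k i * u j (g i) = ∑ i, M.adjugate k i * M i j := rfl
    rw [e, add_sub_cancel_left]
    exact sum_mem fun i _ => q.mul_mem_right _ (hg i)
  · rw [← Ideal.Quotient.eq_zero_iff_mem, RingHom.map_det, Matrix.det_of_isLowerTriangular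
      ((Ideal.Quotient.mk q).mapMatrix M) fun i j hij => Ideal.Quotient.eq_zero_iff_mem.2 (tri i j hij), Finset.prod_eq_zero_iff] at h
    obtain ⟨i, -, hi⟩ := h
    exact diag i (Ideal.Quotient.eq_zero_iff_mem.1 hi)

end Crest.Agent.R11
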