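import Crest.Agent.R11.Core
/-!
# R11: choice of the parameters
-/

set_option autoImplicit false

open Filter Topology

noncomputable section

namespace Crest.Agent.R11

theorem exists_m_S {ξ θ c A B A' B' : ℝ} (hξ : 0 < ξ) (hξ1 : ξ < 1) (hθ : ξ ^ 2 < θ) (hc : 0 < c)
    (hB : 0 < B) (hB' : 0 < B') :
    ∃ m S : ℕ, 0 < m ∧ 1 ≤ S ∧ S * ξ ^ m ≤ c ∧ A < B * S ^ 2 * θ ^ m ∧ A' * (m + 1) < B' * S := by
  have hθ0 : 0 < θ := lt_trans (by positivity) hθ
  have t0 := tendsto_pow_atTop_nhds_zero_of_lt_one hξ.le hξ1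
  have t1 := tendsto_self_mul_const_pow_of_lt_one hξ.le hξ1
  have t2 := (tendsto_pow_atTop_atTop_of_one_lt ((one_lt_div (by positivity)).2 hθ)).const_mul_atTop
    (r := B * c ^ 2 / 4) (by positivity)
  have t3 : Tendsto (fun m : ℕ => A' * ((m : ℝ) * ξ ^ m + ξ ^ m)) atTop (𝓝 0) := by
    simpa using (t1.add t0).const_mul A'
  obtain ⟨m, h0, h1, h2, h3⟩ := ((eventually_gt_atTop 0).and ((t0.eventually (gt_mem_nhds hc)).and
    ((t2.eventually_gt_atTop A).and (t3.eventually (gt_mem_nhds (by positivity : 0 < B' * c / 2)))))).exists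
  have hp : 0 < ξ ^ m := by positivity
  have h4 : 1 ≤ c / ξ ^ m := (one_le_div hp).2 h1.le
  have h5 : (1 : ℝ) ≤ ⌊c / ξ ^ m⌋₊ := by exact_mod_cast Nat.one_le_floor_iff _ |>.2 h4
  have h6 : c / 2 ≤ ⌊c / ξ ^ m⌋₊ * ξ ^ m := by
    have := Nat.lt_floor_add_one (c / ξ ^ m)
    rw [div_lt_iff₀ hp] at this
    nlinarith
  refine ⟨m, ⌊c / ξ ^ m⌋₊, h0, by exact_mod_cast h5, (le_div_iff₀ hp).1 (Nat.floor_le (by positivity)),
    h2.trans_le ?_, lt_of_mul_lt_mul_right (a := ξ ^ m) (by nlinarith) hp.le⟩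
  have h7 : (c / 2) ^ 2 ≤ (⌊c / ξ ^ m⌋₊ * ξ ^ m) ^ 2 := by gcongr
  rw [div_pow, ← pow_mul, mul_comm 2 m, pow_mul, ← mul_div_assoc, div_le_iff₀ (by positivity)]
  nlinarith [mul_le_mul_of_nonneg_left h7 (by positivity : 0 ≤ B * θ ^ m)]

theorem exists_sparse {Q : ℤ → ℕ → Prop} (H : ∀ N : ℕ, ∃ p q, N ≤ q ∧ Q p q) (l₀ : ℝ) {C : ℝ}
    (hC : 1 ≤ C) : ∃ (p : ℕ → ℤ) (q : ℕ → ℕ), (∀ k, Q (p k) (q k)) ∧ (∀ k, 0 < q k) ∧
      (∀ k, l₀ ≤ Real.log (q k)) ∧ ∀ i j, i < j → C * Real.log (q i) < Real.log (q j) := by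
  have : ∀ z : ℝ, ∃ pq : ℤ × ℕ, Q pq.1 pq.2 ∧ 0 < pq.2 ∧ z < Real.log pq.2 := fun z => by
    obtain ⟨p, q, h1, h2⟩ := H (⌊Real.exp z⌋₊ + 1)
    have h3 : Real.exp z < q := (Nat.lt_floor_add_one _).trans_le (by exact_mod_cast h1)
    exact ⟨(p, q), h2, by omega, (Real.lt_log_iff_exp_lt ((Real.exp_pos z).trans h3)).2 h3⟩
  choose f h1 h2 h3 using this
  let s : ℕ → ℤ × ℕ := fun k => Nat.rec (f l₀) (fun _ pq => f (C * Real.log pq.2)) k
  have hs : ∀ k, C * Real.log (s k).2 < Real.log (s (k + 1)).2 := fun k => h3 _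
  have h0 : ∀ k, 0 ≤ Real.log (s k).2 := fun k => Real.log_natCast_nonneg _
  have hm : Monotone fun k => Real.log (s k).2 := monotone_nat_of_le_succ fun k =>
    (le_mul_of_one_le_left (h0 k) hC).trans (hs k).le
  refine ⟨fun k => (s k).1, fun k => (s k).2, fun k => ?_, fun k => ?_,
    fun k => (h3 l₀).le.trans (hm (Nat.zero_le k)), fun i j hij => (hs i).trans_le (hm hij)⟩
  · cases k <;> exact h1 _
  · cases k <;> exact h2 _

theorem eventually_log_le (k : ℕ) {γ : ℝ} (hγ : 0 < γ) :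
    ∀ᶠ t : ℝ in atTop, 2 * Real.log ((t + 1) ^ (k + 2)) ≤ γ * t := by
  have := (Real.isLittleO_log_id_atTop.comp_tendsto (tendsto_atTop_add_const_right _ 1 tendsto_id)).bound
    (by positivity : 0 < γ / (4 * (k + 2)))
  filter_upwards [this, eventually_ge_atTop 1] with t h ht
  simp only [Function.comp, id, Real.norm_eq_abs] at h
  rw [abs_of_nonneg (by linarith : 0 ≤ t + 1), div_mul_eq_mul_div, le_div_iff₀ (by positivity)] at h
  rw [Real.log_pow]
  push_cast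
  nlinarith [le_abs_self (Real.log (t + 1)), (by positivity : (0 : ℝ) < k + 2)]

set_option maxHeartbeats 1000000 in
theorem no_approx_aux {ν ε x y η θ ξ γ : ℝ} (hν : 1 ≤ ν) (hε : 0 < ε) (hε1 : ε ≤ 1) (hx : 0 ≤ x)
    (hxξ : x < ξ) (hξ1 : ξ < 1) (hy : y ≤ 1) (hη : 0 < η) (hθ : ξ ^ 2 < θ) (hθy : θ < y - ε - η)
    (hγ0 : 0 < γ) (hγ1 : γ ≤ 1) (hγ : 6 * γ < ν * x - 1 - (ν - 1) * y)
    (H : ∀ N : ℕ, ∃ (p : ℤ) (q : ℕ), N ≤ q ∧
      |Real.pi - (p : ℝ) / q| ≤ Real.exp (-ν * Real.log q)) : False := by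
  have hξ : 0 < ξ := hx.trans_lt hxξ
  set K := ν / γ with hK
  have hK1 : 1 ≤ K := (one_le_div hγ0).2 (hγ1.trans hν)
  obtain ⟨a, ha⟩ := exists_nat_ge (6 * K / γ)
  rw [div_le_iff₀ hγ0] at ha
  have haK : K ≤ a := by linarith [mul_le_of_le_one_right (Nat.cast_nonneg a : (0 : ℝ) ≤ a) hγ1]
  have ha1 : (1 : ℝ) ≤ a := hK1.trans haK
  obtain ⟨a', ha'⟩ := exists_nat_ge (1 / γ)
  rw [div_le_iff₀ hγ0] at ha'
  have ha'1 : (1 : ℝ) ≤ a' := by
    linarith [mul_le_of_le_one_right (Nat.cast_nonneg a' : (0 : ℝ) ≤ a') hγ1]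
  obtain ⟨m, S, hm, hS, s1, s2, s3⟩ := exists_m_S (c := γ / (96 * ν ^ 2 * a')) (A := a) (A' := a)
    (B := 32 * η * a') (B' := 32 * ε * a') hξ hξ1 hθ (by positivity) (by positivity) (by positivity)
  rw [le_div_iff₀ (by positivity)] at s1
  have hS1 : (1 : ℝ) ≤ S := by exact_mod_cast hS
  set C : ℝ := ((m + 1) ^ 2 / ε) ^ (m + 1) with hC
  have hC1 : 1 ≤ C := one_le_pow₀ ((one_le_div hε).2 (hε1.trans
    (one_le_pow₀ (by linarith [(Nat.cast_nonneg m : (0 : ℝ) ≤ m)]))))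
  set l₀ := max ((12 + Real.log (512 * S ^ 2)) / γ) (C * a + 1) with hl₀
  have l1 : C * a + 1 ≤ l₀ := le_max_right _ _
  have l2 : 1 ≤ l₀ := by linarith [(by positivity : 0 ≤ C * a)]
  obtain ⟨p, q, h1, h2, h3, h4⟩ := exists_sparse H l₀ hC1
  set b : ℕ := 32 * a' * S with hb
  have hbR : (b : ℝ) = 32 * a' * S := by simp [hb]
  have hb1 : (1 : ℝ) ≤ b := by rw [hbR]; linarith [one_le_mul_of_one_le_of_one_le ha'1 hS1]
  have tD : Tendsto (fun n : ℕ => (a * b * n : ℝ)) atTop atTop :=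
    tendsto_natCast_atTop_atTop.const_mul_atTop (by positivity)
  obtain ⟨n, n1, n2, n3⟩ := ((eventually_ge_atTop 1).and ((tD.eventually (eventually_log_le m hγ0)).and
    (tD.eventually_gt_atTop ((∑ k : Fin m, Real.log (q k)) / (ξ - x))))).exists
  rw [div_lt_iff₀ (sub_pos.2 hxξ)] at n3
  have hn1 : (1 : ℝ) ≤ n := by exact_mod_cast n1
  have hbn : (0 : ℝ) < b * n := by positivity
  have hD1 : (1 : ℝ) ≤ a * b * n := one_le_mul_of_one_le_of_one_le
    (one_le_mul_of_one_le_of_one_le ha1 hb1) hn1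
  have hlam : ∀ k, 0 < Real.log (q k) := fun k => by linarith [h3 k]
  let P : Par m := ⟨fun k => 2 * Complex.I * p k / q k, fun k => ⌈K * Real.log (q k) / a⌉₊ + 1,
    fun k => Real.log (q k), a * b * n, b * n, a * n, S⟩
  have hT : (P.T : ℝ) = b * n := by simp [P]
  have hM : (P.M : ℝ) = a * n := by simp [P]
  have hD : P.D = a * b * n := rfl
  have hn : ∀ k, K * P.T * P.lam k ≤ P.n k * P.D := fun k => by
    have := Nat.le_ceil (K * Real.log (q k) / a)
    rw [div_le_iff₀ (by positivity)] at this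
    simp only [P]
    push_cast
    linarith [mul_le_mul_of_nonneg_right this hbn.le]
  have hn0 : (0 : ℝ) < n := by linarith
  have hG : P.Good ε := by
    refine ⟨hm, fun k => ?_, fun k => l2.trans (h3 k), by positivity, fun k => ?_, fun k => ?_, hε, hε1,
      fun i => ?_, ?_, fun k => rfl, ?_, fun i j hij => ?_⟩
    · have hp : p k ≠ 0 := fun h0 => by
        have := h1 k
        rw [h0, Int.cast_zero, zero_div, sub_zero, abs_of_pos Real.pi_pos] at this
        have h5 : Real.exp (-ν * Real.log (q k)) ≤ 1 :=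
          Real.exp_le_one_iff.2 (by linarith [mul_pos (by linarith : 0 < ν) (hlam k)])
        linarith [Real.pi_gt_three]
      have := (h2 k).ne'
      simp [P, hp, this]
    · exact Nat.succ_le_succ (Nat.one_le_ceil_iff.2 (by have := hlam k; positivity))
    · refine le_trans ?_ (hn k)
      rw [mul_assoc]
      exact le_mul_of_one_le_left (mul_nonneg (Nat.cast_nonneg _) (hlam k).le) hK1
    · refine Fin.cases ?_ (fun k => ?_) i
      · exact hbn.trans_eq hT.symm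
      · exact div_pos (by positivity) (hlam k)
    · exact (by positivity : (0 : ℝ) < a * n).trans_eq hM.symm
    · change (P.M : ℝ) * _ < ε * (P.T : ℝ)
      rw [hM, hT, hbR]
      linarith [mul_lt_mul_of_pos_right s3 hn0]
    · obtain ⟨j, rfl⟩ := Fin.exists_succ_eq.2 (Fin.ne_zero_of_lt hij)
      change C * (P.D / Real.log (q j)) < _
      rw [← mul_div_assoc, div_lt_iff₀ (hlam j)]
      revert hij
      refine Fin.cases (fun _ => ?_) (fun i hij => ?_) i
      · change _ < (P.T : ℝ) * _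
        rw [hT, hD]
        linarith [mul_le_mul_of_nonneg_left (l1.trans (h3 j)) hbn.le]
      · change _ < P.D / Real.log (q i) * _
        rw [div_mul_eq_mul_div, lt_div_iff₀ (hlam i), hD]
        linarith [mul_lt_mul_of_pos_left (h4 i j (Fin.succ_lt_succ_iff.1 hij)) (zero_lt_one.trans_le hD1)]
  refine hG.false (K := K) (l₀ := l₀) (x := x) (y := y) (η := η) (θ := θ) (ξ := ξ) (γ := γ)
    (p := fun k => p k) (q := fun k => q k) (fun k => h2 k) (fun _ => rfl) (fun _ => rfl)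
    (fun k => h1 k) hν l2 (fun k => h3 k) (by positivity) ?_ hD1 hn (fun k => ?_) hx
    (by linarith) hy hη (lt_trans (by positivity) hθ) hθy ?_ hξ ?_ ?_ ?_ ?_ ?_ ?_ ?_ hγ
  · rw [hT, hD]; linarith [mul_le_mul_of_nonneg_right haK hbn.le]
  · have := (Nat.ceil_lt_add_one (by have := hlam k; positivity : 0 ≤ K * Real.log (q k) / a)).le
    have e : K * P.T * P.lam k / P.D = K * Real.log (q k) / a := by
      rw [hT, hD]; simp only [P]; field_simp
    rw [e]
    simp only [P]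
    push_cast
    linarith
  · change _ < (S : ℝ) * _ * _
    rw [hM, hT, hbR]
    linarith [mul_lt_mul_of_pos_right s2 hn0]
  · change _ + ∑ k : Fin m, Real.log (q k) < _
    rw [hD]; linarith
  · rw [hT, hD]; linarith [mul_le_mul_of_nonneg_right ha hbn.le]
  · rw [div_le_iff₀ (by linarith), mul_comm γ, ← div_le_iff₀ hγ0]
    exact le_max_left _ _
  · refine le_trans ?_ n2
    rw [hM, hD, pow_succ, pow_succ]
    have : (0 : ℝ) < a * n := by positivity
    have h5 : (a : ℝ) * n ≤ a * b * n := by linarith [le_mul_of_one_le_right this.le hb1]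
    have h6 : (0 : ℝ) < (a * b * n + 1) ^ m := by positivity
    have h7 : 2 * ((a : ℝ) * n + 1) ≤ (a * b * n + 1) * (a * b * n + 1) :=
      mul_le_mul (by linarith) (by linarith) (by positivity) (by positivity)
    gcongr 2 * Real.log ?_
    linarith [mul_le_mul_of_nonneg_left h7 h6.le]
  · rw [hK, div_div_cancel₀ (by linarith)]
  · change 32 * (P.M : ℝ) * (S : ℝ) ≤ _
    rw [hM, hD, hbR]
    linarith [mul_le_mul_of_nonneg_right ha' (by positivity : (0 : ℝ) ≤ 32 * a * n * S)]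
  · rw [hM, hD, hbR]
    linarith [mul_le_mul_of_nonneg_right s1 (by positivity : (0 : ℝ) ≤ a * n)]

theorem no_approx {ν : ℝ} (h2 : 2 < ν) (h3 : ν ≤ 3)
    (H : ∀ N : ℕ, ∃ (p : ℤ) (q : ℕ), N ≤ q ∧
      |Real.pi - (p : ℝ) / q| ≤ Real.exp (-ν * Real.log q)) : False := by
  obtain ⟨κ, rfl⟩ : ∃ κ, ν = 2 + 20 * κ := ⟨(ν - 2) / 20, by ring⟩
  have k0 : 0 < κ := by linarith
  have k1 : κ ≤ 1 / 20 := by linarith
  have k2 : 0 < κ ^ 2 := by positivity
  have k3 : κ ^ 2 ≤ κ / 20 := by nlinarith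
  have k4 : κ ^ 3 ≤ κ ^ 2 / 20 := by nlinarith
  exact no_approx_aux (ε := κ ^ 2) (η := κ ^ 2) (x := 1 - κ - 5 / 2 * κ ^ 2) (ξ := 1 - κ)
    (y := 1 - 2 * κ + 5 * κ ^ 2) (θ := 1 - 2 * κ + 2 * κ ^ 2) (γ := κ ^ 2 / 5) (by linarith) k2
    (by linarith) (by linarith) (by linarith) (by linarith) (by linarith) k2 (by nlinarith)
    (by linarith) (by positivity) (by linarith) (by nlinarith) H

end Crest.Agent.R11
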