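import Crest.Agent.R11.Defs
/-!
# R11: ranks of images in quotients
Over a domain `rank` is additive (`Submodule.rank_quotient_add_rank`, `LinearMap.rank_range_add_rank_ker`,
`rank_quotient_add_rank_of_isDomain`).
-/

set_option autoImplicit false

open MvPolynomial

noncomputable section

namespace Crest.Agent.R11

variable {A R : Type} [CommRing A] [IsDomain A] [CommRing R] [Algebra A R]

theorem ka_split {M M' : Type} [AddCommGroup M] [Module A M] [AddCommGroup M'] [Module A M']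
    (W : Submodule A M) (f : M →ₗ[A] M') :
    Module.rank A W = Module.rank A (W.map f) + Module.rank A ↥(W ⊓ LinearMap.ker f) := by
  rw [← (f.domRestrict W).rank_range_add_rank_ker, LinearMap.range_domRestrict,
    LinearMap.ker_domRestrict, ← Submodule.map_comap_subtype, rank_map_eq W.injective_subtype]

omit [IsDomain A] in
theorem ka_congr {M M₁ M₂ : Type} [AddCommGroup M] [Module A M] [AddCommGroup M₁] [Module A M₁]
    [AddCommGroup M₂] [Module A M₂] (W : Submodule A M) (f : M →ₗ[A] M₁) (g : M →ₗ[A] M₂)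
    (h : LinearMap.ker f = LinearMap.ker g) : Module.rank A (W.map f) = Module.rank A (W.map g) := by
  rw [← LinearMap.range_domRestrict, ← LinearMap.range_domRestrict,
    ← (f.domRestrict W).quotKerEquivRange.rank_eq, ← (g.domRestrict W).quotKerEquivRange.rank_eq,
    LinearMap.ker_domRestrict, LinearMap.ker_domRestrict, h]

theorem rk_mono {V V' : Submodule A R} (h : V ≤ V') (J : Ideal R) : rk V J ≤ rk V' J := by
  exact Submodule.rank_mono (Submodule.map_mono h)

theorem rk_anti (V : Submodule A R) {J J' : Ideal R} (h : J ≤ J') : rk V J' ≤ rk V J := by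
  have H : J.restrictScalars A ≤ J'.restrictScalars A := h
  rw [rk, rk, ← Submodule.factor_comp_mk H, Submodule.map_comp]
  exact rank_map_le _ _

theorem rk_split (V : Submodule A R) {J J' : Ideal R} (h : J ≤ J') :
    rk V J = rk V J' + rk (V ⊓ J'.restrictScalars A) J := by
  have H : J.restrictScalars A ≤ J'.restrictScalars A := h
  rw [rk, rk, rk, ka_split _ (Submodule.factor H), ← Submodule.map_comp, Submodule.factor_comp_mk]
  refine congrArg (fun W : Submodule A _ => _ + Module.rank A W) ?_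
  ext y
  constructor
  · rintro ⟨⟨x, hx, rfl⟩, hy⟩
    exact ⟨x, ⟨hx, (Submodule.Quotient.mk_eq_zero _).1 hy⟩, rfl⟩
  · rintro ⟨x, hx, rfl⟩
    exact ⟨⟨x, hx.1, rfl⟩, (Submodule.Quotient.mk_eq_zero _).2 hx.2⟩

theorem rk_mul (V : Submodule A R) (J : Ideal R) (g : R) :
    rk (V.map (LinearMap.mulLeft A g)) J = rk V (J.colon {g}) := by
  rw [rk, rk, ← Submodule.map_comp]
  refine ka_congr _ _ _ ?_
  ext x
  simp [Submodule.mem_colon_singleton, mul_comm]

theorem rk_lt_aleph0 {V : Submodule A R} (h : V.FG) (J : Ideal R) : rk V J < Cardinal.aleph0 := by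
  have := Module.Finite.iff_fg.2 (h.map (J.restrictScalars A).mkQ)
  exact Module.rank_lt_aleph0 _ _

theorem rk_top_ideal (V : Submodule A R) : rk V ⊤ = 0 := by
  refine rank_eq_zero_iff.2 ?_
  rintro ⟨_, x, hx, rfl⟩
  exact ⟨1, one_ne_zero, Subtype.ext ((one_smul _ _).trans
    ((Submodule.Quotient.mk_eq_zero _).2 trivial))⟩

theorem rk_bot_ideal (V : Submodule A R) : rk V ⊥ = Module.rank A V := by
  exact rank_map_eq (LinearMap.ker_eq_bot.1 ((Submodule.ker_mkQ _).trans rfl)) V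

/-- If every element of `V` has a non-zero multiple in `V' + J`. -/
theorem rk_le_of_smul {V V' : Submodule A R} {J : Ideal R}
    (h : ∀ x ∈ V, ∃ a : A, a ≠ 0 ∧ ∃ u ∈ V', a • x - u ∈ J) : rk V J ≤ rk V' J := by
  rw [rk, ka_split _ (V'.map (J.restrictScalars A).mkQ).mkQ, Submodule.ker_mkQ,
    rank_eq_zero_iff.2, zero_add]
  · exact Submodule.rank_mono inf_le_right
  · rintro ⟨_, _, ⟨x, hx, rfl⟩, rfl⟩
    obtain ⟨a, ha, u, hu, h'⟩ := h x hx
    refine ⟨a, ha, Subtype.ext ?_⟩
    change a • Submodule.mkQ _ _ = 0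
    rw [← map_smul, ← map_smul, Submodule.mkQ_apply, Submodule.Quotient.mk_eq_zero]
    exact ⟨u, hu, ((Submodule.Quotient.eq _).2 h').symm⟩

theorem exists_smul_of_rk_eq_zero {V : Submodule A R} {J : Ideal R} (h : rk V J = 0) {x : R}
    (hx : x ∈ V) : ∃ a : A, a ≠ 0 ∧ a • x ∈ J := by
  obtain ⟨a, ha, h'⟩ := rank_eq_zero_iff.1 h ⟨_, x, hx, rfl⟩
  have := congrArg Subtype.val h'
  exact ⟨a, ha, (Submodule.Quotient.mk_eq_zero (J.restrictScalars A)).1 this⟩

theorem card_le_rk {κ : Type} [Fintype κ] {J : Ideal R} (v : κ → R)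
    (h : ∀ c : κ → A, ∑ i, c i • v i ∈ J → ∀ i, c i = 0) :
    (Fintype.card κ : Cardinal) ≤ rk (⊤ : Submodule A R) J := by
  have : LinearIndependent A fun i => (J.restrictScalars A).mkQ (v i) :=
    Fintype.linearIndependent_iff.2 fun c hc => h c (by
      simp only [← map_smul, ← map_sum] at hc
      exact (Submodule.Quotient.mk_eq_zero (J.restrictScalars A)).1 hc)
  rw [rk, Submodule.map_top, Submodule.range_mkQ, rank_top, ← Cardinal.mk_fintype]
  exact this.cardinal_le_rank

theorem KData.H_coe (D : KData A R) (J : Ideal R) (n : ℕ) :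
    (D.H J n : Cardinal) = rk (D.U n) J := by
  exact Cardinal.cast_toNat_of_lt_aleph0 (rk_lt_aleph0 (D.fg n) J)

theorem KData.H_mono (D : KData A R) (J : Ideal R) : Monotone (D.H J) := by
  exact fun a b h => Cardinal.toNat_le_toNat (rk_mono (D.mono h) J) (rk_lt_aleph0 (D.fg b) J)

theorem KData.H_anti (D : KData A R) {J J' : Ideal R} (h : J ≤ J') (n : ℕ) :
    D.H J' n ≤ D.H J n := by
  exact Cardinal.toNat_le_toNat (rk_anti _ h) (rk_lt_aleph0 (D.fg n) J)

theorem KData.l_mono (D : KData A R) (J : Ideal R) : Monotone (D.l J) := by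
  exact fun a b h => rk_anti _ (sup_le_sup_left (D.F_anti h) J)

theorem KData.l_zero (D : KData A R) (J : Ideal R) : D.l J 0 = 0 := by
  rw [KData.l, D.F_zero, sup_top_eq, rk_top_ideal]

/-- `0 → R/(J:g) → R/J → R/(J+g) → 0`, degree side. -/
theorem KData.H_cut (D : KData A R) (J : Ideal R) {g : R} {c : ℕ} (hg : g ∈ D.U c) (n : ℕ) :
    D.H (J ⊔ Ideal.span {g}) (n + c) + D.H (J.colon {g}) n ≤ D.H J (n + c) := by
  rw [← Nat.cast_le (α := Cardinal), Nat.cast_add, D.H_coe, D.H_coe, D.H_coe,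
    rk_split _ (le_sup_left : J ≤ J ⊔ Ideal.span {g}), ← rk_mul]
  refine add_le_add le_rfl (rk_mono ?_ _)
  rintro _ ⟨x, hx, rfl⟩
  exact ⟨add_comm c n ▸ D.mul_mem _ _ _ hg _ hx,
    Ideal.mem_sup_right (Ideal.mul_mem_right _ _ (Ideal.mem_span_singleton_self g))⟩

/-- `R/(J:g) → R/J → R/(J+g) → 0`, multiplicity side: `rk ⊤ (J + F n') = rk ⊤ (J + g + F n') +
rk (g R) (J + F n')` and `(J + F n' : g) ⊇ (J : g) + F n`. -/
theorem KData.l_cut (D : KData A R) (J : Ideal R) {g : R} {n n' : ℕ}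
    (hg : ∀ y ∈ D.F n, g * y ∈ D.F n') :
    D.l J n' ≤ D.l (J ⊔ Ideal.span {g}) n' + D.l (J.colon {g}) n := by
  rw [KData.l, KData.l, KData.l,
    rk_split _ (sup_le_sup_right le_sup_left _ : J ⊔ D.F n' ≤ J ⊔ Ideal.span {g} ⊔ D.F n')]
  refine add_le_add le_rfl ((rk_le_of_smul (V' := Submodule.map (LinearMap.mulLeft A g) ⊤) ?_).trans ?_)
  · rintro x ⟨-, hx⟩
    rw [sup_right_comm] at hx
    obtain ⟨y, hy, z, hz, rfl⟩ := Submodule.mem_sup.1 (show x ∈ J ⊔ D.F n' ⊔ Ideal.span {g} from hx)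
    obtain ⟨w, rfl⟩ := Ideal.mem_span_singleton'.1 hz
    exact ⟨1, one_ne_zero, g * w, ⟨w, trivial, rfl⟩, by simpa [mul_comm] using hy⟩
  · rw [rk_mul]
    refine rk_anti _ (sup_le (fun x hx => ?_) fun x hx => ?_) <;>
      rw [Submodule.mem_colon_singleton] at *
    · exact Ideal.mem_sup_left hx
    · exact Ideal.mem_sup_right (by simpa [mul_comm] using hg x hx)

end Crest.Agent.R11
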