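import Crest.Agent.R11.KA
/-!
# R11: Kleiman's theorem for Hilbert functions
-/

set_option autoImplicit false

open MvPolynomial

noncomputable section

namespace Crest.Agent.R11

open Filter Asymptotics

variable {A R : Type} [CommRing A] [IsDomain A] [CommRing R] [Algebra A R]

/-- The inductive claim: if `H J n = O(n^(r-1))` then `l J ≤ H J + e` with `Σ_{k ≤ n} e k = O(n^(r-1))`. -/
def KData.Claim (D : KData A R) (r : ℕ) (J : Ideal R) : Prop :=
  ((fun n : ℕ => (n : ℝ) * D.H J n) =O[atTop] fun n : ℕ => (n : ℝ) ^ r) →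
    ∃ e : ℕ → ℕ, (∀ n, D.l J n ≤ (D.H J n + e n : ℕ)) ∧
      (fun n : ℕ => (n : ℝ) * (∑ k ∈ Finset.range (n + 1), e k : ℕ)) =O[atTop] fun n : ℕ => (n : ℝ) ^ r

theorem kb_of_le {f g h : ℕ → ℝ} (hg : g =O[atTop] h) (h0 : ∀ n, 0 ≤ f n)
    (hle : ∀ᶠ n in atTop, f n ≤ g n) : f =O[atTop] h := by
  refine IsBigO.trans (IsBigO.of_norm_eventuallyLE ?_) hg
  filter_upwards [hle] with n hn
  rwa [Real.norm_of_nonneg (h0 n)]

theorem kb_div {a : ℕ → ℝ} {r : ℕ}
    (h : (fun n : ℕ => (n : ℝ) * a n) =O[atTop] fun n : ℕ => (n : ℝ) ^ (r + 1)) :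
    a =O[atTop] fun n : ℕ => (n : ℝ) ^ r := by
  obtain ⟨C, hC⟩ := h.bound
  refine IsBigO.of_bound C ?_
  filter_upwards [hC, eventually_gt_atTop 0] with n hn h0
  have h0' : (0 : ℝ) < n := by exact_mod_cast h0
  rw [pow_succ', norm_mul, norm_mul, Real.norm_of_nonneg h0'.le, mul_left_comm] at hn
  exact le_of_mul_le_mul_left hn h0'

theorem kb_mul {a : ℕ → ℝ} {r : ℕ} (h : a =O[atTop] fun n : ℕ => (n : ℝ) ^ r) :
    (fun n : ℕ => (n : ℝ) * a n) =O[atTop] fun n : ℕ => (n : ℝ) ^ (r + 1) := by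
  simpa only [pow_succ'] using (isBigO_refl (fun n : ℕ => (n : ℝ)) atTop).mul h

theorem kb_two {a : ℕ → ℝ} {r : ℕ} (h : a =O[atTop] fun n : ℕ => (n : ℝ) ^ r) :
    (fun n : ℕ => a (2 * n)) =O[atTop] fun n : ℕ => (n : ℝ) ^ r := by
  have ht : Tendsto (fun n : ℕ => 2 * n) atTop atTop :=
    tendsto_atTop_mono (fun n => by change n ≤ 2 * n; omega) tendsto_id
  refine (h.comp_tendsto ht).trans ?_
  refine IsBigO.of_bound (2 ^ r) (Eventually.of_forall fun n => ?_)
  simp [mul_pow]

/-- `n H n = O(1)` and `H` monotone force `H = 0`; then every element is torsion modulo `J`. -/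
theorem KData.claim_zero (D : KData A R) (J : Ideal R) : D.Claim 0 J := by
  intro hH
  have h0 : ∀ n, D.H J n = 0 := by
    intro n₀
    by_contra hne
    obtain ⟨C, hC⟩ := hH.bound
    obtain ⟨n, hn, h1, h2⟩ := (hC.and ((eventually_ge_atTop n₀).and
      (tendsto_natCast_atTop_atTop.eventually (eventually_gt_atTop C)))).exists
    have h3 : (1 : ℝ) ≤ D.H J n := by
      have := D.H_mono J h1
      exact_mod_cast (by omega : 1 ≤ D.H J n)
    rw [pow_zero, norm_one, mul_one, Real.norm_of_nonneg (by positivity)] at hn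
    have h4 : (0 : ℝ) ≤ n := by positivity
    nlinarith
  refine ⟨fun _ => 0, fun n => ?_, kb_of_le (isBigO_zero _ _) (fun n => by positivity)
    (Eventually.of_forall fun n => by simp)⟩
  rw [add_zero, D.H_coe]
  refine (rk_le_of_smul fun x _ => ?_).trans (rk_anti _ le_sup_left)
  obtain ⟨k, hk⟩ := D.exhaust x
  obtain ⟨a, ha, h⟩ := exists_smul_of_rk_eq_zero (J := J) (by rw [← D.H_coe, h0, Nat.cast_zero]) hk
  exact ⟨a, ha, 0, zero_mem _, by rw [sub_zero]; exact Ideal.mem_sup_left h⟩

/-- The case of a prime. First alternative of `D.prime`: with `J = p + f`, `(p : f) = p`, `H_cut` gives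
`H J (n+1) + H p n ≤ H p (n+1)`, so `n H J n ≤ Σ_{n < k ≤ 2n} H J k ≤ H p (2n) = O(n^r)`; take `e'` for
`J` and `e n = Σ_{k ≤ n} e' k` (induction on `n` with `l_cut`). Second alternative: `l p n ≤ H p n` for
`n ≥ n₀` (`rk_le_of_smul`, `rk_anti`), `e n = H p n₀` for `n < n₀`, else `0`. -/
theorem KData.claim_prime (D : KData A R) (r : ℕ) (ih : ∀ J, D.Claim r J) {p : Ideal R}
    (hp : p.IsPrime)
    (hH : (fun n : ℕ => (n : ℝ) * D.H p n) =O[atTop] fun n : ℕ => (n : ℝ) ^ (r + 1)) :
    ∃ e : ℕ → ℕ, (∀ n, D.l p n ≤ (D.H p n + e n : ℕ)) ∧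
      ((fun n : ℕ => (n : ℝ) * e n) =O[atTop] fun n : ℕ => (n : ℝ) ^ r) ∧
      (fun n : ℕ => (n : ℝ) * (∑ k ∈ Finset.range (n + 1), e k : ℕ)) =O[atTop]
        fun n : ℕ => (n : ℝ) ^ (r + 1) := by
  rcases D.prime p hp with ⟨f, hfU, hfF, hfp⟩ | ⟨n₀, hn₀⟩
  · have hcol : p.colon {f} = p := by
      ext x
      rw [Submodule.mem_colon_singleton, smul_eq_mul]
      exact ⟨fun h => (hp.mem_or_mem h).resolve_right hfp, fun h => p.mul_mem_right _ h⟩
    set J := p ⊔ Ideal.span {f} with hJ
    have hcut : ∀ n, D.H J (n + 1) + D.H p n ≤ D.H p (n + 1) := fun n => by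
      have := D.H_cut p hfU n
      rwa [hcol] at this
    have hsum : ∀ n k, k * D.H J n ≤ D.H p (n + k) := fun n k => by
      induction k with
      | zero => simp
      | succ k ihk =>
        have h1 := hcut (n + k)
        have h2 : D.H J n ≤ D.H J (n + k + 1) := D.H_mono J (by omega)
        rw [add_mul, one_mul, ← add_assoc]
        omega
    obtain ⟨e, he, hO⟩ := ih J (kb_of_le (kb_two (kb_div hH)) (fun n => by positivity)
      (Eventually.of_forall fun n => by rw [two_mul]; exact_mod_cast hsum n n))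
    refine ⟨fun n => ∑ k ∈ Finset.range (n + 1), e k, fun n => ?_, hO, ?_⟩
    · induction n with
      | zero => rw [D.l_zero]; exact zero_le
      | succ n ihn =>
        have h1 := D.l_cut p (g := f) (n := n) (n' := n + 1) fun y hy => D.F_mul n f hfF y hy
        rw [hcol] at h1
        refine h1.trans ((add_le_add (he (n + 1)) ihn).trans ?_)
        beta_reduce
        rw [← Nat.cast_add, Nat.cast_le, Finset.sum_range_succ _ (n + 1)]
        have := hcut n
        omega
    · refine kb_of_le ((kb_mul hO).const_mul_left 2) (fun n => by positivity) ?_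
      filter_upwards [eventually_ge_atTop 1] with n hn
      have h1 : ∑ j ∈ Finset.range (n + 1), ∑ k ∈ Finset.range (j + 1), e k ≤
          2 * n * ∑ k ∈ Finset.range (n + 1), e k := by
        refine (Finset.sum_le_card_nsmul _ _ (∑ k ∈ Finset.range (n + 1), e k) fun j hj => ?_).trans ?_
        · exact Finset.sum_le_sum_of_subset (Finset.range_mono (Finset.mem_range.1 hj))
        · rw [Finset.card_range, smul_eq_mul]
          exact Nat.mul_le_mul_right _ (by omega)
      have h2 : ((∑ j ∈ Finset.range (n + 1), ∑ k ∈ Finset.range (j + 1), e k : ℕ) : ℝ) ≤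
          2 * n * ((∑ k ∈ Finset.range (n + 1), e k : ℕ) : ℝ) := by exact_mod_cast h1
      have h3 : (0 : ℝ) ≤ n := by positivity
      nlinarith [mul_le_mul_of_nonneg_left h2 h3]
  · have hl : ∀ n, n₀ ≤ n → D.l p n ≤ D.H p n := fun n hn => by
      rw [D.H_coe]
      exact (rk_le_of_smul fun x _ => hn₀ n hn x).trans (rk_anti _ le_sup_left)
    refine ⟨fun n => if n < n₀ then D.H p n₀ else 0, fun n => ?_, ?_, ?_⟩
    · beta_reduce
      split_ifs with h
      · exact ((D.l_mono p h.le).trans (hl n₀ le_rfl)).trans (Nat.cast_le.2 (Nat.le_add_left _ _))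
      · exact hl n (not_lt.1 h)
    · refine kb_of_le (isBigO_zero _ _) (fun n => by positivity) ?_
      filter_upwards [eventually_ge_atTop n₀] with n hn
      simp [not_lt.2 hn]
    · refine kb_mul (kb_of_le ((isBigO_refl (fun n : ℕ => (n : ℝ) ^ r) atTop).const_mul_left
        ((n₀ * D.H p n₀ : ℕ) : ℝ)) (fun n => by positivity) ?_)
      filter_upwards [eventually_ge_atTop 1] with n hn
      have h1 : ∑ k ∈ Finset.range (n + 1), (if k < n₀ then D.H p n₀ else 0) ≤ n₀ * D.H p n₀ := by
        rw [← Finset.sum_filter, Finset.sum_const, smul_eq_mul]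
        refine Nat.mul_le_mul_right _ ?_
        refine (Finset.card_le_card (t := Finset.range n₀) fun k hk => ?_).trans (Finset.card_range _).le
        exact Finset.mem_range.2 (Finset.mem_filter.1 hk).2
      have h2 : (1 : ℝ) ≤ (n : ℝ) ^ r := one_le_pow₀ (by exact_mod_cast hn)
      exact (Nat.cast_le.2 h1).trans (le_mul_of_one_le_right (by positivity) h2)

theorem exists_colon_prime [IsNoetherianRing R] {J : Ideal R} (hJ : J ≠ ⊤) :
    ∃ g, g ∉ J ∧ (J.colon {g}).IsPrime := by
  have : Nontrivial (R ⧸ J) := Ideal.Quotient.nontrivial_iff.2 hJ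
  obtain ⟨P, hP, -⟩ := exists_le_isAssociatedPrime_of_isNoetherianRing R (1 : R ⧸ J) one_ne_zero
  obtain ⟨hp, x, hx⟩ := isAssociatedPrime_iff.1 hP
  obtain ⟨g, rfl⟩ := Ideal.Quotient.mk_surjective x
  have he : J.colon {g} = P := by
    ext y
    rw [hx, Submodule.mem_colon_singleton, Submodule.mem_colon_singleton, Submodule.mem_bot,
      ← Ideal.Quotient.eq_zero_iff_mem]
    rfl
  refine ⟨g, fun hg => hp.ne_top ?_, he ▸ hp⟩
  rw [← he, Ideal.eq_top_iff_one, Submodule.mem_colon_singleton, one_smul]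
  exact hg

/-- Noetherian induction on `J`: `p = (J : g)` prime, `g ∈ U c`, `H p n ≤ H J (n + c)`,
`e n = e_p n + e_{J+g} n + (H p n - (if c ≤ n then H p (n - c) else 0))`; the last terms sum up to at most
`c * H p n`. -/
theorem KData.claim_succ [IsNoetherianRing R] (D : KData A R) (r : ℕ) (ih : ∀ J, D.Claim r J)
    (J : Ideal R) : D.Claim (r + 1) J := by
  induction J using IsNoetherian.induction with
  | hgt J ihJ =>
  intro hH
  by_cases hJ : J = ⊤
  · refine ⟨fun _ => 0, fun n => ?_, kb_of_le (isBigO_zero _ _) (fun n => by positivity)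
    (Eventually.of_forall fun n => by simp)⟩
    rw [KData.l, hJ, top_sup_eq, rk_top_ideal]
    exact zero_le
  obtain ⟨g, hg, hp⟩ := exists_colon_prime hJ
  obtain ⟨c, hc⟩ := D.exhaust g
  set p := J.colon {g} with hpdef
  set J' := J ⊔ Ideal.span {g} with hJ'
  have hlt : J < J' := lt_of_le_of_ne le_sup_left fun h =>
    hg (h ▸ Ideal.mem_sup_right (Ideal.mem_span_singleton_self g))
  have hcut : ∀ n, D.H J' (n + c) + D.H p n ≤ D.H J (n + c) := D.H_cut J hc
  have hHp : (fun n : ℕ => (D.H p n : ℝ)) =O[atTop] fun n : ℕ => (n : ℝ) ^ r := by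
    refine kb_of_le (kb_two (kb_div hH)) (fun n => by positivity) ?_
    filter_upwards [eventually_ge_atTop c] with n hn
    have h1 := hcut n
    have h2 : D.H J (n + c) ≤ D.H J (2 * n) := D.H_mono J (by omega)
    exact_mod_cast (by omega : D.H p n ≤ D.H J (2 * n))
  obtain ⟨e₁, he₁, -, hO₁⟩ := D.claim_prime r ih hp (kb_mul hHp)
  obtain ⟨e₂, he₂, hO₂⟩ := ihJ J' hlt (kb_of_le hH (fun n => by positivity)
    (Eventually.of_forall fun n => mul_le_mul_of_nonneg_left
      (Nat.cast_le.2 (D.H_anti hlt.le n)) (by positivity)))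
  set G : ℕ → ℕ := fun k => if c ≤ k then D.H p (k - c) else 0 with hG
  have hGle : ∀ k n, k ≤ n + c → G k ≤ D.H p n := fun k n h => by
    simp only [hG]
    split_ifs
    · exact D.H_mono p (by omega)
    · exact Nat.zero_le _
  refine ⟨fun n => e₁ n + e₂ n + (D.H p n - G n), fun n => ?_, ?_⟩
  · refine (D.l_cut J (g := g) (n := n) (n' := n) fun y hy => Ideal.mul_mem_left _ _ hy).trans
      ((add_le_add (he₂ n) (he₁ n)).trans ?_)
    rw [← Nat.cast_add, Nat.cast_le]
    have h1 : D.H J' n + G n ≤ D.H J n := by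
      simp only [hG]
      split_ifs with h
      · have := hcut (n - c)
        rwa [Nat.sub_add_cancel h] at this
      · exact D.H_anti hlt.le n
    beta_reduce
    omega
  · refine kb_of_le ((hO₁.add hO₂).add (kb_mul (hHp.const_mul_left c))) (fun n => by positivity)
      (Eventually.of_forall fun n => ?_)
    have h1 : ∑ k ∈ Finset.range (n + 1), (D.H p k - G k) ≤ c * D.H p n := by
      have h2 : ∑ k ∈ Finset.range (n + 1), (D.H p k - G k) + ∑ k ∈ Finset.range (n + 1), G k =
          ∑ k ∈ Finset.range (n + 1), D.H p k := by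
        rw [← Finset.sum_add_distrib]
        exact Finset.sum_congr rfl fun k _ => Nat.sub_add_cancel (hGle k k (by omega))
      have h3 : ∑ k ∈ Finset.range (c + (n + 1)), G k = ∑ k ∈ Finset.range (n + 1), D.H p k := by
        rw [Finset.sum_range_add, Finset.sum_eq_zero fun k hk => if_neg
          (not_le.2 (Finset.mem_range.1 hk)), zero_add]
        exact Finset.sum_congr rfl fun k _ => by simp [hG]
      have h4 : ∑ k ∈ Finset.range c, G (n + 1 + k) ≤ c * D.H p n := by
        refine (Finset.sum_le_card_nsmul _ _ (D.H p n) fun k hk => hGle _ _ ?_).trans ?_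
        · have := Finset.mem_range.1 hk
          omega
        · simp
      rw [add_comm c, Finset.sum_range_add] at h3
      omega
    have h5 : ((∑ k ∈ Finset.range (n + 1), (D.H p k - G k) : ℕ) : ℝ) ≤ c * D.H p n := by
      exact_mod_cast h1
    rw [Finset.sum_add_distrib, Finset.sum_add_distrib, Nat.cast_add, Nat.cast_add, mul_add, mul_add]
    exact add_le_add le_rfl (mul_le_mul_of_nonneg_left h5 (by positivity))

theorem KData.main [IsNoetherianRing R] [IsDomain R] (D : KData A R) (r : ℕ) (h : ℕ → ℕ)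
    (hU : ∀ n, Module.rank A (D.U n) ≤ h n)
    (hh : (fun n : ℕ => (h n : ℝ)) =O[atTop] fun n : ℕ => (n : ℝ) ^ (r + 1)) :
    ∃ C : ℝ, ∀ᶠ n : ℕ in atTop, ∀ (κ : Type) [Fintype κ] (v : κ → R),
      (∀ c : κ → A, ∑ i, c i • v i ∈ D.F n → ∀ i, c i = 0) →
        (Fintype.card κ : ℝ) ≤ h n + C * (n : ℝ) ^ r := by
  have hall : ∀ r J, D.Claim r J := fun r => by
    induction r with
    | zero => exact D.claim_zero
    | succ r ih => exact D.claim_succ r ih
  have hle : ∀ n, D.H ⊥ n ≤ h n := fun n => by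
    rw [← Nat.cast_le (α := Cardinal), D.H_coe, rk_bot_ideal]
    exact hU n
  obtain ⟨e, he, hO, -⟩ := D.claim_prime (r + 1) (hall _) Ideal.isPrime_bot
    (kb_mul (kb_of_le hh (fun n => by positivity)
      (Eventually.of_forall fun n => Nat.cast_le.2 (hle n))))
  obtain ⟨C, hC⟩ := (kb_div hO).bound
  refine ⟨C, ?_⟩
  filter_upwards [hC] with n hn κ _ v hv
  have h1 := (card_le_rk v hv).trans ((show rk (⊤ : Submodule A R) (D.F n) = D.l ⊥ n by
    rw [KData.l, bot_sup_eq]).le.trans (he n))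
  rw [Real.norm_of_nonneg (by positivity), Real.norm_of_nonneg (by positivity)] at hn
  have h2 : (Fintype.card κ : ℝ) ≤ h n + e n := by
    have := hle n
    have := Nat.cast_le.1 h1
    exact_mod_cast (by omega : Fintype.card κ ≤ h n + e n)
  linarith

end Crest.Agent.R11
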