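import Crest.Agent.R11.LocA
import Crest.Agent.R11.FiltB
import Crest.Agent.R11.Count
/-!
# R11: the local coordinates and the index
`der 0 (loc 0) = X 0`, `der k.succ (loc 0) = 0`, `der j.succ (loc k.succ) = δ_{jk}`,
`der 0 (loc k.succ) = 1 - X 0 * lg' (X 0 - 1) = (-(X 0 - 1)) ^ (n k - 1)` (`Derivation.map_aeval`).
-/

set_option autoImplicit false

open MvPolynomial

noncomputable section

namespace Crest.Agent.R11

variable {m : ℕ} {P : Par m} {ε : ℝ}

theorem Par.mem_mx (P : Par m) (s : ℕ) (f : Rm m) : f ∈ P.mx s ↔ eval (P.pt s) f = 0 := by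
  exact RingHom.mem_ker

theorem Par.mx_maximal (P : Par m) (s : ℕ) : (P.mx s).IsMaximal := by
  exact RingHom.ker_isMaximal_of_surjective _ fun c => ⟨C c, by simp⟩

theorem Par.loc_mem_mx (P : Par m) (s : ℕ) (i : Fin (m + 1)) : P.loc s i ∈ P.mx s := by
  rw [P.mem_mx]
  refine Fin.cases ?_ (fun k => ?_) i
  · simp [Par.loc, Par.pt]
  · have e : eval (P.pt s) (Polynomial.aeval (X 0 - 1 : Rm m) (P.hh s k)) = (P.hh s k).coeff 0 := by
      have := Polynomial.aeval_algHom_apply (aeval (P.pt s) : Rm m →ₐ[ℂ] ℂ) (X 0 - 1 : Rm m)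
        (P.hh s k)
      refine Eq.trans this.symm ?_
      rw [Polynomial.coeff_zero_eq_aeval_zero]
      simp [Par.pt]
    simp only [Par.loc, Fin.cases_succ, map_sub, eval_X, e]
    simp [Par.hh, Par.pt, lg_coeff_zero]

theorem Par.Good.wt_pos (h : P.Good ε) (i : Fin (m + 1)) : 0 < (P.W i)⁻¹ := by
  exact inv_pos.2 (h.sparse.W_pos i)

theorem locB_der_zero_loc_zero (P : Par m) (s : ℕ) : der m 0 (P.loc s 0) = X 0 := by
  rw [der_zero]
  simp [Par.loc, pderiv_X, (Fin.succ_ne_zero _).symm]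

theorem locB_der_succ_loc_zero (P : Par m) (s : ℕ) (k : Fin m) :
    der m k.succ (P.loc s 0) = 0 := by
  simp [Par.loc, pderiv_X, (Fin.succ_ne_zero _).symm]

theorem locB_der_succ_loc_succ (P : Par m) (s : ℕ) (j k : Fin m) :
    der m j.succ (P.loc s k.succ) = if k = j then 1 else 0 := by
  have e4 : P.loc s 0 = X 0 - 1 := rfl
  have e5 : P.loc s k.succ = X k.succ - Polynomial.aeval (X 0 - 1 : Rm m) (P.hh s k) := rfl
  rw [e5, map_sub, Derivation.map_aeval, ← e4, locB_der_succ_loc_zero]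
  simp [pderiv_X, Pi.single_apply]

theorem Par.der_zero_loc_succ (P : Par m) (s : ℕ) (k : Fin m) (hk : 1 ≤ P.n k) :
    der m 0 (P.loc s k.succ) = (-P.loc s 0) ^ (P.n k - 1) := by
  obtain ⟨n, hn⟩ : ∃ n, P.n k = n + 1 := ⟨P.n k - 1, by omega⟩
  have e1 : der m 0 (X k.succ) = 1 := by
    rw [der_zero]
    simp [pderiv_X, Pi.single_apply, (Fin.succ_ne_zero _)]
  have e2 : Polynomial.derivative (P.hh s k) = Polynomial.derivative (lg (n + 1)) := by
    simp [Par.hh, hn]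
  have e3 := congrArg (Polynomial.aeval (X 0 - 1 : Rm m)) (one_add_X_mul_derivative_lg n)
  simp only [map_mul, map_add, map_one, Polynomial.aeval_X, map_sub, map_pow, map_neg] at e3
  have e4 : P.loc s 0 = X 0 - 1 := rfl
  have e5 : P.loc s k.succ = X k.succ - Polynomial.aeval (X 0 - 1 : Rm m) (P.hh s k) := rfl
  rw [e5, map_sub, e1, Derivation.map_aeval, ← e4, locB_der_zero_loc_zero, e2, hn, e4,
    Nat.add_sub_cancel, smul_eq_mul]
  linear_combination -e3

theorem Par.Good.der_loc (h : P.Good ε) (s : ℕ) (i j : Fin (m + 1)) :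
    der m j (P.loc s i) - (if i = j then 1 else 0) ∈ P.mx s := by
  refine Fin.cases ?_ (fun k => ?_) i <;> refine Fin.cases ?_ (fun l => ?_) j
  · rw [locB_der_zero_loc_zero, if_pos rfl]
    exact P.loc_mem_mx s 0
  · rw [locB_der_succ_loc_zero, if_neg (Fin.succ_ne_zero _).symm, sub_zero]
    exact Ideal.zero_mem _
  · have := h.n_ge k
    rw [P.der_zero_loc_succ s k (by omega), if_neg (Fin.succ_ne_zero _), sub_zero]
    exact Ideal.pow_mem_of_mem _ (neg_mem (P.loc_mem_mx s 0)) _ (by omega)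
  · rw [locB_der_succ_loc_succ]
    simp

theorem locB_wt_min (h : P.Good ε) (i : Fin (m + 1)) : (P.W 0)⁻¹ ≤ (P.W i)⁻¹ := by
  rcases (Fin.zero_le i).eq_or_lt with e | e
  · rw [← e]
  · refine inv_anti₀ (h.sparse.W_pos i) ?_
    have h1 := h.sparse.sp 0 i e
    have h2 : (1 : ℝ) ≤ (((m : ℝ) + 1) ^ 2 / ε) ^ (m + 1) := by
      refine one_le_pow₀ ?_
      rw [le_div_iff₀ h.sparse.pos, one_mul]
      have : (1 : ℝ) ≤ ((m : ℝ) + 1) ^ 2 :=
        one_le_pow₀ (le_add_of_nonneg_left (Nat.cast_nonneg _))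
      linarith [h.sparse.le_one]
    nlinarith [h.sparse.W_pos i]

/-- `(W 0)⁻¹` is the smallest weight (`Sparse.sp`), so `loc 0` is covered by `mem_Filt_of_mem`. For
`loc k.succ` look at the first letter of the word; for the letter `0` use `pow_mem_Filt` and `n_ge'`. -/
theorem Par.Good.loc_mem_Fs (h : P.Good ε) (s : ℕ) (i : Fin (m + 1)) :
    P.loc s i ∈ P.Fs s (P.W i)⁻¹ := by
  have hw : ∀ i, 0 ≤ (P.W i)⁻¹ := fun i => (h.wt_pos i).le
  have h0 : ∀ f ∈ P.mx s, f ∈ P.Fs s (P.W 0)⁻¹ := fun f hf =>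
    mem_Filt_of_mem hw (locB_wt_min h) hf
  refine Fin.cases (h0 _ (P.loc_mem_mx s 0)) (fun k => ?_) i
  refine (mem_Filt hw).2 fun l hl => ?_
  cases l with
  | nil => exact P.loc_mem_mx s _
  | cons j l =>
    rw [wsum_cons] at hl
    rw [app_cons]
    revert hl
    refine Fin.cases (fun hl => ?_) (fun j' hl => ?_) j
    · have hn := h.n_ge k
      rw [P.der_zero_loc_succ s k (by omega)]
      refine (mem_Filt hw).1 (pow_mem_Filt hw (h0 _ (neg_mem (P.loc_mem_mx s 0))) (P.n k - 1)) l ?_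
      have hT : (0 : ℝ) < P.T := h.sparse.W_pos 0
      have hD := h.D_pos
      have e0 : P.W 0 = P.T := rfl
      have e1 : P.W k.succ = P.D / P.lam k := rfl
      rw [e0, e1, inv_div] at hl
      have h1 : P.lam k / P.D ≤ P.n k * (P.T : ℝ)⁻¹ := by
        rw [← div_eq_mul_inv, div_le_div_iff₀ hD hT]
        linarith [h.n_ge' k]
      rw [e0, Nat.cast_sub (by omega), sub_mul]
      push_cast
      linarith
    · rw [locB_der_succ_loc_succ]
      split_ifs with hj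
      · subst hj
        linarith [wsum_nonneg hw l]
      · rw [app_zero]
        exact Ideal.zero_mem _

theorem Par.Good.mono_mem_Fs (h : P.Good ε) (s t : ℕ) (j : Fin m → ℕ) :
    P.loc s 0 ^ t * ∏ k : Fin m, P.loc s k.succ ^ j k ∈
      P.Fs s (t / P.T + (∑ k, (j k : ℝ) * P.lam k) / P.D) := by
  have hw : ∀ i, 0 ≤ (P.W i)⁻¹ := fun i => (h.wt_pos i).le
  have := mul_mem_Filt hw (pow_mem_Filt hw (h.loc_mem_Fs s 0) t)
    (prod_pow_mem_Filt hw Finset.univ (g := fun k : Fin m => P.loc s k.succ)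
      (a := fun k => (P.W k.succ)⁻¹) (fun k _ => h.loc_mem_Fs s k.succ) j)
  have e : (t : ℝ) / P.T + (∑ k, (j k : ℝ) * P.lam k) / P.D =
      t * (P.W 0)⁻¹ + ∑ k, (j k : ℝ) * (P.W k.succ)⁻¹ := by
    rw [Finset.sum_div, div_eq_mul_inv]
    congr 1
    refine Finset.sum_congr rfl fun k _ => ?_
    have e1 : P.W k.succ = P.D / P.lam k := rfl
    rw [e1, inv_div, mul_div_assoc]
  rw [e]
  exact this

/-- A separating element: a product of powers of `X k.succ - C (s' ρ k)`, `s' ≠ s`. -/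
theorem Par.Good.exists_sep (h : P.Good ε) (s : ℕ) (x : ℝ) :
    ∃ g : Rm m, g ∉ P.mx s ∧ ∀ s' < P.S, s' ≠ s → g ∈ P.Fs s' x := by
  classical
  let k : Fin m := ⟨0, h.m_pos⟩
  choose N hN using fun s' : ℕ =>
    exists_pow_mem_Filt (u := der m) (q := P.mx s') h.wt_pos x
  refine ⟨∏ s' ∈ (Finset.range P.S).erase s, (X k.succ - C (s' * P.ρ k)) ^ N s', ?_, ?_⟩
  · rw [P.mem_mx, map_prod]
    refine Finset.prod_ne_zero_iff.2 fun s' hs' => ?_
    rw [map_pow]
    refine pow_ne_zero _ ?_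
    simp only [map_sub, eval_X, eval_C, Par.pt, Fin.cases_succ]
    rw [← sub_mul]
    refine mul_ne_zero (sub_ne_zero.2 ?_) (h.ρ_ne k)
    exact_mod_cast (Finset.mem_erase.1 hs').1.symm
  · intro s' hs' hne
    refine Ideal.mem_of_dvd _ (Finset.dvd_prod_of_mem _
      (Finset.mem_erase.2 ⟨hne, Finset.mem_range.2 hs'⟩)) (hN s' _ ?_)
    rw [P.mem_mx]
    simp [Par.pt]

/-- If `p ⊄ mx s` then `p + Fs s x = ⊤` (`p ⊔ mx s = ⊤`, `exists_pow_mem_Filt`). -/
theorem Par.Good.sup_Fs_eq_top (h : P.Good ε) {p : Ideal (Rm m)} {s : ℕ} (hp : ¬ p ≤ P.mx s)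
    (x : ℝ) : p ⊔ P.Fs s x = ⊤ := by
  have hm := P.mx_maximal s
  have h1 : p ⊔ P.mx s = ⊤ := by
    by_contra hne
    exact hp (le_sup_left.trans (hm.eq_of_le hne le_sup_right).ge)
  obtain ⟨a, ha, b, hb, hab⟩ := Submodule.mem_sup.1 ((Ideal.eq_top_iff_one _).1 h1)
  obtain ⟨N, hN⟩ := exists_pow_mem_Filt (u := der m) (q := P.mx s) h.wt_pos x
  obtain ⟨t, ht⟩ := sub_dvd_pow_sub_pow (a + b) b N
  rw [add_sub_cancel_right, hab, one_pow] at ht
  rw [Ideal.eq_top_iff_one]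
  have := Submodule.add_mem_sup (p.mul_mem_right t ha) (hN b hb)
  rwa [← ht, sub_add_cancel] at this

theorem Par.Good.bdd_of_mem_Un (h : P.Good ε) {f : Rm m} (hf : f ∈ Un P.lam P.M P.D) :
    Bdd P.deg f := by
  intro β hβ i
  obtain ⟨h1, h2⟩ := mem_Un.1 hf β hβ
  refine Fin.cases h1 (fun k => ?_) i
  have e1 : P.deg k.succ = P.D / P.lam k := rfl
  rw [e1, le_div_iff₀ (zero_lt_one.trans_le (h.lam_ge k))]
  refine le_trans ?_ h2
  exact Finset.single_le_sum (f := fun k : Fin m => (β k.succ : ℝ) * P.lam k)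
    (fun k _ => mul_nonneg (Nat.cast_nonneg _) (zero_le_one.trans (h.lam_ge k))) (Finset.mem_univ k)

end Crest.Agent.R11
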