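import Crest.Agent.R11.FiltA
/-!
# R11: the data for the product inequality
`A = supported ℂ B` (polynomials in the variables of `B`), `U n` = `A`-span of the monomials in the other
variables with exponents `≤ n * deg i`.
-/

set_option autoImplicit false

open MvPolynomial

noncomputable section

namespace Crest.Agent.R11

variable {m : ℕ}

/-- The degree filtration over the ring of polynomials in the variables of `B`. -/
def Ubox (B : Finset (Fin (m + 1))) (deg : Fin (m + 1) → ℝ) (n : ℕ) :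
    Submodule (supported ℂ (B : Set (Fin (m + 1)))) (Rm m) :=
  Submodule.span _ ((fun β : Fin (m + 1) →₀ ℕ => (monomial β 1 : Rm m)) ''
    {β | ∀ i, (i ∈ B → β i = 0) ∧ (β i : ℝ) ≤ n * deg i})

variable {B : Finset (Fin (m + 1))} {deg : Fin (m + 1) → ℝ}

theorem Ubox_mono (hdeg : ∀ i, 0 < deg i) : Monotone (Ubox B deg) := by
  intro a b hab
  refine Submodule.span_mono (Set.image_mono fun β hβ i => ⟨(hβ i).1, (hβ i).2.trans ?_⟩)
  exact mul_le_mul_of_nonneg_right (by exact_mod_cast hab) (hdeg i).le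

theorem Ubox_mul (a b : ℕ) {x y : Rm m} (hx : x ∈ Ubox B deg a) (hy : y ∈ Ubox B deg b) :
    x * y ∈ Ubox B deg (a + b) := by
  have : Ubox B deg a * Ubox B deg b ≤ Ubox B deg (a + b) := by
    rw [Ubox, Ubox, Submodule.span_mul_span, Submodule.span_le]
    rintro _ ⟨_, ⟨β, hβ, rfl⟩, _, ⟨γ, hγ, rfl⟩, rfl⟩
    refine Submodule.subset_span ⟨β + γ, fun i => ⟨fun hi => ?_, ?_⟩, ?_⟩
    · simp [(hβ i).1 hi, (hγ i).1 hi]
    · have h1 := (hβ i).2
      have h2 := (hγ i).2
      simp only [Finsupp.add_apply, Nat.cast_add]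
      linarith
    · simp [monomial_mul]
  exact this (Submodule.mul_mem_mul hx hy)

/-- Split each monomial into its `B`-part (a scalar) and the rest. -/
theorem mem_Ubox (hdeg : ∀ i, 0 < deg i) {n : ℕ} {f : Rm m}
    (hf : ∀ β ∈ f.support, ∀ i, i ∉ B → (β i : ℝ) ≤ n * deg i) : f ∈ Ubox B deg n := by
  classical
  rw [f.as_sum]
  refine Submodule.sum_mem _ fun β hβ => ?_
  have h1 : (monomial (β.filter (· ∈ B)) (coeff β f) : Rm m) ∈
      supported ℂ (B : Set (Fin (m + 1))) := by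
    rw [mem_supported]
    intro i hi
    obtain ⟨d, hd, hi'⟩ := (mem_vars_iff_mem_support i).1 hi
    have hd' := support_monomial_subset hd
    rw [Finset.mem_singleton] at hd'
    subst hd'
    rw [Finsupp.support_filter, Finset.mem_filter] at hi'
    exact hi'.2
  have h2 : (monomial β (coeff β f) : Rm m) =
      (⟨_, h1⟩ : supported ℂ (B : Set (Fin (m + 1)))) •
        (monomial (β.filter fun i => ¬ i ∈ B) 1 : Rm m) := by
    rw [Subalgebra.smul_def, smul_eq_mul, monomial_mul, mul_one,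
      Finsupp.filter_add_filter_not]
  rw [h2]
  refine Submodule.smul_mem _ _ (Submodule.subset_span ⟨_, fun i => ⟨fun hi => ?_, ?_⟩, rfl⟩)
  · simp [hi]
  · rw [Finsupp.filter_apply]
    split_ifs with hi
    · simpa using mul_nonneg (Nat.cast_nonneg (α := ℝ) n) (hdeg i).le
    · exact hf β hβ i hi

theorem Ubox_exhaust (hdeg : ∀ i, 0 < deg i) (f : Rm m) : ∃ n, f ∈ Ubox B deg n := by
  refine ⟨∑ i, ⌈(f.totalDegree : ℝ) / deg i⌉₊, mem_Ubox hdeg fun β hβ i _ => ?_⟩
  have h1 : β i ≤ f.totalDegree := by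
    refine le_trans ?_ (le_totalDegree hβ)
    by_cases h : i ∈ β.support
    · exact Finset.single_le_sum (f := fun j => β j) (fun _ _ => Nat.zero_le _) h
    · rw [Finsupp.notMem_support_iff.1 h]
      exact Nat.zero_le _
  have h2 : ⌈(f.totalDegree : ℝ) / deg i⌉₊ ≤ ∑ i, ⌈(f.totalDegree : ℝ) / deg i⌉₊ :=
    Finset.single_le_sum (f := fun i => ⌈(f.totalDegree : ℝ) / deg i⌉₊)
      (fun _ _ => Nat.zero_le _) (Finset.mem_univ i)
  have h3 : (f.totalDegree : ℝ) / deg i ≤ (∑ i, ⌈(f.totalDegree : ℝ) / deg i⌉₊ : ℕ) :=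
    (Nat.le_ceil _).trans (by exact_mod_cast h2)
  rw [div_le_iff₀ (hdeg i)] at h3
  exact le_trans (by exact_mod_cast h1) h3

theorem Ubox_fg_le (n : ℕ) : ∃ t : Finset (Rm m),
    t.card ≤ ∏ i : {i // i ∉ B}, (⌊(n : ℝ) * deg i⌋₊ + 1) ∧
      ((fun β : Fin (m + 1) →₀ ℕ => (monomial β 1 : Rm m)) ''
        {β | ∀ i, (i ∈ B → β i = 0) ∧ (β i : ℝ) ≤ n * deg i}) ⊆ t := by
  classical
  let e : ({i // i ∉ B} → ℕ) → Rm m := fun a =>
    monomial (Finsupp.equivFunOnFinite.symm fun i => if h : i ∈ B then 0 else a ⟨i, h⟩) 1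
  refine ⟨(Fintype.piFinset fun i : {i // i ∉ B} =>
    Finset.range (⌊(n : ℝ) * deg i⌋₊ + 1)).image e, ?_, ?_⟩
  · refine Finset.card_image_le.trans ?_
    simp [Fintype.card_piFinset]
  · rintro _ ⟨β, hβ, rfl⟩
    rw [Finset.coe_image]
    refine ⟨fun i => β i, ?_, ?_⟩
    · rw [Finset.mem_coe, Fintype.mem_piFinset]
      intro i
      rw [Finset.mem_range, Nat.lt_succ_iff]
      exact Nat.le_floor (hβ i).2
    · simp only [e]
      congr 2
      ext i
      simp only [Finsupp.equivFunOnFinite_symm_apply_apply]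
      split_ifs with h
      · exact ((hβ i).1 h).symm
      · rfl

theorem Ubox_fg (n : ℕ) : (Ubox B deg n).FG := by
  obtain ⟨t, -, ht⟩ := Ubox_fg_le (B := B) (deg := deg) n
  exact Submodule.fg_span (t.finite_toSet.subset ht)

theorem rank_Ubox_le (n : ℕ) :
    Module.rank (supported ℂ (B : Set (Fin (m + 1)))) (Ubox B deg n) ≤
      (∏ i : {i // i ∉ B}, (⌊(n : ℝ) * deg i⌋₊ + 1) : ℕ) := by
  obtain ⟨t, h1, ht⟩ := Ubox_fg_le (B := B) (deg := deg) n
  refine (rank_span_le _).trans ((Cardinal.mk_le_mk_of_subset ht).trans ?_)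
  rw [Finset.coe_sort_coe, Cardinal.mk_coe_finset]
  exact_mod_cast h1

/-- `g ∈ supported (insert i B)` is a polynomial in `X i` over `A = supported B`. -/
theorem isAlgebraic_mk_X (q : Ideal (Rm m))
    (halg : ∀ i, i ∉ B → ∃ g ∈ q, g ≠ 0 ∧ g ∈ supported ℂ (insert i (B : Set (Fin (m + 1)))))
    (i : Fin (m + 1)) :
    IsAlgebraic (supported ℂ (B : Set (Fin (m + 1)))) (Ideal.Quotient.mk q (X i : Rm m)) := by
  by_cases hi : i ∈ B
  · exact isAlgebraic_algebraMap (A := Rm m ⧸ q)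
      (⟨X i, X_mem_supported.2 hi⟩ : supported ℂ (B : Set (Fin (m + 1))))
  obtain ⟨g, hgq, hg0, hg⟩ := halg i hi
  have key : ∃ p : Polynomial (supported ℂ (B : Set (Fin (m + 1)))),
      Polynomial.aeval (X i : Rm m) p = g := by
    clear hgq hg0
    rw [supported] at hg
    induction hg using Algebra.adjoin_induction with
    | mem x hx =>
      obtain ⟨j, hj, rfl⟩ := hx
      rcases hj with rfl | hj
      · exact ⟨Polynomial.X, Polynomial.aeval_X _⟩
      · exact ⟨Polynomial.C ⟨X j, X_mem_supported.2 hj⟩, Polynomial.aeval_C _ _⟩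
    | algebraMap c =>
      exact ⟨Polynomial.C (algebraMap ℂ _ c), Polynomial.aeval_C _ _⟩
    | add x y _ _ hx hy =>
      obtain ⟨p, rfl⟩ := hx
      obtain ⟨p', rfl⟩ := hy
      exact ⟨p + p', map_add _ _ _⟩
    | mul x y _ _ hx hy =>
      obtain ⟨p, rfl⟩ := hx
      obtain ⟨p', rfl⟩ := hy
      exact ⟨p * p', map_mul _ _ _⟩
  obtain ⟨p, rfl⟩ := key
  refine ⟨p, fun h => hg0 (by rw [h, map_zero]), ?_⟩
  have := Polynomial.aeval_algHom_apply
    (Ideal.Quotient.mkₐ (supported ℂ (B : Set (Fin (m + 1)))) q) (X i : Rm m) p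
  rw [Ideal.Quotient.mkₐ_eq_mk] at this
  rw [this]
  exact Ideal.Quotient.eq_zero_iff_mem.2 hgq

/-- `R / q` is algebraic over `A`, so a non-zero class divides a non-zero element of `A`. -/
theorem exists_mem_sup_of_not_mem {q : Ideal (Rm m)} (hq : q.IsPrime)
    (hB : ∀ f ∈ q, f ∈ supported ℂ (B : Set (Fin (m + 1))) → f = 0)
    (halg : ∀ i, i ∉ B → ∃ g ∈ q, g ≠ 0 ∧ g ∈ supported ℂ (insert i (B : Set (Fin (m + 1)))))
    {f : Rm m} (hf : f ∉ q) :
    ∃ a : supported ℂ (B : Set (Fin (m + 1))), a ≠ 0 ∧ ∃ r : Rm m, (a : Rm m) - r * f ∈ q := by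
  have hall : ∀ x : Rm m,
      IsAlgebraic (supported ℂ (B : Set (Fin (m + 1)))) (Ideal.Quotient.mk q x) := by
    intro x
    induction x using MvPolynomial.induction_on with
    | C c =>
      exact isAlgebraic_algebraMap (A := Rm m ⧸ q)
        (algebraMap ℂ (supported ℂ (B : Set (Fin (m + 1)))) c)
    | add p p' hp hp' => rw [map_add]; exact hp.add hp'
    | mul_X p i hp => rw [map_mul]; exact hp.mul (isAlgebraic_mk_X q halg i)
  have h0 : Ideal.Quotient.mk q f ≠ 0 := fun h => hf (Ideal.Quotient.eq_zero_iff_mem.1 h)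
  obtain ⟨a, ha, r, hr⟩ := (hall f).exists_nonzero_dvd (mem_nonZeroDivisors_of_ne_zero h0)
  obtain ⟨r, rfl⟩ := Ideal.Quotient.mk_surjective r
  refine ⟨a, ha, r, Ideal.Quotient.eq.1 ?_⟩
  rw [map_mul, mul_comm, ← hr]
  rfl

/-- `R / q` has finite rank: suitable multiples `a_i x_i` are integral, they generate a finite
`A`-module, whose generators lift to some `Ubox n₀`. -/
theorem exists_Ubox_span {q : Ideal (Rm m)} (hdeg : ∀ i, 0 < deg i)
    (halg : ∀ i, i ∉ B → ∃ g ∈ q, g ≠ 0 ∧ g ∈ supported ℂ (insert i (B : Set (Fin (m + 1))))) :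
    ∃ n₀, ∀ x : Rm m, ∃ a : supported ℂ (B : Set (Fin (m + 1))), a ≠ 0 ∧
      ∃ u ∈ Ubox B deg n₀, a • x - u ∈ q := by
  classical
  choose a ha hint using fun i => (isAlgebraic_mk_X q halg i).exists_integral_multiple
  let π := Ideal.Quotient.mkₐ (supported ℂ (B : Set (Fin (m + 1)))) q
  let S : Subalgebra (supported ℂ (B : Set (Fin (m + 1)))) (Rm m ⧸ q) :=
    Algebra.adjoin _ (Set.range fun i => a i • Ideal.Quotient.mk q (X i : Rm m))
  have hS : (Subalgebra.toSubmodule S).FG :=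
    fg_adjoin_of_finite (Set.finite_range _) (by rintro _ ⟨i, rfl⟩; exact hint i)
  obtain ⟨t, ht⟩ := hS
  have hlift : ∀ y : Rm m ⧸ q, ∃ n, ∃ u ∈ Ubox B deg n, π u = y := by
    intro y
    obtain ⟨u, rfl⟩ := Ideal.Quotient.mk_surjective y
    obtain ⟨n, hn⟩ := Ubox_exhaust (B := B) hdeg u
    exact ⟨n, u, hn, rfl⟩
  choose n u hu hπ using hlift
  have hle : Subalgebra.toSubmodule S ≤ (Ubox B deg (t.sup n)).map π.toLinearMap := by
    rw [← ht, Submodule.span_le]
    intro y hy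
    exact ⟨u y, Ubox_mono hdeg (Finset.le_sup hy) (hu y), hπ y⟩
  have hall : ∀ x : Rm m, ∃ c : supported ℂ (B : Set (Fin (m + 1))), c ≠ 0 ∧ c • π x ∈ S := by
    intro x
    induction x using MvPolynomial.induction_on with
    | C c =>
      refine ⟨1, one_ne_zero, ?_⟩
      rw [one_smul]
      exact S.algebraMap_mem (algebraMap ℂ (supported ℂ (B : Set (Fin (m + 1)))) c)
    | add p p' hp hp' =>
      obtain ⟨c, hc, h⟩ := hp
      obtain ⟨c', hc', h'⟩ := hp'
      refine ⟨c * c', mul_ne_zero hc hc', ?_⟩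
      rw [map_add, smul_add]
      refine S.add_mem ?_ ?_
      · rw [mul_comm, mul_smul]; exact S.smul_mem h _
      · rw [mul_smul]; exact S.smul_mem h' _
    | mul_X p i hp =>
      obtain ⟨c, hc, h⟩ := hp
      refine ⟨c * a i, mul_ne_zero hc (ha i), ?_⟩
      rw [map_mul, ← smul_mul_smul_comm]
      exact S.mul_mem h (Algebra.subset_adjoin ⟨i, rfl⟩)
  refine ⟨t.sup n, fun x => ?_⟩
  obtain ⟨c, hc, h⟩ := hall x
  obtain ⟨v, hv, hv'⟩ := hle h
  refine ⟨c, hc, v, hv, Ideal.Quotient.eq.1 ?_⟩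
  change π (c • x) = π v
  rw [map_smul]
  exact hv'.symm

end Crest.Agent.R11
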