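import Crest.Agent.R11.ProdA
import Crest.Agent.R11.FiltB
import Crest.Agent.R11.KB
/-!
# R11: the product inequality
Apply `KData.main` with `A = supported ℂ B`, `U = Ubox`, `F n = Filt u W⁻¹ q (n ε)`, `r + 1 = c` the number of
variables outside `B`. For a prime `p`: if `p ≤ q`, `p ≠ q` use `hmin`; if `p = q` use `exists_Ubox_span`;
if `f ∈ p \\ q` then `a - r f = y ∈ q`, and `a ^ N ≡ y ^ N` mod `p`, `y ^ N ∈ F n`. The independent family:
monomials `g' ^ β` (`exists_diag`, `indep_Filt`) with `β i < n ε W i / c`.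
-/

set_option autoImplicit false

open MvPolynomial

noncomputable section

namespace Crest.Agent.R11

open Filter

variable {m : ℕ}

/-- Comparison of leading coefficients. -/
theorem prod_le_of_eventually {κ : Type} [Fintype κ] {a b : κ → ℝ} (ha : ∀ i, 0 < a i)
    (hb : ∀ i, 0 < b i) {r : ℕ} (hr : Fintype.card κ = r + 1) {C : ℝ}
    (h : ∀ᶠ n : ℕ in atTop, ((∏ i, ⌈(n : ℝ) * a i⌉₊ : ℕ) : ℝ) ≤
      (∏ i, (⌊(n : ℝ) * b i⌋₊ + 1) : ℕ) + C * (n : ℝ) ^ r) : ∏ i, a i ≤ ∏ i, b i := by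
  have h1 : Tendsto (fun n : ℕ => ((n : ℝ))⁻¹) atTop (nhds 0) :=
    tendsto_inv_atTop_zero.comp tendsto_natCast_atTop_atTop
  have h2 : Tendsto (fun n : ℕ => ∏ i, (b i + ((n : ℝ))⁻¹) + C * ((n : ℝ))⁻¹) atTop
      (nhds (∏ i, (b i + 0) + C * 0)) :=
    (tendsto_finsetProd _ fun i _ => tendsto_const_nhds.add h1).add (h1.const_mul C)
  simp only [add_zero, mul_zero] at h2
  refine ge_of_tendsto h2 ?_
  filter_upwards [h, eventually_gt_atTop 0] with n hn hn0
  have hn' : (0 : ℝ) < n := by exact_mod_cast hn0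
  have e1 : (n : ℝ) ^ (r + 1) * ∏ i, a i ≤ ((∏ i, ⌈(n : ℝ) * a i⌉₊ : ℕ) : ℝ) := by
    rw [← hr, ← Finset.card_univ, ← Finset.prod_const, ← Finset.prod_mul_distrib, Nat.cast_prod]
    exact Finset.prod_le_prod (fun i _ => (mul_pos hn' (ha i)).le) fun i _ => Nat.le_ceil _
  have e2 : ((∏ i, (⌊(n : ℝ) * b i⌋₊ + 1) : ℕ) : ℝ) ≤
      (n : ℝ) ^ (r + 1) * ∏ i, (b i + ((n : ℝ))⁻¹) := by
    rw [← hr, ← Finset.card_univ, ← Finset.prod_const, ← Finset.prod_mul_distrib, Nat.cast_prod]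
    refine Finset.prod_le_prod (fun i _ => by positivity) fun i _ => ?_
    rw [mul_add, mul_inv_cancel₀ hn'.ne']
    push_cast
    have := Nat.floor_le (mul_pos hn' (hb i)).le
    linarith
  have e3 : C * (n : ℝ) ^ r = (n : ℝ) ^ (r + 1) * (C * ((n : ℝ))⁻¹) := by
    field_simp
    ring
  refine le_of_mul_le_mul_left ?_ (pow_pos hn' (r + 1))
  rw [mul_add, ← e3]
  linarith

theorem prod_ineq {q : Ideal (Rm m)} (hq : q.IsPrime) {B : Finset (Fin (m + 1))}
    (hB : ∀ f ∈ q, f ∈ supported ℂ (B : Set (Fin (m + 1))) → f = 0)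
    (halg : ∀ i, i ∉ B → ∃ g ∈ q, g ≠ 0 ∧ g ∈ supported ℂ (insert i (B : Set (Fin (m + 1)))))
    (hne : ∃ i, i ∉ B) {deg : Fin (m + 1) → ℝ} (hdeg : ∀ i, 0 < deg i)
    {u : {i // i ∉ B} → Derivation ℂ (Rm m) (Rm m)} {W : {i // i ∉ B} → ℝ} (hW : ∀ i, 0 < W i)
    {g : {i // i ∉ B} → Rm m} (hg : ∀ i, g i ∈ q) (tri : ∀ i j, i < j → u j (g i) ∈ q)
    (diag : ∀ i, u i (g i) ∉ q) {ε : ℝ} (hε : 0 < ε)
    (hmin : ∀ p : Ideal (Rm m), p.IsPrime → p ≤ q → p ≠ q →
      ∃ f, f ∉ p ∧ Bdd deg f ∧ f ∈ Filt u (fun i => (W i)⁻¹) q ε) :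
    ∏ i, (ε * W i / Fintype.card {i // i ∉ B}) ≤ ∏ i : {i // i ∉ B}, deg i := by
  classical
  have hw : ∀ i, 0 < (W i)⁻¹ := fun i => inv_pos.2 (hW i)
  have hw' : ∀ i, 0 ≤ (W i)⁻¹ := fun i => (hw i).le
  let D : KData (supported ℂ (B : Set (Fin (m + 1)))) (Rm m) :=
    { U := Ubox B deg
      F := fun n => Filt u (fun i => (W i)⁻¹) q (n * ε)
      fg := Ubox_fg
      mono := Ubox_mono hdeg
      mul_mem := fun a b x hx y hy => Ubox_mul a b hx hy
      exhaust := Ubox_exhaust hdeg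
      F_zero := Filt_nonpos hw' (by simp)
      F_anti := fun a b hab => Filt_anti
        (mul_le_mul_of_nonneg_right (by exact_mod_cast hab) hε.le)
      F_mul := fun n x hx y hy => by
        have := mul_mem_Filt hw' hx hy
        have e : ((1 : ℕ) : ℝ) * ε + n * ε = ((n + 1 : ℕ) : ℝ) * ε := by push_cast; ring
        rwa [e] at this
      prime := fun p hp => by
        by_cases hpq : p ≤ q
        · by_cases he : p = q
          · right
            obtain ⟨n₀, hn₀⟩ := exists_Ubox_span hdeg halg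
            refine ⟨n₀, fun n hn x => ?_⟩
            obtain ⟨a, ha, v, hv, h⟩ := hn₀ x
            exact ⟨a, ha, v, Ubox_mono hdeg hn hv, Ideal.mem_sup_left (he ▸ h)⟩
          · left
            obtain ⟨f, hf, hb, hF⟩ := hmin p hp hpq he
            refine ⟨f, mem_Ubox hdeg fun β hβ i _ => ?_, by simpa using hF, hf⟩
            simpa using hb β hβ i
        · right
          obtain ⟨f, hfp, hfq⟩ := SetLike.not_le_iff_exists.1 hpq
          obtain ⟨a, ha, r, hr⟩ := exists_mem_sup_of_not_mem hq hB halg hfq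
          refine ⟨0, fun n _ x => ?_⟩
          obtain ⟨N, hN⟩ := exists_pow_mem_Filt (u := u) (q := q) hw ((n : ℝ) * ε)
          refine ⟨a ^ N, pow_ne_zero _ ha, 0, Submodule.zero_mem _, ?_⟩
          have h1 : (a : Rm m) ^ N - ((a : Rm m) - r * f) ^ N ∈ p := by
            obtain ⟨t, ht⟩ := sub_dvd_pow_sub_pow (a : Rm m) ((a : Rm m) - r * f) N
            rw [ht, sub_sub_cancel]
            exact p.mul_mem_right _ (p.mul_mem_left _ hfp)
          have h2 : (a : Rm m) ^ N ∈ p ⊔ Filt u (fun i => (W i)⁻¹) q (n * ε) := by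
            have := Submodule.add_mem_sup h1 (hN _ hr)
            rwa [sub_add_cancel] at this
          rw [sub_zero, Algebra.smul_def]
          exact Ideal.mul_mem_right _ _ (by simpa using h2) }
  obtain ⟨i₀, hi₀⟩ := hne
  have : Nonempty {i // i ∉ B} := ⟨⟨i₀, hi₀⟩⟩
  obtain ⟨r, hr⟩ : ∃ r, Fintype.card {i // i ∉ B} = r + 1 :=
    Nat.exists_eq_succ_of_ne_zero Fintype.card_ne_zero
  have hc : (0 : ℝ) < Fintype.card {i // i ∉ B} := by exact_mod_cast Fintype.card_pos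
  have hO : (fun n : ℕ => ((∏ i : {i // i ∉ B}, (⌊(n : ℝ) * deg i⌋₊ + 1) : ℕ) : ℝ)) =O[atTop]
      fun n : ℕ => (n : ℝ) ^ (r + 1) := by
    refine Asymptotics.IsBigO.of_bound (∏ i : {i // i ∉ B}, (deg i + 1)) ?_
    filter_upwards [eventually_ge_atTop 1] with n hn
    have hn' : (1 : ℝ) ≤ n := by exact_mod_cast hn
    rw [Real.norm_of_nonneg (Nat.cast_nonneg _), Real.norm_of_nonneg (by positivity), ← hr,
      ← Finset.card_univ, ← Finset.prod_const, ← Finset.prod_mul_distrib, Nat.cast_prod]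
    refine Finset.prod_le_prod (fun i _ => by positivity) fun i _ => ?_
    have := Nat.floor_le (mul_pos (zero_lt_one.trans_le hn') (hdeg i)).le
    push_cast
    nlinarith
  obtain ⟨C, hC⟩ := D.main r _ (fun n => rank_Ubox_le n) hO
  obtain ⟨g', d, hg', hd, hd'⟩ := exists_diag hq hg tri diag
  refine prod_le_of_eventually (C := C) (fun i => div_pos (mul_pos hε (hW i)) hc)
    (fun i => hdeg i) hr ?_
  filter_upwards [hC] with n hn
  set s : Finset ({i // i ∉ B} → ℕ) := Fintype.piFinset fun i =>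
    Finset.range ⌈(n : ℝ) * (ε * W i / Fintype.card {i // i ∉ B})⌉₊ with hs
  have hcard : Fintype.card s =
      ∏ i, ⌈(n : ℝ) * (ε * W i / Fintype.card {i // i ∉ B})⌉₊ := by
    rw [Fintype.card_coe, hs, Fintype.card_piFinset]
    simp
  rw [← hcard]
  refine hn s (fun β => ∏ i, g' i ^ β.1 i) fun c hcF => ?_
  let c' : ({i // i ∉ B} → ℕ) → Rm m := fun β => if h : β ∈ s then (c ⟨β, h⟩ : Rm m) else 0
  have key := indep_Filt (x := (n : ℝ) * ε) hq hw' hg' hd hd' s ?_ c' ?_ ?_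
  · intro β
    have := key β.1 β.2
    simp only [c', dif_pos β.2] at this
    exact Subtype.ext this
  · intro β hβ
    have hlt : ∀ i, (β i : ℝ) * (W i)⁻¹ < n * ε / Fintype.card {i // i ∉ B} := fun i => by
      have h1 := Fintype.mem_piFinset.1 hβ i
      rw [Finset.mem_range, Nat.lt_ceil] at h1
      have h2 := mul_lt_mul_of_pos_right h1 (hw i)
      have h3 := (hW i).ne'
      refine h2.trans_eq ?_
      field_simp
    refine (Finset.sum_lt_sum_of_nonempty Finset.univ_nonempty fun i _ => hlt i).trans_eq ?_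
    rw [Finset.sum_const, Finset.card_univ, nsmul_eq_mul]
    field_simp
  · intro β hβ h
    simp only [c', dif_pos hβ] at h ⊢
    exact hB _ h (c ⟨β, hβ⟩).2
  · rw [← Finset.sum_coe_sort s]
    convert hcF using 2 with β
    simp only [c', dif_pos β.2]
    rfl

end Crest.Agent.R11
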