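import Crest.Agent.R11.LocB
/-!
# R11: the two local inputs of the zero estimate
-/

set_option autoImplicit false

open MvPolynomial

noncomputable section

namespace Crest.Agent.R11

variable {m : ℕ} {P : Par m} {ε : ℝ}

/-- Index at least `x` at all the points. -/
def Par.Fall (P : Par m) (x : ℝ) : Ideal (Rm m) := ⨅ s : Fin P.S, P.Fs s x

/-- On the hyperplane `w = 1` the index is bounded by the degree. Use `mem_of_expand` with
`N = Un lam 0 (x D) ⊔ (p ⊔ Fs s x)`: terms with `t > 0` are in `p`, `loc k.succ ≡ X k.succ - C (s ρ k)` mod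
`X 0 - 1`, and `mono_mem_Fs` / `prod_sub_pow_mem_Un` according to the weight of `j`. -/
theorem Par.Good.exists_sub_mem (h : P.Good ε) {p : Ideal (Rm m)} (hp : X 0 - 1 ∈ p) (s : ℕ) (x : ℝ)
    (f : Rm m) : ∃ u ∈ Un P.lam 0 (x * P.D), f - u ∈ p ⊔ P.Fs s x := by
  have hD := h.D_pos
  have key : f ∈ Un P.lam 0 (x * P.D) ⊔ (p ⊔ P.Fs s x).restrictScalars ℂ := by
    refine P.mem_of_expand s _ fun j t _ => ?_
    rcases Nat.eq_zero_or_pos t with rfl | ht
    · by_cases hx : x ≤ (∑ k, (j k : ℝ) * P.lam k) / P.D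
      · refine Submodule.mem_sup_right (Ideal.mem_sup_right ?_)
        refine Filt_anti ?_ (h.mono_mem_Fs s 0 j)
        simpa using hx
      · rw [not_le, div_lt_iff₀ hD] at hx
        have h1 := Un_mono le_rfl hx.le
          (prod_sub_pow_mem_Un h.lam_ge (fun k => s * P.ρ k) j)
        have h2 : ∏ k : Fin m, P.loc s k.succ ^ j k -
            ∏ k : Fin m, ((X k.succ : Rm m) - C (s * P.ρ k)) ^ j k ∈ p := by
          rw [← Ideal.Quotient.eq, map_prod, map_prod]
          refine Finset.prod_congr rfl fun k _ => ?_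
          rw [map_pow, map_pow]
          congr 1
          rw [Ideal.Quotient.eq]
          obtain ⟨w, hw⟩ := Polynomial.X_dvd_iff.2 (lg_coeff_zero (P.n k))
          have e : P.loc s k.succ - (X k.succ - C (s * P.ρ k)) =
              -(Polynomial.aeval (X 0 - 1 : Rm m) w) * (X 0 - 1) := by
            simp only [Par.loc, Par.hh, Fin.cases_succ, map_add, Polynomial.aeval_C, hw, map_mul,
              Polynomial.aeval_X, algebraMap_eq]
            ring
          rw [e]
          exact p.mul_mem_left _ hp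
        have h3 := Submodule.add_mem_sup (T := (p ⊔ P.Fs s x).restrictScalars ℂ) h1
          (Ideal.mem_sup_left h2)
        rw [pow_zero, one_mul]
        rwa [add_sub_cancel] at h3
    · exact Submodule.mem_sup_right (Ideal.mem_sup_left
        (p.mul_mem_right _ (p.pow_mem_of_mem hp t ht)))
  obtain ⟨u, hu, v, hv, e⟩ := Submodule.mem_sup.1 key
  refine ⟨u, hu, ?_⟩
  rw [← e, add_sub_cancel_left]
  exact hv

/-- If `p` is comaximal to all `Fs s' x`, `s' ≠ s`, then `p ⊔ Fall x ≥ p ⊔ Fs s x`. -/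
theorem Par.sup_Fall {p : Ideal (Rm m)} {x : ℝ} (s : ℕ)
    (h : ∀ s' < P.S, s' ≠ s → p ⊔ P.Fs s' x = ⊤) : p ⊔ P.Fs s x ≤ p ⊔ P.Fall x := by
  classical
  refine sup_le le_sup_left fun y hy => ?_
  have h1 := Ideal.sup_iInf_eq_top (I := p) (s := (Finset.range P.S).erase s)
    (J := fun s' => P.Fs s' x)
    fun s' hs' => h s' (Finset.mem_range.1 (Finset.mem_erase.1 hs').2) (Finset.mem_erase.1 hs').1
  obtain ⟨a, ha, b, hb, hab⟩ := Submodule.mem_sup.1 ((Ideal.eq_top_iff_one _).1 h1)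
  have e : y = a * y + b * y := by rw [← add_mul, hab, one_mul]
  rw [e]
  refine Submodule.add_mem_sup (p.mul_mem_right _ ha) (Ideal.mem_iInf.2 fun s' => ?_)
  by_cases hs : (s' : ℕ) = s
  · rw [hs]
    exact Ideal.mul_mem_left _ _ hy
  · exact Ideal.mul_mem_right _ _ (Ideal.mem_iInf.1 (Ideal.mem_iInf.1 hb s')
      (Finset.mem_erase.2 ⟨hs, Finset.mem_range.2 s'.2⟩))

/-- A large independent family modulo `Fall x`: `g s * loc 0 ^ t * ∏ loc k ^ j k` with `g s` from `exists_sep`,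
`(s, t, j) ∈ Fin S × Fin t₀ × smp lam z`. For a relation, the terms with `s' ≠ s` lie in `Fs s x`, so the
`s`-part lies in `Fs s x`; apply `indep_Filt` (exponents `Fin.cons t j`, `d = 1`, `der_loc`). -/
theorem Par.Good.exists_indep (h : P.Good ε) {x z : ℝ} {t₀ : ℕ}
    (hx : ((t₀ : ℝ) - 1) / P.T + z / P.D < x) :
    ∃ v : Fin P.S × Fin t₀ × (smp P.lam z) → Rm m,
      ∀ c : Fin P.S × Fin t₀ × (smp P.lam z) → ℂ, ∑ i, c i • v i ∈ P.Fall x → ∀ i, c i = 0 := by
  classical
  choose g hg hg' using fun s : ℕ => h.exists_sep s x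
  have hw : ∀ i, 0 ≤ (P.W i)⁻¹ := fun i => (h.wt_pos i).le
  have hT : (0 : ℝ) < P.T := h.sparse.W_pos 0
  have hD := h.D_pos
  let e : Fin t₀ × (smp P.lam z) → Fin (m + 1) → ℕ := fun tj => Fin.cons tj.1.1 tj.2.1
  have he : Function.Injective e := fun a b hab => by
    have := Fin.cons_inj.1 hab
    exact Prod.ext (Fin.ext this.1) (Subtype.ext this.2)
  refine ⟨fun i => g i.1 * ∏ k, P.loc i.1 k ^ e i.2 k, fun c hc => ?_⟩
  rintro ⟨s, tj⟩
  have hp := (P.mx_maximal s).isPrime
  have h1 : ∑ tj, c (s, tj) • (g s * ∏ k, P.loc s k ^ e tj k) ∈ P.Fs s x := by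
    have h2 := Ideal.mem_iInf.1 hc s
    rw [Fintype.sum_prod_type, ← Finset.add_sum_erase _ _ (Finset.mem_univ s)] at h2
    refine (Ideal.add_mem_iff_left _ (Ideal.sum_mem _ fun s' hs' => ?_)).1 h2
    refine Ideal.sum_mem _ fun tj _ => ?_
    rw [smul_eq_C_mul]
    refine Ideal.mul_mem_left _ _ (Ideal.mul_mem_right _ _ (hg' s' s s.2 fun hh => ?_))
    exact (Finset.mem_erase.1 hs').1 (Fin.ext hh.symm)
  have key := indep_Filt (u := der m) (x := x) hp hw (g := P.loc s) (d := fun _ => 1)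
    (P.loc_mem_mx s) (h.der_loc s) (fun _ => (Ideal.ne_top_iff_one _).1 hp.ne_top)
    (Finset.univ.map ⟨e, he⟩) ?_ (Function.extend e (fun tj => C (c (s, tj)) * g s) 0) ?_ ?_
  · have h3 := key (e tj) (Finset.mem_map_of_mem _ (Finset.mem_univ tj))
    rw [he.extend_apply, mul_eq_zero] at h3
    rcases h3 with h3 | h3
    · exact C_eq_zero.1 h3
    · exact absurd (h3 ▸ Ideal.zero_mem _) (hg s)
  · intro β hβ
    obtain ⟨⟨t, j⟩, -, rfl⟩ := Finset.mem_map.1 hβ
    refine lt_of_le_of_lt ?_ hx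
    rw [Fin.sum_univ_succ]
    refine add_le_add ?_ ?_
    · change ((t : ℕ) : ℝ) * (P.T : ℝ)⁻¹ ≤ _
      rw [← div_eq_mul_inv]
      refine div_le_div_of_nonneg_right ?_ hT.le
      have : ((t : ℕ) : ℝ) + 1 ≤ t₀ := by exact_mod_cast t.2
      linarith
    · refine le_trans (le_of_eq ?_)
        (div_le_div_of_nonneg_right ((mem_smp h.lam_ge).1 j.2) hD.le)
      rw [Finset.sum_div]
      refine Finset.sum_congr rfl fun k _ => ?_
      change ((j.1 k : ℕ) : ℝ) * (P.D / P.lam k)⁻¹ = _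
      rw [inv_div, mul_div_assoc]
  · intro β hβ
    obtain ⟨tj', -, rfl⟩ := Finset.mem_map.1 hβ
    change Function.extend e _ _ (e tj') ∈ _ → Function.extend e _ _ (e tj') = 0
    rw [he.extend_apply]
    intro h3
    rcases hp.mem_or_mem h3 with h4 | h4
    · rw [P.mem_mx, eval_C] at h4
      rw [h4, map_zero, zero_mul]
    · exact absurd h4 (hg s)
  · rw [Finset.sum_map]
    simp only [Function.Embedding.coeFn_mk, he.extend_apply]
    simp only [smul_eq_C_mul, ← mul_assoc] at h1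
    exact h1

end Crest.Agent.R11
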