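import Crest.Agent.R11.ZeroA
import Crest.Agent.R11.Base
import Crest.Agent.R11.KB
/-!
# R11: the zero estimate
-/

set_option autoImplicit false

open MvPolynomial

noncomputable section

namespace Crest.Agent.R11

variable {m : ℕ} {P : Par m} {ε : ℝ}

theorem ZeroB_mem_Fall {x : ℝ} {f : Rm m} : f ∈ P.Fall x ↔ ∀ s < P.S, f ∈ P.Fs s x := by
  unfold Par.Fall
  rw [Ideal.mem_iInf]
  exact ⟨fun h s hs => h ⟨s, hs⟩, fun h s => h s s.2⟩

theorem ZeroB_M_pos (h : P.Good ε) : (0 : ℝ) < P.M := h.sparse.deg_pos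

theorem ZeroB_T_pos (h : P.Good ε) : (0 : ℝ) < P.T := h.sparse.W_pos 0

theorem ZeroB_prime (h : P.Good ε) {y : ℝ} (hy : y ≤ 1) (hS : 0 < P.S) {f : Rm m} (hf : f ≠ 0)
    (hU : f ∈ Un P.lam P.M P.D) (hF : f ∈ P.Fall y) (p : Ideal (Rm m)) (hp : p.IsPrime) :
    (∃ g ∈ Un P.lam (((1 : ℕ) : ℝ) * P.M) (((1 : ℕ) : ℝ) * P.D),
      g ∈ P.Fall (((1 : ℕ) : ℝ) * (y - ε)) ∧ g ∉ p) ∨
    ∃ n₀, ∀ n : ℕ, n₀ ≤ n → ∀ x : Rm m, ∃ a : ℂ, a ≠ 0 ∧
      ∃ u ∈ Un P.lam (n * P.M) (n * P.D), a • x - u ∈ p ⊔ P.Fall (n * (y - ε)) := by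
  have hw : ∀ i, 0 ≤ (P.W i)⁻¹ := fun i => (h.wt_pos i).le
  have hl0 : ∀ k, 0 ≤ P.lam k := fun k => zero_le_one.trans (h.lam_ge k)
  by_cases hA : ∀ l, wsum (fun i => (P.W i)⁻¹) l ≤ ε → app (der m) l f ∈ p
  · right
    refine ⟨0, fun n _ x => ⟨1, one_ne_zero, ?_⟩⟩
    rw [one_smul]
    by_cases hB : ∃ s < P.S, p ≤ P.mx s
    · obtain ⟨s, hs, hps⟩ := hB
      obtain ⟨h0, k, hk⟩ := base_locus h.sparse hf (h.bdd_of_mem_Un hU) hp hA (x := P.pt s) rfl
        (fun g hg => (P.mem_mx s g).1 (hps hg))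
      have hother : ∀ s' < P.S, s' ≠ s → p ⊔ P.Fs s' (n * (y - ε)) = ⊤ := by
        intro s' _ hne
        refine h.sup_Fs_eq_top (fun hle => hne ?_) _
        have h1 := (P.mem_mx s' _).1 (hle hk)
        simp only [map_sub, eval_X, eval_C, Par.pt, Fin.cases_succ] at h1
        have h2 : ((s' : ℂ) - s) * P.ρ k = 0 := by rw [sub_mul]; exact h1
        rcases mul_eq_zero.1 h2 with h3 | h3
        · exact_mod_cast sub_eq_zero.1 h3
        · exact absurd h3 (h.ρ_ne k)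
      obtain ⟨u, hu, hxu⟩ := h.exists_sub_mem h0 s (n * (y - ε)) x
      refine ⟨u, Un_mono ?_ ?_ hu, Par.sup_Fall s hother hxu⟩
      · exact mul_nonneg (Nat.cast_nonneg _) (Nat.cast_nonneg _)
      · have h1 : y - ε ≤ 1 := by linarith [h.sparse.pos]
        have h2 : (n : ℝ) * (y - ε) ≤ n := by
          simpa using mul_le_mul_of_nonneg_left h1 (Nat.cast_nonneg n : (0 : ℝ) ≤ n)
        exact mul_le_mul_of_nonneg_right h2 h.D_pos.le
    · push Not at hB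
      have hall : ∀ s' < P.S, p ⊔ P.Fs s' (n * (y - ε)) = ⊤ := fun s' hs' =>
        h.sup_Fs_eq_top (hB s' hs') _
      refine ⟨0, Submodule.zero_mem _, ?_⟩
      refine Par.sup_Fall 0 (fun s' hs' _ => hall s' hs') ?_
      rw [hall 0 hS]
      exact Submodule.mem_top
  · left
    push Not at hA
    obtain ⟨l, hl, hlp⟩ := hA
    refine ⟨app (der m) l f, ?_, ?_, hlp⟩
    · simpa using app_mem_Un hl0 hU l
    · rw [ZeroB_mem_Fall] at hF ⊢
      intro s hs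
      refine Filt_anti ?_ (app_mem_Filt hw (hF s hs) l)
      simp only [Nat.cast_one, one_mul]
      linarith

/-- The data for Kleiman's theorem. -/
def ZeroB_data (h : P.Good ε) {y : ℝ} (hy : y ≤ 1) (hyε : 0 ≤ y - ε) (hS : 0 < P.S) {f : Rm m}
    (hf : f ≠ 0) (hU : f ∈ Un P.lam P.M P.D) (hF : f ∈ P.Fall y) : KData ℂ (Rm m) where
  U n := Un P.lam (n * P.M) (n * P.D)
  F n := P.Fall (n * (y - ε))
  fg n := Un_fg h.lam_ge _ _
  mono a b hab := Un_mono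
    (mul_le_mul_of_nonneg_right (Nat.cast_le.2 hab) (Nat.cast_nonneg _))
    (mul_le_mul_of_nonneg_right (Nat.cast_le.2 hab) h.D_pos.le)
  mul_mem a b x hx z hz := by
    have := mul_mem_Un hx hz
    rwa [← add_mul, ← add_mul, ← Nat.cast_add] at this
  exhaust x := Un_exhaust (ZeroB_M_pos h) h.D_pos x
  F_zero := by
    rw [eq_top_iff]
    intro g _
    rw [ZeroB_mem_Fall]
    intro s _
    unfold Par.Fs
    rw [Filt_nonpos (fun i => (h.wt_pos i).le) (by simp)]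
    exact Submodule.mem_top
  F_anti a b hab g hg := by
    rw [ZeroB_mem_Fall] at hg ⊢
    intro s hs
    exact Filt_anti (mul_le_mul_of_nonneg_right (Nat.cast_le.2 hab) hyε) (hg s hs)
  F_mul n x hx z hz := by
    rw [ZeroB_mem_Fall] at hx hz ⊢
    intro s hs
    have := mul_mem_Filt (fun i => (h.wt_pos i).le) (hx s hs) (hz s hs)
    rwa [← add_mul, ← Nat.cast_add, add_comm 1 n] at this
  prime p hp := ZeroB_prime h hy hS hf hU hF p hp

theorem ZeroB_bigO (h : P.Good ε) :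
    (fun n : ℕ => (((n * P.M + 1) * (smp P.lam (n * P.D)).card : ℕ) : ℝ)) =O[Filter.atTop]
      fun n : ℕ => (n : ℝ) ^ (m + 1) := by
  refine Asymptotics.IsBigO.of_bound ((P.M + 1) * (P.D + 1) ^ m) ?_
  filter_upwards [Filter.eventually_ge_atTop 1] with n hn
  have hn' : (1 : ℝ) ≤ n := by exact_mod_cast hn
  have hD := h.D_pos
  rw [Real.norm_of_nonneg (Nat.cast_nonneg _), Real.norm_of_nonneg (by positivity)]
  push_cast
  have h1 : ((smp P.lam (n * P.D)).card : ℝ) ≤ (n * P.D + 1) ^ m :=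
    card_smp_le _ (by positivity)
  have h2 : ((n : ℝ) * P.D + 1) ^ m ≤ (n * (P.D + 1)) ^ m :=
    pow_le_pow_left₀ (by positivity) (by nlinarith) _
  have h3 : (n : ℝ) * P.M + 1 ≤ n * (P.M + 1) := by nlinarith
  calc ((n : ℝ) * P.M + 1) * ((smp P.lam (n * P.D)).card : ℝ)
      ≤ (n * (P.M + 1)) * (n * (P.D + 1)) ^ m :=
        mul_le_mul h3 (h1.trans h2) (by positivity) (by positivity)
    _ = _ := by rw [mul_pow]; ring

/-- Apply `KData.main` with `A = ℂ`, `U n = Un lam (n M) (n D)`, `F n = Fall (n (y - ε))`, `r = m`,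
`h n = (n M + 1) * #smp (n D)`. For a prime `p`: either some derivative of `f` of weight `≤ ε` is not in `p`
(first alternative, `app_mem_Un`, `app_mem_Filt`), or `p` is in no `mx s` (`sup_Fs_eq_top`, `sup_Fall`), or
`p ≤ mx s` and `base_locus` gives `X 0 - 1 ∈ p` and `¬ p ≤ mx s'` for `s' ≠ s` (`exists_sub_mem`, `sup_Fall`).
Then `exists_indep` with `t₀ = ⌈n η T⌉₊`, `z = n ((y - ε - η) D)` and `le_of_count`. -/
theorem Par.Good.le_of_mem_Fall (h : P.Good ε) {y η θ : ℝ} (hy : y ≤ 1) (hη : 0 < η) (hθ : 0 < θ)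
    (hθy : θ < y - ε - η) {f : Rm m} (hf : f ≠ 0) (hU : f ∈ Un P.lam P.M P.D)
    (hF : f ∈ P.Fall y) : (P.S : ℝ) * (η * P.T) * θ ^ m ≤ P.M := by
  classical
  rcases Nat.eq_zero_or_pos P.S with hS | hS
  · simp [hS]
  have hyε : 0 ≤ y - ε := by linarith
  have hT := ZeroB_T_pos h
  have hD := h.D_pos
  obtain ⟨C, hC⟩ := (ZeroB_data h hy hyε hS hf hU hF).main m
    (fun n => (n * P.M + 1) * (smp P.lam (n * P.D)).card)
    (fun n => by
      have := rank_Un_le h.lam_ge (n * P.M) (n * P.D)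
      rw [Nat.cast_mul n P.M] at this
      exact this) (ZeroB_bigO h)
  refine le_of_count (C := C) h.lam_ge hD hθ hθy (by positivity) ?_
  filter_upwards [hC] with n hn
  have hx : (((⌈(n : ℝ) * η * P.T⌉₊ : ℕ) : ℝ) - 1) / P.T + n * ((y - ε - η) * P.D) / P.D <
      n * (y - ε) := by
    have h1 : ((⌈(n : ℝ) * η * P.T⌉₊ : ℕ) : ℝ) < n * η * P.T + 1 :=
      Nat.ceil_lt_add_one (by positivity)
    have h2 : (((⌈(n : ℝ) * η * P.T⌉₊ : ℕ) : ℝ) - 1) / P.T < n * η := by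
      rw [div_lt_iff₀ hT]; linarith
    have h3 : (n : ℝ) * ((y - ε - η) * P.D) / P.D = n * (y - ε - η) := by
      field_simp
    rw [h3]; linarith
  obtain ⟨v, hv⟩ := h.exists_indep hx
  have h1 := hn _ v hv
  simp only [Fintype.card_prod, Fintype.card_fin, Fintype.card_coe] at h1
  push_cast at h1
  refine le_trans ?_ h1
  have h2 : (n : ℝ) * η * P.T ≤ ((⌈(n : ℝ) * η * P.T⌉₊ : ℕ) : ℝ) := Nat.le_ceil _
  calc (n : ℝ) * (P.S * (η * P.T)) * ((smp P.lam (n * ((y - ε - η) * P.D))).card : ℝ)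
      = P.S * ((n * η * P.T) * ((smp P.lam (n * ((y - ε - η) * P.D))).card : ℝ)) := by ring
    _ ≤ _ := by gcongr

/-- `poly c` has index `≥ y` at all points (`mem_of_expand`, `coeff_Θ_poly`, `mono_mem_Fs`). -/
theorem Par.Good.zero_est (h : P.Good ε) {y η θ : ℝ} (hy : y ≤ 1) (hη : 0 < η) (hθ : 0 < θ)
    (hθy : θ < y - ε - η) (hM : (P.M : ℝ) < P.S * (η * P.T) * θ ^ m) (c : (Fin m → ℕ) × ℕ → ℂ)
    (hc : ∀ s < P.S, ∀ t < P.T, ∀ j ∈ smp P.lam (y * P.D),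
      ∑ ab ∈ P.cols, c ab * P.entry s t j ab.1 ab.2 = 0) : ∀ ab ∈ P.cols, c ab = 0 := by
  by_cases h0 : P.poly c = 0
  · exact P.eq_zero_of_poly h0
  exfalso
  refine absurd (h.le_of_mem_Fall hy hη hθ hθy h0 (P.poly_mem_Un c) ?_) (not_le.2 hM)
  rw [ZeroB_mem_Fall]
  intro s hs
  have hT := ZeroB_T_pos h
  have hD := h.D_pos
  refine P.mem_of_expand s ((P.Fs s y).restrictScalars ℂ) fun j t hne => ?_
  rw [P.coeff_Θ_poly] at hne
  refine Filt_anti ?_ (h.mono_mem_Fs s t j)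
  have hsum : 0 ≤ ∑ k, (j k : ℝ) * P.lam k :=
    Finset.sum_nonneg fun k _ => mul_nonneg (Nat.cast_nonneg _) (zero_le_one.trans (h.lam_ge k))
  by_cases ht : t < P.T
  · have hj : (j : Fin m → ℕ) ∉ smp P.lam (y * P.D) := fun hj => hne (hc s hs t ht _ hj)
    rw [mem_smp h.lam_ge, not_le] at hj
    have h1 : y ≤ (∑ k, (j k : ℝ) * P.lam k) / P.D := by
      rw [le_div_iff₀ hD]; exact hj.le
    have h2 : (0 : ℝ) ≤ t / P.T := by positivity
    linarith
  · have h1 : (1 : ℝ) ≤ t / P.T := by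
      rw [le_div_iff₀ hT, one_mul]; exact_mod_cast not_lt.1 ht
    have h2 : 0 ≤ (∑ k, (j k : ℝ) * P.lam k) / P.D := by positivity
    linarith

end Crest.Agent.R11
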